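import Vale.Agent.P242.H744.NuC

/-!
P242 (helper196): `ν_{y,s}(x) ≤ C ν_{y,s'}(y)` and `ν_{y,s}(x) ≤ B D_t(y)`, in the frozen vocabulary;
elementary properties of `D_t`.
-/

set_option linter.all false

open MeasureTheory Filter Topology Set
open scoped ENNReal NNReal MeasureTheory

universe u

namespace Vale.Agent.P242.H196

open Vale.Agent.P233 Vale.Agent.P233.RA Vale.Agent.P242.H990

variable {M : Type u} [MetricSpace M] [CompleteSpace M] [SecondCountableTopology M]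
  [MeasurableSpace M] [BorelSpace M] {m : Measure M} {n : ℕ} {K A : ℝ} {o : M}
  {p : ℝ → M → M → ℝ}

/-- comparison of the values of `ν` from a comparison of the kernels -/
theorem nu_le_of (e : H71.Env m n K o A p) (y : M) {s s' c : ℝ} {x x' : M} (hs : 0 < s)
    (hs' : 0 < s') (hle : ∀ z, p s x z ≤ c * p s' x' z) :
    H71.nu m n K p y s x ≤ c * H71.nu m n K p y s' x' := by
  have hC := (H744.isGamma_of e.hyp).toIsDir
  have hφ := ph_mem hC e.ker hs x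
  have hψ := ph_mem hC e.ker hs' x'
  have hφ1 := ph_mem1 e.ker hs x
  have hψ1 := ph_mem1 e.ker hs' x'
  have hw := H744.w_mem e.hyp y
  have hw2 := hC.memLp _ hw
  have hχ : c • ph m p s' x' - ph m p s x ∈ (sob m).W := hC.sub_mem (hC.smul_mem _ _ hψ) hφ
  have h0 : 0 ≤ c • ph m p s' x' - ph m p s x := by
    rw [nonneg_iff_ae]
    filter_upwards [sub_ae (c • ph m p s' x') (ph m p s x), smul_ae (ph m p s' x') c,
      ph_ae e.ker hs x, ph_ae e.ker hs' x'] with z a1 a2 a3 a4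
    rw [a1, a2, a3, a4]
    linarith [hle z]
  have key := H744.nuF_nonneg e.hyp y hχ (mem_sub (mem_smul _ hψ1) hφ1) h0
  have e1 : H71.nuF m n K y (c • ph m p s' x' - ph m p s x)
      = c * H71.nuF m n K y (ph m p s' x') - H71.nuF m n K y (ph m p s x) := by
    unfold H71.nuF
    have m1 : MemLp (ph m p s x * cl m (ww (1 / 2) y) : M →ₘ[m] ℝ) 1 m :=
      mem_mul_22 (hC.memLp _ hφ) hw2
    have m2 : MemLp (ph m p s' x' * cl m (ww (1 / 2) y) : M →ₘ[m] ℝ) 1 m :=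
      mem_mul_22 (hC.memLp _ hψ) hw2
    have n1 := hC.Γ_mem1 hw hφ
    have n2 := hC.Γ_mem1 hw hψ
    rw [I_sub (mem_smul _ hψ1) hφ1, I_smul, sub_mul, smul_mul_assoc, I_sub (mem_smul _ m2) m1,
      I_smul, hC.Γ_sub_right hw (hC.smul_mem _ _ hψ) hφ, hC.Γ_smul_right _ hw hψ,
      I_sub (mem_smul _ n2) n1, I_smul]
    ring
  rw [e1] at key
  have : H71.nuF m n K y (ph m p s x) ≤ c * H71.nuF m n K y (ph m p s' x') := by linarith
  exact this

/-- Harnack for `ν` -/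
theorem nu_le_nu (e : H71.Env m n K o A p) (y : M) {Γ C₀ s s' : ℝ} {x x' : M} (hs : 0 < s)
    (h1 : 4 * A ^ 2 * s ≤ s') (h2 : s' ≤ Γ * s) (h3 : s' ≤ 1 / 2) (hx : dist x x' ≤ C₀ * √s) :
    H71.nu m n K p y s x ≤ cG n A Γ C₀ * Real.exp (2 * A * dist x o) * H71.nu m n K p y s' x' := by
  have hA := e.kb.pos
  exact nu_le_of e y hs (lt_of_lt_of_le (by positivity) h1)
    fun z => e.kb.p_le hs h1 h2 h3 hx

section D
variable {Q A₀ ρ t : ℝ} {y : M}

theorem Dt_ge_floor (e : H71.Env m n K o A p) (ht : 0 < t) (htQ : t ≤ Q * ρ ^ 2) :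
    A₀ * (t / ρ ^ 2) ^ (1 / 8 : ℝ) ≤ H71.Dt m n K p Q A₀ ρ t y := by
  unfold H71.Dt
  have : 0 ≤ ∫ s in t..Q * ρ ^ 2, (t / s) ^ (1 / 8 : ℝ) * (H71.nu m n K p y s y / s) := by
    refine intervalIntegral.integral_nonneg htQ fun s hs => ?_
    have hs0 : 0 < s := lt_of_lt_of_le ht hs.1
    exact mul_nonneg (Real.rpow_nonneg (by positivity) _)
      (div_nonneg (H744.nu_nonneg e y y hs0) hs0.le)
  linarith

theorem Dt_nonneg (e : H71.Env m n K o A p) (hA₀ : 0 ≤ A₀) (ht : 0 < t) (htQ : t ≤ Q * ρ ^ 2) :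
    0 ≤ H71.Dt m n K p Q A₀ ρ t y := by
  refine le_trans ?_ (Dt_ge_floor e ht htQ)
  exact mul_nonneg hA₀ (Real.rpow_nonneg (div_nonneg ht.le (sq_nonneg _)) _)

/-- the integral part of `D_t` over `[a, 2a]` -/
theorem Dt_ge_window (e : H71.Env m n K o A p) (hA₀ : 0 ≤ A₀) (ht : 0 < t) {a v : ℝ} (hta : t ≤ a)
    (ha : 2 * a ≤ Q * ρ ^ 2) (hv0 : 0 ≤ v) (hv : ∀ s ∈ Icc a (2 * a), v ≤ H71.nu m n K p y s y) :
    (t / (2 * a)) ^ (1 / 8 : ℝ) * (v / 2) ≤ H71.Dt m n K p Q A₀ ρ t y := by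
  have ha0 : 0 < a := lt_of_lt_of_le ht hta
  have hf : ContinuousOn (fun s => H71.nu m n K p y s y / s) (Ioi 0) :=
    (H744.nu_cont e y y).div continuousOn_id fun s hs => ne_of_gt hs
  have hf0 : ∀ s, 0 < s → 0 ≤ H71.nu m n K p y s y / s := fun s hs =>
    div_nonneg (H744.nu_nonneg e y y hs) hs.le
  have htQ : t ≤ Q * ρ ^ 2 := by linarith
  have h1 : ∫ s in a..(2 * a), (t / s) ^ (1 / 8 : ℝ) * (H71.nu m n K p y s y / s)
      ≤ ∫ s in t..Q * ρ ^ 2, (t / s) ^ (1 / 8 : ℝ) * (H71.nu m n K p y s y / s) := by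
    refine intervalIntegral.integral_mono_interval hta (by linarith) ha ?_
      (H744.ee_int hf t ht ht htQ)
    refine (ae_restrict_mem measurableSet_Ioc).mono fun s hs => ?_
    have hs0 : 0 < s := ht.trans hs.1
    exact mul_nonneg (Real.rpow_nonneg (by positivity) _) (hf0 s hs0)
  have h2 : (t / (2 * a)) ^ (1 / 8 : ℝ) * (v / 2)
      ≤ ∫ s in a..(2 * a), (t / s) ^ (1 / 8 : ℝ) * (H71.nu m n K p y s y / s) := by
    have h3 : ∫ s in a..(2 * a), (t / (2 * a)) ^ (1 / 8 : ℝ) * (v / (2 * a))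
        ≤ ∫ s in a..(2 * a), (t / s) ^ (1 / 8 : ℝ) * (H71.nu m n K p y s y / s) := by
      refine intervalIntegral.integral_mono_on (by linarith) intervalIntegrable_const
        (H744.ee_int hf t ht ha0 (by linarith)) ?_
      intro s hs
      have hs0 : 0 < s := lt_of_lt_of_le ha0 hs.1
      have k1 : (t / (2 * a)) ^ (1 / 8 : ℝ) ≤ (t / s) ^ (1 / 8 : ℝ) := by
        refine Real.rpow_le_rpow (by positivity) ?_ (by norm_num)
        exact div_le_div_of_nonneg_left ht.le hs0 hs.2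
      have k2 : v / (2 * a) ≤ H71.nu m n K p y s y / s := by
        refine div_le_div₀ (H744.nu_nonneg e y y hs0) (hv s hs) hs0 hs.2
      exact mul_le_mul k1 k2 (by positivity) (Real.rpow_nonneg (by positivity) _)
    refine le_trans (le_of_eq ?_) h3
    rw [intervalIntegral.integral_const, smul_eq_mul]
    field_simp
    ring
  have h4 : 0 ≤ A₀ * (t / ρ ^ 2) ^ (1 / 8 : ℝ) :=
    mul_nonneg hA₀ (Real.rpow_nonneg (div_nonneg ht.le (sq_nonneg _)) _)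
  unfold H71.Dt
  linarith

/-- `D_{t'} ≤ (t'/t)^{1/8} D_t` for `t ≤ t'` -/
theorem Dt_mono (e : H71.Env m n K o A p) (hA₀ : 0 ≤ A₀) (ht : 0 < t) {t' : ℝ} (htt : t ≤ t')
    (htQ : t' ≤ Q * ρ ^ 2) (hρ : 0 < ρ) :
    H71.Dt m n K p Q A₀ ρ t' y ≤ (t' / t) ^ (1 / 8 : ℝ) * H71.Dt m n K p Q A₀ ρ t y := by
  have ht' : 0 < t' := ht.trans_le htt
  have hf : ContinuousOn (fun s => H71.nu m n K p y s y / s) (Ioi 0) :=
    (H744.nu_cont e y y).div continuousOn_id fun s hs => ne_of_gt hs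
  have hf0 : ∀ s, 0 < s → 0 ≤ H71.nu m n K p y s y / s := fun s hs =>
    div_nonneg (H744.nu_nonneg e y y hs) hs.le
  have h1 : ∫ s in t'..Q * ρ ^ 2, (t' / s) ^ (1 / 8 : ℝ) * (H71.nu m n K p y s y / s)
      = (t' / t) ^ (1 / 8 : ℝ)
        * ∫ s in t'..Q * ρ ^ 2, (t / s) ^ (1 / 8 : ℝ) * (H71.nu m n K p y s y / s) := by
    rw [← intervalIntegral.integral_const_mul]
    refine intervalIntegral.integral_congr fun s hs => ?_
    rw [uIcc_of_le htQ] at hs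
    have hs0 : 0 < s := ht'.trans_le hs.1
    have e1 : t' / s = (t' / t) * (t / s) := by field_simp
    rw [e1, Real.mul_rpow (by positivity) (by positivity)]
    ring
  have h2 : ∫ s in t'..Q * ρ ^ 2, (t / s) ^ (1 / 8 : ℝ) * (H71.nu m n K p y s y / s)
      ≤ ∫ s in t..Q * ρ ^ 2, (t / s) ^ (1 / 8 : ℝ) * (H71.nu m n K p y s y / s) := by
    refine intervalIntegral.integral_mono_interval htt htQ le_rfl ?_
      (H744.ee_int hf t ht ht (htt.trans htQ))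
    refine (ae_restrict_mem measurableSet_Ioc).mono fun s hs => ?_
    have hs0 : 0 < s := ht.trans hs.1
    exact mul_nonneg (Real.rpow_nonneg (by positivity) _) (hf0 s hs0)
  have h3 : A₀ * (t' / ρ ^ 2) ^ (1 / 8 : ℝ)
      = (t' / t) ^ (1 / 8 : ℝ) * (A₀ * (t / ρ ^ 2) ^ (1 / 8 : ℝ)) := by
    have e1 : t' / ρ ^ 2 = (t' / t) * (t / ρ ^ 2) := by field_simp
    rw [e1, Real.mul_rpow (by positivity) (by positivity)]
    ring
  unfold H71.Dt
  rw [h1, h3, mul_add]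
  have := mul_le_mul_of_nonneg_left h2 (Real.rpow_nonneg (div_nonneg ht'.le ht.le) (1 / 8 : ℝ))
  linarith

end D

/-- **`ν_{y,s}(x) ≤ B D_t(y)`** for `d(x,y) ≤ C₀ √t` and `s` comparable with `t`. -/
theorem nu_le_Dt (e : H71.Env m n K o A p) (R₀ C₀ Γ : ℝ) (hΓ : 1 ≤ Γ) (hC₀ : 0 ≤ C₀) :
    ∃ B, 1 ≤ B ∧ ∀ Q A₀ ρ t s : ℝ, ∀ x y : M, 0 ≤ A₀ → dist x o ≤ R₀ → 0 < t →
      dist x y ≤ C₀ * √t → t / Γ ≤ s → s ≤ Γ * t → 8 * A ^ 2 * Γ * t ≤ Q * ρ ^ 2 →
      8 * A ^ 2 * Γ * t ≤ 1 / 2 →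
      H71.nu m n K p y s x ≤ B * H71.Dt m n K p Q A₀ ρ t y := by
  have hA := e.kb.one_le
  have hA2 : 1 ≤ A ^ 2 := one_le_pow₀ hA
  set c := cG n A (8 * A ^ 2 * Γ ^ 2) (C₀ * √Γ) * Real.exp (2 * A * R₀) with hc
  have hc0 : 0 < c := mul_pos (cG_pos hA (by positivity)) (Real.exp_pos _)
  refine ⟨max 1 (c * (2 * (8 * A ^ 2 * Γ))), le_max_left _ _, ?_⟩
  intro Q A₀ ρ t s x y hA₀ hx ht hxy hs1 hs2 hQ h12
  have hs0 : 0 < s := lt_of_lt_of_le (by positivity) hs1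
  set a := 4 * A ^ 2 * Γ * t with ha
  have hta : t ≤ a := by
    rw [ha]
    have : 1 ≤ 4 * A ^ 2 * Γ := by nlinarith
    nlinarith
  have ha0 : 0 < a := by positivity
  have hΓs : t ≤ Γ * s := by
    rw [div_le_iff₀ (by linarith)] at hs1
    linarith
  have hx' : dist x y ≤ C₀ * √Γ * √s := by
    refine hxy.trans ?_
    rw [mul_assoc, ← Real.sqrt_mul (by linarith)]
    exact mul_le_mul_of_nonneg_left (Real.sqrt_le_sqrt hΓs) hC₀
  have hD0 : 0 ≤ H71.Dt m n K p Q A₀ ρ t y := Dt_nonneg e hA₀ ht (by nlinarith)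
  have hν0 := H744.nu_nonneg e y x hs0
  have key : ∀ s' ∈ Icc a (2 * a), H71.nu m n K p y s x / c ≤ H71.nu m n K p y s' y := by
    intro s' hs'
    rw [div_le_iff₀ hc0, mul_comm]
    have h1 : 4 * A ^ 2 * s ≤ s' := by
      refine le_trans ?_ hs'.1
      rw [ha]
      have : 4 * A ^ 2 * s ≤ 4 * A ^ 2 * (Γ * t) := mul_le_mul_of_nonneg_left hs2 (by positivity)
      linarith
    have h2 : s' ≤ 8 * A ^ 2 * Γ ^ 2 * s := by
      refine hs'.2.trans ?_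
      rw [ha]
      have : 8 * A ^ 2 * Γ * t ≤ 8 * A ^ 2 * Γ * (Γ * s) :=
        mul_le_mul_of_nonneg_left hΓs (by positivity)
      nlinarith
    have h3 : s' ≤ 1 / 2 := by
      refine hs'.2.trans ?_
      rw [ha]; linarith
    refine (nu_le_nu e y hs0 h1 h2 h3 hx').trans ?_
    refine mul_le_mul_of_nonneg_right ?_ (H744.nu_nonneg e y y (ha0.trans_le hs'.1))
    rw [hc]
    refine mul_le_mul_of_nonneg_left ?_ (cG_pos hA (by positivity)).le
    exact Real.exp_le_exp.2 (mul_le_mul_of_nonneg_left hx (by linarith))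
  have h1 := Dt_ge_window (Q := Q) (A₀ := A₀) (ρ := ρ) e hA₀ ht hta (by rw [ha]; linarith)
    (div_nonneg hν0 hc0.le) key
  have h2 : 1 / (8 * A ^ 2 * Γ) ≤ (t / (2 * a)) ^ (1 / 8 : ℝ) := by
    have e1 : t / (2 * a) = 1 / (8 * A ^ 2 * Γ) := by
      rw [ha]; field_simp; ring
    rw [e1]
    have h8 : 1 ≤ 8 * A ^ 2 * Γ := by nlinarith
    have h9 : 1 / (8 * A ^ 2 * Γ) ≤ 1 := by
      rw [div_le_one (by linarith)]; exact h8
    calc 1 / (8 * A ^ 2 * Γ) = (1 / (8 * A ^ 2 * Γ)) ^ (1 : ℝ) := (Real.rpow_one _).symm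
      _ ≤ (1 / (8 * A ^ 2 * Γ)) ^ (1 / 8 : ℝ) :=
          Real.rpow_le_rpow_of_exponent_ge (by positivity) h9 (by norm_num)
  have h3 : 1 / (8 * A ^ 2 * Γ) * (H71.nu m n K p y s x / c / 2) ≤ H71.Dt m n K p Q A₀ ρ t y :=
    (mul_le_mul_of_nonneg_right h2 (by positivity)).trans h1
  calc H71.nu m n K p y s x
      = c * (2 * (8 * A ^ 2 * Γ)) * (1 / (8 * A ^ 2 * Γ) * (H71.nu m n K p y s x / c / 2)) := by
        field_simp
    _ ≤ c * (2 * (8 * A ^ 2 * Γ)) * H71.Dt m n K p Q A₀ ρ t y :=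
        mul_le_mul_of_nonneg_left h3 (by positivity)
    _ ≤ _ := mul_le_mul_of_nonneg_right (le_max_right _ _) hD0

end Vale.Agent.P242.H196
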