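import Vale.Agent.P242.H196.Lin

/-!
P242, package A-T7 (helper196): the core of the induction (T), abstract form.
`E` is the space of normalised coordinates (`c`-space with the norm `|·|_{k,x}`), `i : E → F`
sends `v` to the class of `uhat_v`, `N F = P_t |F| (x)`; `p v ^ 2 = s gam_s(uhat_v)(x)`.
-/

set_option linter.all false

open Finset

namespace Vale.Agent.P242.H196

variable {E : Type*} [NormedAddCommGroup E] [InnerProductSpace ℝ E] {n : ℕ}

/-- `c j` is the affine part of `(b_{q_j} - b_x)/r` (R1), `v j = (uhat(q_j) - uhat(x))/r`.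
`nd`: nondegeneracy; `near`: near isometry + (R1); `dens`: density; `r2`: (R2). -/
theorem T_core {F : Type*} [AddCommGroup F] [Module ℝ F] (e : OrthonormalBasis (Fin n) ℝ E)
    (p : Seminorm ℝ E) (i : E →ₗ[ℝ] F) (N : F → ℝ) (one : F) {c v : Fin n → E}
    {c1 a w s1 s2 : ℝ} (hc1 : 0 < c1) (hw : 0 ≤ w) (hs2 : 0 ≤ s2) (hs1 : 0 ≤ s1)
    (nd : ∀ v : E, ∀ b : ℝ, c1 * ‖v‖ ≤ N (i v - b • one))
    (near : ∀ j, ∃ b : ℝ, N (i (c j + v j) - b • one) ≤ c1 * s1)
    (dens : ∀ j, ‖v j - e j‖ ≤ s2)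
    (r2 : ∀ j, p (c j) ^ 2 ≤ w) (hsn : n * (s1 + s2) ≤ 1 / 2) (z : E) :
    p z ^ 2 ≤ 4 * n ^ 2 * w * ‖z‖ ^ 2 := by
  refine form_le_of_basis e p (fun j => - c j) hw (fun j => ?_) (add_nonneg hs1 hs2)
    (fun j => ?_) hsn z
  · show p (-c j) ^ 2 ≤ w
    rw [map_neg_eq_map]; exact r2 j
  · obtain ⟨b, hb⟩ := near j
    have h1 := (nd (c j + v j) b).trans hb
    have h2 : ‖c j + v j‖ ≤ s1 := le_of_mul_le_mul_left h1 hc1
    calc ‖e j - -c j‖ = ‖(c j + v j) + (e j - v j)‖ := by congr 1; abel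
      _ ≤ ‖c j + v j‖ + ‖e j - v j‖ := norm_add_le _ _
      _ ≤ s1 + s2 := by
          refine add_le_add h2 ?_
          rw [norm_sub_rev]; exact dens j

end Vale.Agent.P242.H196
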