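import Vale.Agent.P233.H103.Semi3

/-!
P242, package A-T7 (helper196): `L¹` bounds for the heat flow against a nonnegative weight.
-/

set_option linter.all false

open MeasureTheory Filter Topology Set
open scoped ENNReal NNReal

namespace Vale.Agent.P242.H196

open Vale.Agent.P233

variable {M : Type*} [MeasurableSpace M] {m : Measure M} {C : Calc m}

/-! ### elementary facts on `I (φ * |f|)` -/

theorem abs_ae (f : M →ₘ[m] ℝ) : ⇑|f| =ᵐ[m] fun x => |f x| := AEEqFun.coeFn_abs f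

theorem mem_abs {f : M →ₘ[m] ℝ} {p : ℝ≥0∞} (hf : MemLp f p m) : MemLp (|f| : M →ₘ[m] ℝ) p m :=
  mem_of_le hf (by filter_upwards [abs_ae f] with x hx; rw [hx, abs_abs])

theorem I_wabs_le {φ f g : M →ₘ[m] ℝ} (h0 : 0 ≤ φ) (hf : MemLp (φ * |f| : M →ₘ[m] ℝ) 1 m)
    (hg : MemLp (φ * |g| : M →ₘ[m] ℝ) 1 m) (h : ∀ᵐ x ∂m, |f x| ≤ |g x|) :
    I (φ * |f|) ≤ I (φ * |g|) := by
  refine I_mono hf hg (le_iff_ae.2 ?_)
  filter_upwards [mul_ae φ |f|, mul_ae φ |g|, abs_ae f, abs_ae g, nonneg_iff_ae.1 h0, h]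
    with x a1 a2 a3 a4 a5 a6
  rw [a1, a2, a3, a4]
  exact mul_le_mul_of_nonneg_left a6 a5

/-- triangle inequality -/
theorem I_wabs_add_le {φ f g : M →ₘ[m] ℝ} (h0 : 0 ≤ φ) (hf : MemLp (φ * |f| : M →ₘ[m] ℝ) 1 m)
    (hg : MemLp (φ * |g| : M →ₘ[m] ℝ) 1 m) :
    I (φ * |f + g|) ≤ I (φ * |f|) + I (φ * |g|) := by
  rw [← I_add hf hg]
  have hle : ∀ᵐ x ∂m, (φ * |f + g| : M →ₘ[m] ℝ) x ≤ (φ * |f| + φ * |g| : M →ₘ[m] ℝ) x := by
    filter_upwards [mul_ae φ |f + g|, mul_ae φ |f|, mul_ae φ |g|, abs_ae f, abs_ae g,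
      abs_ae (f + g), add_ae f g, add_ae (φ * |f|) (φ * |g|), nonneg_iff_ae.1 h0]
      with x a1 a2 a3 a4 a5 a6 a7 a8 a9
    rw [a8, a1, a2, a3, a4, a5, a6, a7, ← mul_add]
    exact mul_le_mul_of_nonneg_left (abs_add_le _ _) a9
  have hfg : MemLp (φ * |f + g| : M →ₘ[m] ℝ) 1 m := by
    refine mem_of_le (mem_add hf hg) ?_
    filter_upwards [hle, mul_ae φ |f + g|, abs_ae (f + g), nonneg_iff_ae.1 h0] with x a1 a2 a3 a4
    have h1 : 0 ≤ (φ * |f + g| : M →ₘ[m] ℝ) x := by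
      rw [a2, a3]; exact mul_nonneg a4 (abs_nonneg _)
    rw [abs_of_nonneg h1]
    exact a1.trans (le_abs_self _)
  exact I_mono hfg (mem_add hf hg) (le_iff_ae.2 hle)

/-- `I(φ|f-g|) ≤ I(φ|f|) + I(φ|g|)` -/
theorem I_wabs_sub_le {φ f g : M →ₘ[m] ℝ} (h0 : 0 ≤ φ) (hf : MemLp (φ * |f| : M →ₘ[m] ℝ) 1 m)
    (hg : MemLp (φ * |g| : M →ₘ[m] ℝ) 1 m) :
    I (φ * |f - g|) ≤ I (φ * |f|) + I (φ * |g|) := by
  have h := I_wabs_add_le (g := -g) h0 hf (by rwa [abs_neg])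
  rwa [abs_neg, ← sub_eq_add_neg] at h

theorem I_wabs_nonneg {φ f : M →ₘ[m] ℝ} (h0 : 0 ≤ φ) : 0 ≤ I (φ * |f|) := by
  refine I_nonneg (nonneg_iff_ae.2 ?_)
  filter_upwards [mul_ae φ |f|, abs_ae f, nonneg_iff_ae.1 h0] with x a1 a2 a3
  rw [a1, a2]; exact mul_nonneg a3 (abs_nonneg _)

theorem I_wabs_smul {φ f : M →ₘ[m] ℝ} (c : ℝ) : I (φ * |c • f|) = |c| * I (φ * |f|) := by
  rw [← I_smul]
  congr 1
  apply AEEqFun.ext
  filter_upwards [mul_ae φ |c • f|, abs_ae (c • f), smul_ae f c, smul_ae (φ * |f|) |c|,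
    mul_ae φ |f|, abs_ae f] with x a1 a2 a3 a4 a5 a6
  rw [a1, a2, a3, a4, a5, a6, abs_mul]; ring

theorem I_abs_le_wabs {φ f : M →ₘ[m] ℝ} (h0 : 0 ≤ φ) : |I (φ * f)| ≤ I (φ * |f|) := by
  unfold I
  rw [← Real.norm_eq_abs]
  refine (norm_integral_le_integral_norm _).trans (le_of_eq (integral_congr_ae ?_))
  filter_upwards [mul_ae φ f, mul_ae φ |f|, abs_ae f, nonneg_iff_ae.1 h0] with x a1 a2 a3 a4
  rw [a1, a2, a3, Real.norm_eq_abs, abs_mul, abs_of_nonneg a4]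

/-! ### the flow -/

/-- derivative in time of `∫ P_t f g`, for `f ∈ L²` and positive times -/
theorem P_hasDeriv_I' (hC : IsDir C) {t : ℝ} (ht : 0 < t) {f g : M →ₘ[m] ℝ} (hf : MemLp f 2 m)
    (hg : MemLp g 2 m) :
    HasDerivAt (fun s => I (C.P s f * g)) (I (C.lap (C.P t f) * g)) t := by
  have h0 : 0 < t / 2 := by positivity
  have h1 := hC.P_hasDeriv_I (f := C.P (t / 2) f) h0 (hC.P_isLap h0 hf) hg
  have h2 : C.P (t / 2) (C.lap (C.P (t / 2) f)) = C.lap (C.P t f) := by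
    have := hC.P_lap_add h0.le h0 hf
    rw [add_halves] at this
    exact this.symm
  rw [h2] at h1
  have h3 : HasDerivAt (fun s : ℝ => s - t / 2) 1 t := (hasDerivAt_id t).sub_const _
  have h1' : HasDerivAt (fun s => I (C.P s (C.P (t / 2) f) * g)) (I (C.lap (C.P t f) * g))
      (t - t / 2) := by
    rw [sub_half]; exact h1
  have h4 := h1'.comp t h3
  rw [mul_one] at h4
  refine h4.congr_of_eventuallyEq ?_
  have h5 : ∀ᶠ s in 𝓝 t, t / 2 < s := lt_mem_nhds (by linarith)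
  filter_upwards [h5] with s hs
  simp only [Function.comp]
  rw [hC.P_P (by linarith) h0.le hf]
  congr 3
  ring

/-- `∫ φ |P_b f - P_a f| ≤ (b - a) sup_τ ∫ φ |Δ P_τ f|` -/
theorem I_abs_P_sub_le (hC : IsDir C) {a b B : ℝ} (ha : 0 < a) (hab : a ≤ b)
    {f φ : M →ₘ[m] ℝ} (hf : MemLp f 2 m) (hφ : MemLp φ 2 m) (h0 : 0 ≤ φ)
    (hB : ∀ τ ∈ Icc a b, I (φ * |C.lap (C.P τ f)|) ≤ B) :
    I (φ * |C.P b f - C.P a f|) ≤ (b - a) * B := by
  set d : M →ₘ[m] ℝ := C.P b f - C.P a f with hd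
  have hd2 : MemLp d 2 m := mem_sub (hC.P_mem2 b hf) (hC.P_mem2 a hf)
  have hdm : AEMeasurable d m := d.aestronglyMeasurable.aemeasurable
  have hsm : AEStronglyMeasurable (fun x => d x / |d x|) m :=
    (hdm.div (measurable_norm.comp_aemeasurable hdm)).aestronglyMeasurable
  set σ : M →ₘ[m] ℝ := AEEqFun.mk _ hsm with hσ
  have hσe : ⇑σ =ᵐ[m] fun x => d x / |d x| := AEEqFun.coeFn_mk _ hsm
  have hσ1 : ∀ᵐ x ∂m, |σ x| ≤ 1 := by
    filter_upwards [hσe] with x hx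
    rw [hx, abs_div, abs_abs]
    exact div_self_le_one _
  have hg2 : MemLp (φ * σ : M →ₘ[m] ℝ) 2 m := by
    refine mem_of_le hφ ?_
    filter_upwards [mul_ae φ σ, hσ1] with x a1 a2
    rw [a1, abs_mul]
    exact mul_le_of_le_one_right (abs_nonneg _) a2
  have hder : ∀ τ ∈ Icc a b, HasDerivWithinAt (fun s => I (C.P s f * (φ * σ)))
      (I (C.lap (C.P τ f) * (φ * σ))) (Icc a b) τ := fun τ hτ =>
    (P_hasDeriv_I' hC (ha.trans_le hτ.1) hf hg2).hasDerivWithinAt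
  have hbd : ∀ τ ∈ Icc a b, ‖I (C.lap (C.P τ f) * (φ * σ))‖ ≤ B := by
    intro τ hτ
    refine le_trans ?_ (hB τ hτ)
    have hL : MemLp (C.lap (C.P τ f)) 2 m := (hC.P_isLap (ha.trans_le hτ.1) hf).2.1
    unfold I
    refine (norm_integral_le_integral_norm _).trans ?_
    refine integral_mono_ae ?_ ?_ ?_
    · exact (int_of_mem (mem_mul_22 hL hg2)).norm
    · exact int_of_mem (mem_mul_22 hφ (mem_abs hL))
    · filter_upwards [mul_ae (C.lap (C.P τ f)) (φ * σ), mul_ae φ σ,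
        mul_ae φ |C.lap (C.P τ f)|, abs_ae (C.lap (C.P τ f)), hσ1, nonneg_iff_ae.1 h0]
        with x a1 a2 a3 a4 a5 a6
      simp only [a1, a2, a3, a4, Real.norm_eq_abs, abs_mul]
      rw [abs_of_nonneg a6]
      have : |C.lap (C.P τ f) x| * (φ x * |σ x|) ≤ |C.lap (C.P τ f) x| * (φ x * 1) :=
        mul_le_mul_of_nonneg_left (mul_le_mul_of_nonneg_left a5 a6) (abs_nonneg _)
      linarith
  have hmv := (convex_Icc a b).norm_image_sub_le_of_norm_hasDerivWithin_le hder hbd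
    (left_mem_Icc.2 hab) (right_mem_Icc.2 hab)
  have e1 : I (C.P b f * (φ * σ)) - I (C.P a f * (φ * σ)) = I (φ * |d|) := by
    rw [← I_sub (mem_mul_22 (hC.P_mem2 b hf) hg2) (mem_mul_22 (hC.P_mem2 a hf) hg2), ← sub_mul,
      ← hd]
    congr 1
    apply AEEqFun.ext
    filter_upwards [mul_ae d (φ * σ), mul_ae φ σ, mul_ae φ |d|, abs_ae d, hσe]
      with x a1 a2 a3 a4 a5
    rw [a1, a2, a3, a4, a5]
    by_cases h : d x = 0
    · rw [h]; simp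
    · have : |d x| ≠ 0 := abs_ne_zero.2 h
      field_simp
      rw [sq_abs]; ring
  rw [e1] at hmv
  calc I (φ * |d|) ≤ ‖I (φ * |d|)‖ := Real.le_norm_self _
    _ ≤ B * ‖b - a‖ := hmv
    _ = (b - a) * B := by rw [Real.norm_of_nonneg (by linarith)]; ring

/-- `∫ φ |P_b f - f| ≤ b sup_{0<τ≤b} ∫ φ |Δ P_τ f|` -/
theorem I_abs_P_sub_self_le (hC : IsDir C) {b B : ℝ} (hb : 0 < b)
    {f φ : M →ₘ[m] ℝ} (hf : MemLp f 2 m) (hφ : MemLp φ 2 m) (h0 : 0 ≤ φ) (hB0 : 0 ≤ B)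
    (hB : ∀ τ ∈ Ioc 0 b, I (φ * |C.lap (C.P τ f)|) ≤ B) :
    I (φ * |C.P b f - f|) ≤ b * B := by
  -- for small `a`
  have h1 : ∀ a ∈ Ioc 0 b, I (φ * |C.P b f - f|)
      ≤ b * B + √(I (φ ^ 2)) * √(I ((C.P a f - C.P 0 f) ^ 2)) := by
    intro a ha
    have e : C.P b f - f = (C.P b f - C.P a f) + (C.P a f - C.P 0 f) := by
      rw [hC.P_zero_time hf]; abel
    have m0 : MemLp (C.P a f - C.P 0 f : M →ₘ[m] ℝ) 2 m := mem_sub (hC.P_mem2 a hf) (hC.P_mem2 0 hf)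
    have m1 : MemLp (φ * |C.P b f - C.P a f| : M →ₘ[m] ℝ) 1 m :=
      mem_mul_22 hφ (mem_abs (mem_sub (hC.P_mem2 b hf) (hC.P_mem2 a hf)))
    have m2 : MemLp (φ * |C.P a f - C.P 0 f| : M →ₘ[m] ℝ) 1 m := mem_mul_22 hφ (mem_abs m0)
    rw [e]
    refine (I_wabs_add_le h0 m1 m2).trans (add_le_add ?_ ?_)
    · refine (I_abs_P_sub_le hC ha.1 ha.2 hf hφ h0 fun τ hτ =>
        hB τ ⟨ha.1.trans_le hτ.1, hτ.2⟩).trans ?_
      exact mul_le_mul_of_nonneg_right (by linarith [ha.1]) hB0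
    · have h2 := I_abs_le hφ (mem_abs m0)
      have h3 : (|C.P a f - C.P 0 f| : M →ₘ[m] ℝ) ^ 2 = (C.P a f - C.P 0 f) ^ 2 := by
        apply AEEqFun.ext
        rw [sq, sq]
        filter_upwards [mul_ae |C.P a f - C.P 0 f| |C.P a f - C.P 0 f|,
          mul_ae (C.P a f - C.P 0 f) (C.P a f - C.P 0 f), abs_ae (C.P a f - C.P 0 f)]
          with x a1 a2 a3
        rw [a1, a2, a3, abs_mul_abs_self]
      rw [h3] at h2
      exact (le_abs_self _).trans h2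
  have h2 : Tendsto (fun a => b * B + √(I (φ ^ 2)) * √(I ((C.P a f - C.P 0 f) ^ 2)))
      (𝓝[>] 0) (𝓝 (b * B + √(I (φ ^ 2)) * √0)) :=
    ((((Real.continuous_sqrt.tendsto 0).comp
      ((hC.P_cont hf 0).mono_left nhdsWithin_le_nhds)).const_mul _).const_add _)
  rw [Real.sqrt_zero, mul_zero, add_zero] at h2
  refine ge_of_tendsto h2 ?_
  filter_upwards [Ioc_mem_nhdsGT hb] with a ha using h1 a ha

end Vale.Agent.P242.H196
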