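import Vale.Agent.P233.H66.Time3
import Vale.Agent.P233.H103.Semi4
import Vale.Agent.P242.H542.Gam

/-!
P242, package A-T7 (helper196): weighted Cauchy-Schwarz for `Γ` and the difference `P_τ u - u`
for a function `u` with small Laplacian gradient.
-/

set_option linter.all false

open MeasureTheory Filter Topology Set
open scoped ENNReal NNReal

namespace Vale.Agent.P242.H196

open Vale.Agent.P233

variable {M : Type*} [MeasurableSpace M] {m : Measure M} {C : Calc m}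

section G
variable (hC : IsGamma C) {f g h u φ F : M →ₘ[m] ℝ} {τ t B : ℝ}
include hC

theorem I_Γ_nonneg (h0 : 0 ≤ φ) (hf : f ∈ C.W) : 0 ≤ I (φ * C.Γ f f) :=
  I_nonneg (mul_nonneg h0 (hC.nonneg _ hf))

/-- `I(φ Γ(f+rg,f+rg))` -/
theorem I_Γ_expand (hφ : MemLp φ ∞ m) (r : ℝ) (hf : f ∈ C.W) (hg : g ∈ C.W) :
    I (φ * C.Γ (f + r • g) (f + r • g))
      = I (φ * C.Γ f f) + 2 * r * I (φ * C.Γ f g) + r ^ 2 * I (φ * C.Γ g g) := by
  have hr := hC.smul_mem r _ hg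
  have e1 : C.Γ (f + r • g) (f + r • g)
      = C.Γ f f + (2 * r) • C.Γ f g + (r ^ 2) • C.Γ g g := by
    rw [hC.add_left _ hf _ hr _ (hC.add_mem _ hf _ hr), hC.Γ_add_right hf hf hr,
      hC.Γ_add_right hr hf hr, hC.smul_left _ _ hg _ hf, hC.smul_left _ _ hg _ hr,
      hC.Γ_smul_right _ hf hg, hC.Γ_smul_right _ hg hg, hC.symm _ hg _ hf]
    module
  have m1 := mem_mul_top hφ (hC.Γ_mem1 hf hf)
  have m2 := mem_mul_top hφ (hC.Γ_mem1 hf hg)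
  have m3 := mem_mul_top hφ (hC.Γ_mem1 hg hg)
  have e2 : φ * C.Γ (f + r • g) (f + r • g)
      = φ * C.Γ f f + (2 * r) • (φ * C.Γ f g) + (r ^ 2) • (φ * C.Γ g g) := by
    rw [e1]; algebra
  rw [e2, I_add (mem_add m1 (mem_smul _ m2)) (mem_smul _ m3), I_add m1 (mem_smul _ m2), I_smul,
    I_smul]

/-- weighted Cauchy-Schwarz -/
theorem I_Γ_cs (hφ : MemLp φ ∞ m) (h0 : 0 ≤ φ) (hf : f ∈ C.W) (hg : g ∈ C.W) :
    I (φ * C.Γ f g) ^ 2 ≤ I (φ * C.Γ f f) * I (φ * C.Γ g g) := by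
  refine disc_of_forall fun r => ?_
  rw [← I_Γ_expand hC hφ r hf hg]
  exact I_Γ_nonneg hC h0 (hC.add_mem _ hf _ (hC.smul_mem _ _ hg))

theorem I_Γ_abs (hφ : MemLp φ ∞ m) (h0 : 0 ≤ φ) (hf : f ∈ C.W) (hg : g ∈ C.W) :
    |I (φ * C.Γ f g)| ≤ √(I (φ * C.Γ f f)) * √(I (φ * C.Γ g g)) := by
  rw [← Real.sqrt_mul (I_Γ_nonneg hC h0 hf)]
  exact Real.abs_le_sqrt (I_Γ_cs hC hφ h0 hf hg)

/-- Minkowski -/
theorem I_Γ_add_le (hφ : MemLp φ ∞ m) (h0 : 0 ≤ φ) (hf : f ∈ C.W) (hg : g ∈ C.W) :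
    √(I (φ * C.Γ (f + g) (f + g))) ≤ √(I (φ * C.Γ f f)) + √(I (φ * C.Γ g g)) := by
  have h1 := I_Γ_expand hC hφ 1 hf hg
  rw [one_smul] at h1
  have h2 := I_Γ_abs hC hφ h0 hf hg
  have hf0 := I_Γ_nonneg hC h0 hf
  have hg0 := I_Γ_nonneg hC h0 hg
  rw [h1]
  refine Real.sqrt_le_iff.2 ⟨by positivity, ?_⟩
  rw [add_sq, Real.sq_sqrt hf0, Real.sq_sqrt hg0]
  have := (abs_le.1 h2).2
  linarith

theorem I_Γ_neg (hf : f ∈ C.W) : C.Γ (-f) (-f) = C.Γ f f := by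
  have e : -f = (-1 : ℝ) • f := by module
  have hr := hC.smul_mem (-1) _ hf
  rw [e, hC.smul_left _ _ hf _ hr, hC.Γ_smul_right _ hf hf]
  module

theorem I_Γ_sub_le (hφ : MemLp φ ∞ m) (h0 : 0 ≤ φ) (hf : f ∈ C.W) (hg : g ∈ C.W) :
    √(I (φ * C.Γ (f - g) (f - g))) ≤ √(I (φ * C.Γ f f)) + √(I (φ * C.Γ g g)) := by
  have hg' : -g ∈ C.W := by
    have := hC.smul_mem (-1) _ hg
    simpa using this
  have h := I_Γ_add_le hC hφ h0 hf hg'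
  rwa [I_Γ_neg hC hg, ← sub_eq_add_neg] at h

/-- `d/ds I(φ Γ(F, P_s u)) = I(φ Γ(F, P_s Δu))`, from the right also at `s = 0` -/
theorem hasDeriv_Γ_P (hφ : MemLp φ ∞ m) (hF : F ∈ C.W) (hu : C.IsLap u f) (hf : f ∈ C.W)
    (ht : 0 ≤ t) :
    HasDerivWithinAt (fun s => I (φ * C.Γ F (C.P s u))) (I (φ * C.Γ F (C.P t f))) (Ici 0) t := by
  have hD := hC.toIsDir
  have d1 : C.DW (fun s => C.P s u) (C.P t f) (Ici 0) t :=
    ⟨fun r hr => hD.sub_mem (hD.P_memW _ hu.1) (hD.P_memW _ hu.1), hD.P_memW _ hf,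
      hD.P_derivW ht hu hf⟩
  have d0 : C.DW (fun _ : ℝ => F) 0 (Ici 0) t := hD.DW_const F
  have d2 := hD.DW_Γ d0 d1 hF (hD.P_memW t hu.1)
  have d3 := d2.const_mul hφ
  have d4 := d3.I_hasDeriv (fun r _ => mem_mul_top hφ (hC.Γ_mem1 hF (hD.P_memW _ hu.1)))
    (mem_mul_top hφ (hC.Γ_mem1 hF (hD.P_memW _ hu.1)))
  refine d4.congr_deriv ?_
  rw [hC.Γ_zero_left (hD.P_memW t hu.1), zero_add]

/-- the difference `P_τ u - u` in energy -/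
theorem I_Γ_P_sub_le (hφ : MemLp φ ∞ m) (h0 : 0 ≤ φ) (hu : C.IsLap u f) (hf : f ∈ C.W)
    (hτ : 0 ≤ τ) (hB0 : 0 ≤ B)
    (hB : ∀ s ∈ Ico 0 τ, I (φ * C.Γ (C.P s f) (C.P s f)) ≤ B ^ 2) :
    I (φ * C.Γ (C.P τ u - u) (C.P τ u - u)) ≤ (τ * B) ^ 2 := by
  have hD := hC.toIsDir
  have hu2 := hC.memLp _ hu.1
  set F := C.P τ u - u with hF
  have hPW : ∀ s, C.P s u ∈ C.W := fun s => hD.P_memW s hu.1
  have hFW : F ∈ C.W := hD.sub_mem (hPW τ) hu.1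
  set E := I (φ * C.Γ F F) with hE
  have hE0 : 0 ≤ E := I_Γ_nonneg hC h0 hFW
  have key : ‖I (φ * C.Γ F (C.P τ u)) - I (φ * C.Γ F (C.P 0 u))‖ ≤ √E * B * (τ - 0) := by
    refine norm_image_sub_le_of_norm_deriv_le_segment' (a := 0) (b := τ)
      (f := fun s => I (φ * C.Γ F (C.P s u)))
      (f' := fun s => I (φ * C.Γ F (C.P s f))) ?_ ?_ τ ⟨hτ, le_rfl⟩
    · intro s hs
      exact (hasDeriv_Γ_P hC hφ hFW hu hf hs.1).mono (fun r hr => hr.1)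
    · intro s hs
      rw [Real.norm_eq_abs]
      refine (I_Γ_abs hC hφ h0 hFW (hD.P_memW s hf)).trans ?_
      refine mul_le_mul_of_nonneg_left ?_ (Real.sqrt_nonneg _)
      exact Real.sqrt_le_iff.2 ⟨hB0, hB s hs⟩
  have hsplit : I (φ * C.Γ F (C.P τ u)) - I (φ * C.Γ F (C.P 0 u)) = E := by
    rw [hD.P_zero_time hu2, hE, ← I_sub (mem_mul_top hφ (hC.Γ_mem1 hFW (hPW τ)))
      (mem_mul_top hφ (hC.Γ_mem1 hFW hu.1))]
    congr 1
    rw [← mul_sub]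
    congr 1
    exact (hC.Γ_sub_right hFW (hPW τ) hu.1).symm
  rw [hsplit, Real.norm_eq_abs, abs_of_nonneg hE0, sub_zero] at key
  -- `E ≤ √E * (τ B)`
  rcases eq_or_lt_of_le hE0 with h | h
  · rw [← h]; positivity
  · have hs : 0 < √E := Real.sqrt_pos.2 h
    have h1 : √E * √E = E := Real.mul_self_sqrt hE0
    have h2 : √E ≤ τ * B := by
      have : √E * √E ≤ √E * (τ * B) := by rw [h1]; linarith
      exact le_of_mul_le_mul_left this hs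
    calc E = √E ^ 2 := by rw [sq, h1]
      _ ≤ (τ * B) ^ 2 := pow_le_pow_left₀ hs.le h2 2

end G

end Vale.Agent.P242.H196
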