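import Mathlib

/-!
P242, package A-T7 (helper196), Mathlib-only part: linear algebra of the induction (T).
-/

set_option linter.all false

open Finset Filter Topology

namespace Vale.Agent.P242.H196

variable {E : Type*} [NormedAddCommGroup E] [InnerProductSpace ℝ E] {n : ℕ}

theorem seminorm_sum_le (p : Seminorm ℝ E) {ι : Type*} (t : Finset ι) (f : ι → E) :
    p (∑ i ∈ t, f i) ≤ ∑ i ∈ t, p (f i) := by
  classical
  induction t using Finset.induction_on with
  | empty => simp
  | insert i t hi ih =>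
    rw [Finset.sum_insert hi, Finset.sum_insert hi]
    exact (map_add_le_add p _ _).trans (add_le_add le_rfl ih)

/-- A seminorm which is small on an almost orthonormal basis is small. -/
theorem seminorm_le_of_basis (e : OrthonormalBasis (Fin n) ℝ E) (p : Seminorm ℝ E)
    (c : Fin n → E) {a s : ℝ} (ha : 0 ≤ a) (hc : ∀ i, p (c i) ≤ a) (hs : 0 ≤ s)
    (hce : ∀ i, ‖e i - c i‖ ≤ s) (hsn : n * s ≤ 1 / 2) (v : E) :
    p v ≤ 2 * n * a * ‖v‖ := by
  have hco : ∀ v : E, ∀ i, |e.repr v i| ≤ ‖v‖ := by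
    intro v i
    rw [e.repr_apply_apply]
    have := abs_real_inner_le_norm (e i) v
    rwa [e.orthonormal.1 i, one_mul] at this
  -- crude bound
  have h0 : ∀ v : E, p v ≤ (∑ i, p (e i)) * ‖v‖ := by
    intro v
    calc p v = p (∑ i, e.repr v i • e i) := by rw [e.sum_repr v]
      _ ≤ ∑ i, p (e.repr v i • e i) := seminorm_sum_le p _ _
      _ = ∑ i, |e.repr v i| * p (e i) := by
          refine Finset.sum_congr rfl fun i _ => ?_
          rw [map_smul_eq_mul, Real.norm_eq_abs]
      _ ≤ ∑ i, ‖v‖ * p (e i) := by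
          refine Finset.sum_le_sum fun i _ => ?_
          exact mul_le_mul_of_nonneg_right (hco v i) (apply_nonneg p _)
      _ = (∑ i, p (e i)) * ‖v‖ := by rw [← Finset.mul_sum, mul_comm]
  -- improvement
  have h1 : ∀ M : ℝ, 0 ≤ M → (∀ v : E, p v ≤ M * ‖v‖) → ∀ v : E, p v ≤ (n * a + M / 2) * ‖v‖ := by
    intro M hM hMv v
    have e1 : v = ∑ i, e.repr v i • c i + ∑ i, e.repr v i • (e i - c i) := by
      rw [← Finset.sum_add_distrib]
      conv_lhs => rw [← e.sum_repr v]
      refine Finset.sum_congr rfl fun i _ => ?_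
      rw [← smul_add]; congr 1; abel
    have h2 : p (∑ i, e.repr v i • c i) ≤ n * a * ‖v‖ := by
      calc p (∑ i, e.repr v i • c i) ≤ ∑ i, p (e.repr v i • c i) := seminorm_sum_le p _ _
        _ ≤ ∑ i : Fin n, ‖v‖ * a := by
            refine Finset.sum_le_sum fun i _ => ?_
            rw [map_smul_eq_mul, Real.norm_eq_abs]
            exact mul_le_mul (hco v i) (hc i) (apply_nonneg p _) (norm_nonneg _)
        _ = n * a * ‖v‖ := by
            rw [Finset.sum_const, Finset.card_univ, Fintype.card_fin, nsmul_eq_mul]; ring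
    have h3 : p (∑ i, e.repr v i • (e i - c i)) ≤ M / 2 * ‖v‖ := by
      calc p (∑ i, e.repr v i • (e i - c i)) ≤ M * ‖∑ i, e.repr v i • (e i - c i)‖ := hMv _
        _ ≤ M * ∑ i : Fin n, ‖v‖ * s := by
            refine mul_le_mul_of_nonneg_left ?_ hM
            refine (norm_sum_le _ _).trans (Finset.sum_le_sum fun i _ => ?_)
            rw [norm_smul, Real.norm_eq_abs]
            exact mul_le_mul (hco v i) (hce i) (norm_nonneg _) (norm_nonneg _)
        _ = M * ((n * s) * ‖v‖) := by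
            rw [Finset.sum_const, Finset.card_univ, Fintype.card_fin, nsmul_eq_mul]; ring
        _ ≤ M * (1 / 2 * ‖v‖) := by
            refine mul_le_mul_of_nonneg_left ?_ hM
            exact mul_le_mul_of_nonneg_right hsn (norm_nonneg _)
        _ = M / 2 * ‖v‖ := by ring
    calc p v = p (∑ i, e.repr v i • c i + ∑ i, e.repr v i • (e i - c i)) := by rw [← e1]
      _ ≤ p (∑ i, e.repr v i • c i) + p (∑ i, e.repr v i • (e i - c i)) := map_add_le_add p _ _
      _ ≤ n * a * ‖v‖ + M / 2 * ‖v‖ := add_le_add h2 h3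
      _ = (n * a + M / 2) * ‖v‖ := by ring
  -- iterate
  set M0 := ∑ i, p (e i) with hM0
  have hM00 : 0 ≤ M0 := Finset.sum_nonneg fun i _ => apply_nonneg p _
  have hna : 0 ≤ n * a := mul_nonneg (Nat.cast_nonneg _) ha
  have h4 : ∀ k : ℕ, ∀ v : E, p v ≤ (2 * (n * a) + M0 * (1 / 2) ^ k) * ‖v‖ := by
    intro k
    induction k with
    | zero =>
      intro v
      refine (h0 v).trans (mul_le_mul_of_nonneg_right ?_ (norm_nonneg _))
      rw [pow_zero, mul_one]; linarith
    | succ k ih =>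
      intro v
      refine (h1 _ (by positivity) ih v).trans (mul_le_mul_of_nonneg_right ?_ (norm_nonneg _))
      rw [pow_succ]; apply le_of_eq; ring
  have h5 : Tendsto (fun k : ℕ => (2 * (n * a) + M0 * (1 / 2) ^ k) * ‖v‖) atTop
      (𝓝 ((2 * (n * a) + M0 * 0) * ‖v‖)) := by
    have := (tendsto_pow_atTop_nhds_zero_of_lt_one (by norm_num : (0 : ℝ) ≤ 1 / 2)
      (by norm_num : (1 / 2 : ℝ) < 1))
    exact ((this.const_mul M0).const_add _).mul_const _
  have h6 := ge_of_tendsto' h5 (fun k => h4 k v)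
  rw [mul_zero, add_zero] at h6
  calc p v ≤ 2 * (n * a) * ‖v‖ := h6
    _ = 2 * n * a * ‖v‖ := by ring

/-- the same for a positive semidefinite quadratic form -/
theorem form_le_of_basis (e : OrthonormalBasis (Fin n) ℝ E) (p : Seminorm ℝ E)
    (c : Fin n → E) {w s : ℝ} (hw : 0 ≤ w) (hc : ∀ i, p (c i) ^ 2 ≤ w) (hs : 0 ≤ s)
    (hce : ∀ i, ‖e i - c i‖ ≤ s) (hsn : n * s ≤ 1 / 2) (v : E) :
    p v ^ 2 ≤ 4 * n ^ 2 * w * ‖v‖ ^ 2 := by
  have h := seminorm_le_of_basis e p c (Real.sqrt_nonneg w) (fun i => by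
    rw [← Real.sqrt_sq (apply_nonneg p (c i))]
    exact Real.sqrt_le_sqrt (hc i)) hs hce hsn v
  calc p v ^ 2 ≤ (2 * n * √w * ‖v‖) ^ 2 := pow_le_pow_left₀ (apply_nonneg p _) h 2
    _ = 4 * n ^ 2 * (√w) ^ 2 * ‖v‖ ^ 2 := by ring
    _ = _ := by rw [Real.sq_sqrt hw]

end Vale.Agent.P242.H196
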