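import Mathlib

/-!
P242, package A-T7 (helper196), Mathlib-only part: the recursion of (R1) and the linear algebra of
the transformation induction (T).
-/

set_option linter.all false

open Finset

namespace Vale.Agent.P242.H196

/-- (R1), recursion. `x (j+1) ≤ κ x j + S j`, `x (j+1) ≤ C`, `S j ≤ M R^(k-j) D`, start
`x 0 ^ 2 ≤ M R^k D`, `κ² R ≤ 1/16`; then `x k ^ 2 ≤ (4 C² + 1) M R D`-like bound. -/
theorem rec_bound {k : ℕ} {x S : ℕ → ℝ} {κ C M R D : ℝ} (hx : ∀ j ≤ k, 0 ≤ x j) (hκ : 0 ≤ κ)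
    (hC : 1 ≤ C) (hM : 0 ≤ M) (hR : 1 ≤ R) (hD : 0 ≤ D) (hκR : κ ^ 2 * R ≤ 1 / 16)
    (hrec : ∀ j < k, x (j + 1) ≤ κ * x j + S j) (hbd : ∀ j < k, x (j + 1) ≤ C)
    (hS : ∀ j < k, S j ≤ M * R ^ (k - j) * D) (h0 : x 0 ^ 2 ≤ M * R ^ k * D) :
    x k ^ 2 ≤ (2 * C) ^ 2 * R * (M * D) := by
  -- the claim for all `j ≤ k`
  have hR0 : 0 < R := by linarith
  have key : ∀ j ≤ k, x j ≤ 2 * C * √R * √(M * R ^ (k - j) * D) := by
    intro j
    induction j with
    | zero =>
      intro _
      have h1 : x 0 ≤ √(M * R ^ k * D) := by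
        rw [← Real.sqrt_sq (hx 0 (Nat.zero_le _))]
        exact Real.sqrt_le_sqrt h0
      have h2 : 1 ≤ 2 * C * √R := by
        have : 1 ≤ √R := by
          rw [← Real.sqrt_one]; exact Real.sqrt_le_sqrt hR
        nlinarith
      calc x 0 ≤ 1 * √(M * R ^ k * D) := by rw [one_mul]; exact h1
        _ ≤ 2 * C * √R * √(M * R ^ (k - 0) * D) := by
            rw [Nat.sub_zero]
            exact mul_le_mul_of_nonneg_right h2 (Real.sqrt_nonneg _)
    | succ j ih =>
      intro hj
      have hjk : j < k := hj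
      have ih' := ih hjk.le
      set E := M * R ^ (k - (j + 1)) * D with hE
      have hE0 : 0 ≤ E := by positivity
      have hstep : M * R ^ (k - j) * D = R * E := by
        rw [hE]
        have : k - j = (k - (j + 1)) + 1 := by omega
        rw [this, pow_succ]; ring
      rw [hstep] at ih'
      have hSj : S j ≤ R * E := by rw [← hstep]; exact hS j hjk
      have hsq : √(R * E) = √R * √E := Real.sqrt_mul hR0.le E
      have hRs : √R * √R = R := Real.mul_self_sqrt hR0.le
      have hEs : √E * √E = E := Real.mul_self_sqrt hE0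
      have hκs : κ * √R ≤ 1 / 4 := by
        have h3 : (κ * √R) ^ 2 ≤ (1 / 4) ^ 2 := by
          rw [mul_pow, Real.sq_sqrt hR0.le]; linarith
        exact le_of_sq_le_sq h3 (by norm_num)
      have hsR : 1 ≤ √R := by
        rw [← Real.sqrt_one]; exact Real.sqrt_le_sqrt hR
      have hsR0 : 0 ≤ √R := Real.sqrt_nonneg _
      have hsE0 : 0 ≤ √E := Real.sqrt_nonneg _
      -- first term
      have h1 : κ * x j ≤ 1 / 4 * (2 * C * √R * √E) := by
        calc κ * x j ≤ κ * (2 * C * √R * √(R * E)) := mul_le_mul_of_nonneg_left ih' hκ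
          _ = (κ * √R) * (2 * C * √R * √E) := by rw [hsq]; ring
          _ ≤ 1 / 4 * (2 * C * √R * √E) :=
              mul_le_mul_of_nonneg_right hκs (by positivity)
      by_cases hc : 1 ≤ R * E
      · -- trivial bound
        have h4 : 1 ≤ √R * √E := by
          rw [← hsq, ← Real.sqrt_one]
          exact Real.sqrt_le_sqrt hc
        have h5 := hbd j hjk
        nlinarith
      · have hc' : R * E ≤ 1 := by linarith
        have h6 : R * E ≤ √R * √E := by
          have : R * E = (√R * √E) * (√R * √E) := by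
            calc R * E = (√R * √R) * (√E * √E) := by rw [hRs, hEs]
              _ = _ := by ring
          have h7 : √R * √E ≤ 1 := by
            rw [← hsq, ← Real.sqrt_one]
            exact Real.sqrt_le_sqrt hc'
          rw [this]
          nlinarith [mul_nonneg hsR0 hsE0]
        have h8 := hrec j hjk
        have h9 : S j ≤ 3 / 4 * (2 * C * √R * √E) := by
          have : √R * √E ≤ 3 / 4 * (2 * C * √R * √E) := by nlinarith [mul_nonneg hsR0 hsE0]
          linarith
        linarith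
  have hk := key k le_rfl
  rw [Nat.sub_self, pow_zero, mul_one] at hk
  have h0k := hx k le_rfl
  calc x k ^ 2 ≤ (2 * C * √R * √(M * D)) ^ 2 := by
        apply pow_le_pow_left₀ h0k hk
    _ = (2 * C) ^ 2 * (√R) ^ 2 * (√(M * D)) ^ 2 := by ring
    _ = (2 * C) ^ 2 * R * (M * D) := by
        rw [Real.sq_sqrt hR0.le, Real.sq_sqrt (by positivity)]

/-- (R1), recursion for predicates: `Q j ρ` (at distance `≤ ρ` at level `j`), monotone in `ρ`,
trivially true for `ρ = C`, with the step `Q j ρ → Q (j+1) (κ ρ + S j)`,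
`S j ≤ M R^(k-j) D`, `κ² R ≤ 1/16` and the start `Q 0 √(M R^k D)`. -/
theorem rec_pred {k : ℕ} {Q : ℕ → ℝ → Prop} {S : ℕ → ℝ} {κ C M R D : ℝ} (hκ : 0 ≤ κ)
    (hC : 1 ≤ C) (hM : 0 ≤ M) (hR : 1 ≤ R) (hD : 0 ≤ D) (hκR : κ ^ 2 * R ≤ 1 / 16)
    (hmono : ∀ j ρ ρ', ρ ≤ ρ' → Q j ρ → Q j ρ')
    (hrec : ∀ j < k, ∀ ρ, 0 ≤ ρ → ρ ≤ C → Q j ρ → Q (j + 1) (κ * ρ + S j))
    (hbd : ∀ j ≤ k, Q j C)
    (hS : ∀ j < k, S j ≤ M * R ^ (k - j) * D) (h0 : Q 0 (√(M * R ^ k * D))) :
    ∀ j ≤ k, Q j (2 * C * √R * √(M * R ^ (k - j) * D)) := by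
  have hR0 : 0 < R := by linarith
  have hsR : 1 ≤ √R := by
    rw [← Real.sqrt_one]; exact Real.sqrt_le_sqrt hR
  have hsR0 : 0 ≤ √R := Real.sqrt_nonneg _
  intro j
  induction j with
  | zero =>
    intro _
    have h2 : 1 ≤ 2 * C * √R := by nlinarith
    refine hmono 0 _ _ ?_ h0
    rw [Nat.sub_zero]
    calc √(M * R ^ k * D) = 1 * √(M * R ^ k * D) := (one_mul _).symm
      _ ≤ _ := mul_le_mul_of_nonneg_right h2 (Real.sqrt_nonneg _)
  | succ j ih =>
    intro hj
    have hjk : j < k := hj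
    have ih' := ih hjk.le
    set E := M * R ^ (k - (j + 1)) * D with hE
    have hE0 : 0 ≤ E := by positivity
    have hstep : M * R ^ (k - j) * D = R * E := by
      rw [hE]
      have : k - j = (k - (j + 1)) + 1 := by omega
      rw [this, pow_succ]; ring
    rw [hstep] at ih'
    have hSj : S j ≤ R * E := by rw [← hstep]; exact hS j hjk
    have hsq : √(R * E) = √R * √E := Real.sqrt_mul hR0.le E
    have hRs : √R * √R = R := Real.mul_self_sqrt hR0.le
    have hEs : √E * √E = E := Real.mul_self_sqrt hE0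
    have hκs : κ * √R ≤ 1 / 4 := by
      have h3 : (κ * √R) ^ 2 ≤ (1 / 4) ^ 2 := by
        rw [mul_pow, Real.sq_sqrt hR0.le]; linarith
      exact le_of_sq_le_sq h3 (by norm_num)
    have hsE0 : 0 ≤ √E := Real.sqrt_nonneg _
    by_cases hc : 1 ≤ R * E
    · have h4 : 1 ≤ √R * √E := by
        rw [← hsq, ← Real.sqrt_one]
        exact Real.sqrt_le_sqrt hc
      refine hmono _ _ _ ?_ (hbd (j + 1) hj)
      nlinarith
    · have hc' : R * E ≤ 1 := by linarith
      have h7 : √R * √E ≤ 1 := by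
        rw [← hsq, ← Real.sqrt_one]
        exact Real.sqrt_le_sqrt hc'
      have h6 : R * E ≤ √R * √E := by
        have : R * E = (√R * √E) * (√R * √E) := by
          calc R * E = (√R * √R) * (√E * √E) := by rw [hRs, hEs]
            _ = _ := by ring
        rw [this]
        nlinarith [mul_nonneg hsR0 hsE0]
      have h9 : S j ≤ 3 / 4 * (2 * C * √R * √E) := by
        have : √R * √E ≤ 3 / 4 * (2 * C * √R * √E) := by nlinarith [mul_nonneg hsR0 hsE0]
        linarith
      -- the radius used at level `j`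
      set ρ := min C (2 * C * √R * √(R * E)) with hρ
      have hρ0 : 0 ≤ ρ := le_min (by linarith) (by positivity)
      have hρC : ρ ≤ C := min_le_left _ _
      have hQ : Q j ρ := by
        rcases min_choice C (2 * C * √R * √(R * E)) with h | h
        · rw [hρ, h]; exact hbd j hjk.le
        · rw [hρ, h]; exact ih'
      refine hmono _ _ _ ?_ (hrec j hjk ρ hρ0 hρC hQ)
      have h1 : κ * ρ ≤ 1 / 4 * (2 * C * √R * √E) := by
        calc κ * ρ ≤ κ * (2 * C * √R * √(R * E)) :=
              mul_le_mul_of_nonneg_left (min_le_right _ _) hκ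
          _ = (κ * √R) * (2 * C * √R * √E) := by rw [hsq]; ring
          _ ≤ 1 / 4 * (2 * C * √R * √E) :=
              mul_le_mul_of_nonneg_right hκs (by positivity)
      linarith

end Vale.Agent.P242.H196
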