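import Vale.Agent.P242.H196.AbsP
import Vale.Agent.P242.H196.Rec
import Vale.Agent.P242.H542.Gam

/-!
P242, package A-T7 (helper196): (R1), the affine approximation of `W_q - W_x` by the maps `u`,
from the decay lemma and the smallness of the Laplacians.
-/

set_option linter.all false

open MeasureTheory Filter Topology Set
open scoped ENNReal NNReal

namespace Vale.Agent.P242.H196

open Vale.Agent.P233

variable {M : Type*} [MeasurableSpace M] {m : Measure M} {C : Calc m}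
variable {V : Type*} [AddCommGroup V] [Module ℝ V]

/-- `g` is affine in the maps `u` up to `e`, in the average against `φ` -/
def Near (φ : M →ₘ[m] ℝ) (u : V →ₗ[ℝ] (M →ₘ[m] ℝ)) (g : M →ₘ[m] ℝ) (e : ℝ) : Prop :=
  ∃ (c₀ : ℝ) (c : V), I (φ * |g - c₀ • (1 : M →ₘ[m] ℝ) - u c|) ≤ e

theorem Near.mono {φ : M →ₘ[m] ℝ} {u : V →ₗ[ℝ] (M →ₘ[m] ℝ)} {g : M →ₘ[m] ℝ} {e e' : ℝ}
    (h : Near φ u g e) (he : e ≤ e') : Near φ u g e' := by
  obtain ⟨c₀, c, hc⟩ := h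
  exact ⟨c₀, c, hc.trans he⟩

/-- The decay lemma, as a statement about the centre family `φ`, from time `t` to time `t'`. -/
def DLAt (C : Calc m) (φ : ℝ → M →ₘ[m] ℝ) (u : V →ₗ[ℝ] (M →ₘ[m] ℝ)) (t t' σ κ L : ℝ) : Prop :=
  ∀ F : M →ₘ[m] ℝ, MemLp F 2 m → MemLp F ∞ m → ∀ c₀ ρ S : ℝ, 0 ≤ ρ → 0 ≤ S →
    I (φ t * |F - c₀ • (1 : M →ₘ[m] ℝ)|) ≤ ρ →
    (∀ s ∈ Icc t' t, ∀ τ ∈ Ioc 0 (σ * t), I (φ s * |C.lap (C.P τ F)|) ≤ S) →
    Near (φ t') u F (κ * ρ + L * S)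

section
variable {φ : ℝ → M →ₘ[m] ℝ} {u : V →ₗ[ℝ] (M →ₘ[m] ℝ)} {g : M →ₘ[m] ℝ}

theorem Near.top_mul {ψ : M →ₘ[m] ℝ} (hψ : MemLp ψ 1 m) {F : M →ₘ[m] ℝ} (hF : MemLp F ∞ m) :
    MemLp (ψ * |F| : M →ₘ[m] ℝ) 1 m := mem_top_mul hψ (mem_abs hF)

/-- one step of (R1) -/
theorem near_step (hC : IsDir C) (hφ : Cen C φ) (hu2 : ∀ c, MemLp (u c) 2 m)
    (hut : ∀ c, MemLp (u c) ∞ m) (hg : MemLp g 2 m) (hgt : MemLp g ∞ m)
    {t t' σ κ L ρ Sg Su ρ₁ : ℝ} (ht' : 0 < t') (htt : t' ≤ t) (hσ : σ ≤ 1)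
    (hDL : DLAt C φ u t t' σ κ L) (hρ : 0 ≤ ρ) (hSg : 0 ≤ Sg) (hSu : 0 ≤ Su)
    (hE : ∀ s ∈ Icc t' t, ∀ τ ∈ Ioc 0 (2 * t), I (φ s * |C.lap (C.P τ g)|) ≤ Sg)
    (htriv : ∃ c₀ : ℝ, I (φ t * |C.P t g - c₀ • (1 : M →ₘ[m] ℝ)|) ≤ ρ₁)
    (hND : ∀ (c₀ : ℝ) (c : V), I (φ t * |u c - c₀ • (1 : M →ₘ[m] ℝ)|) ≤ ρ + ρ₁ →
      ∀ s ∈ Icc t' t, ∀ τ ∈ Ioc 0 (σ * t), I (φ s * |C.lap (C.P τ (u c))|) ≤ Su)
    (h : Near (φ t) u (C.P t g) ρ) :
    Near (φ t') u (C.P t' g) (κ * ρ + L * (Sg + Su) + (t - t') * Sg) := by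
  obtain ⟨c₀, c, hc⟩ := h
  obtain ⟨c₁, hc₁⟩ := htriv
  have ht : 0 < t := ht'.trans_le htt
  have hPt : ∀ r, 0 ≤ r → MemLp (C.P r g) ∞ m := fun r hr => hC.P_memTop hr hg hgt
  have hP2 : ∀ r, MemLp (C.P r g) 2 m := fun r => hC.P_mem2 r hg
  have hone : ∀ a : ℝ, MemLp (a • (1 : M →ₘ[m] ℝ)) ∞ m := fun a => mem_smul a mem_top_one
  have φ1 := hφ.mem1
  -- the size of `c`
  have hcs : I (φ t * |u c - (c₁ - c₀) • (1 : M →ₘ[m] ℝ)|) ≤ ρ + ρ₁ := by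
    have e : u c - (c₁ - c₀) • (1 : M →ₘ[m] ℝ)
        = (C.P t g - c₁ • (1 : M →ₘ[m] ℝ)) - (C.P t g - c₀ • (1 : M →ₘ[m] ℝ) - u c) := by
      rw [sub_smul]; abel
    rw [e]
    refine (I_wabs_sub_le (hφ.nonneg t ht)
      (Near.top_mul (φ1 t ht) (mem_sub (hPt t ht.le) (hone _)))
      (Near.top_mul (φ1 t ht) (mem_sub (mem_sub (hPt t ht.le) (hone _)) (hut c)))).trans ?_
    linarith
  have hSuc := hND _ c hcs
  -- the decay lemma for `F = P_t g - u c`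
  have hF2 : MemLp (C.P t g - u c : M →ₘ[m] ℝ) 2 m := mem_sub (hP2 t) (hu2 c)
  have hFt : MemLp (C.P t g - u c : M →ₘ[m] ℝ) ∞ m := mem_sub (hPt t ht.le) (hut c)
  have e0 : C.P t g - c₀ • (1 : M →ₘ[m] ℝ) - u c = C.P t g - u c - c₀ • (1 : M →ₘ[m] ℝ) := by abel
  rw [e0] at hc
  obtain ⟨c₂, c', hc'⟩ := hDL (C.P t g - u c) hF2 hFt c₀ ρ (Sg + Su) hρ (by linarith) hc (by
    intro s hs τ hτ
    have hs0 : 0 < s := ht'.trans_le hs.1
    have l1 := hC.P_isLap hτ.1 (hP2 t)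
    have l2 := hC.P_isLap hτ.1 (hu2 c)
    have e1 : C.lap (C.P τ (C.P t g - u c)) = C.lap (C.P (τ + t) g) - C.lap (C.P τ (u c)) := by
      rw [hC.P_sub τ (hP2 t) (hu2 c)]
      have := hC.lap_eq (hC.isLap_add l1 (hC.isLap_smul (-1) l2))
      rw [show C.P τ (C.P t g) + (-1 : ℝ) • C.P τ (u c) = C.P τ (C.P t g) - C.P τ (u c) by module]
        at this
      rw [this, hC.P_P hτ.1.le ht.le hg]
      module
    have hσt : σ * t ≤ t := by nlinarith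
    have m1 : MemLp (C.lap (C.P (τ + t) g)) 2 m := (hC.P_isLap (by linarith [hτ.1]) hg).2.1
    rw [e1]
    refine (I_wabs_sub_le (hφ.nonneg s hs0) (mem_mul_22 (hφ.mem2 s hs0) (mem_abs m1))
      (mem_mul_22 (hφ.mem2 s hs0) (mem_abs l2.2.1))).trans (add_le_add ?_ (hSuc s hs τ hτ))
    exact hE s hs _ ⟨by linarith [hτ.1], by linarith [hτ.2]⟩)
  refine ⟨c₂, c + c', ?_⟩
  have e2 : C.P t' g - c₂ • (1 : M →ₘ[m] ℝ) - u (c + c')
      = (C.P t g - u c - c₂ • (1 : M →ₘ[m] ℝ) - u c') - (C.P t g - C.P t' g) := by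
    rw [map_add]; abel
  have hd : I (φ t' * |C.P t g - C.P t' g|) ≤ (t - t') * Sg :=
    I_abs_P_sub_le hC ht' htt hg (hφ.mem2 t' ht') (hφ.nonneg t' ht') fun τ hτ =>
      hE t' ⟨le_rfl, htt⟩ τ ⟨ht'.trans_le hτ.1, by linarith [hτ.2]⟩
  rw [e2]
  refine (I_wabs_sub_le (hφ.nonneg t' ht')
    (Near.top_mul (φ1 t' ht') (mem_sub (mem_sub hFt (hone _)) (hut c')))
    (Near.top_mul (φ1 t' ht') (mem_sub (hPt t ht.le) (hPt t' ht'.le)))).trans ?_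
  exact add_le_add hc' hd


/-- (R1): the affine approximation at all scales, with the geometric loss `R = Λ q`, `q` the loss of
the drop functions per scale. -/
theorem R1_all (hC : IsDir C) (hφ : Cen C φ) (hu2 : ∀ c, MemLp (u c) 2 m)
    (hut : ∀ c, MemLp (u c) ∞ m) (hg : MemLp g 2 m) (hgt : MemLp g ∞ m)
    {k : ℕ} {r D : ℕ → ℝ} {Λ q κ CL CE C0 σ : ℝ} (hr : ∀ j, 0 < r j)
    (hrΛ : ∀ j, r j = Λ * r (j + 1)) (hΛ : 1 ≤ Λ) (hq : 1 ≤ q) (hD0 : ∀ j, 0 ≤ D j)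
    (hDq : ∀ j < k, D j ≤ q * D (j + 1)) (hκ : 0 ≤ κ) (hκR : κ ^ 2 * (Λ * q) ≤ 1 / 16)
    (hC0 : 1 ≤ C0) (hCL : 0 ≤ CL) (hCE : 0 ≤ CE) (hσ : σ ≤ 1)
    (hDL : ∀ j < k, DLAt C φ u (r j ^ 2) (r (j + 1) ^ 2) σ (κ / Λ) (CL * r j ^ 2))
    (hE : ∀ j < k, ∀ s ∈ Icc (r (j + 1) ^ 2) (r j ^ 2), ∀ τ ∈ Ioc 0 (2 * r j ^ 2),
      I (φ s * |C.lap (C.P τ g)|) ≤ CE * D j)
    (htriv : ∀ j ≤ k, ∃ c₀ : ℝ,
      I (φ (r j ^ 2) * |C.P (r j ^ 2) g - c₀ • (1 : M →ₘ[m] ℝ)|) ≤ C0 * (r k * r j))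
    (hND : ∀ j < k, ∀ (c₀ : ℝ) (c : V),
      I (φ (r j ^ 2) * |u c - c₀ • (1 : M →ₘ[m] ℝ)|) ≤ 2 * C0 * (r k * r j) →
      ∀ s ∈ Icc (r (j + 1) ^ 2) (r j ^ 2), ∀ τ ∈ Ioc 0 (σ * r j ^ 2),
        I (φ s * |C.lap (C.P τ (u c))|) ≤ CE * D j)
    (h0 : Near (φ (r 0 ^ 2)) u (C.P (r 0 ^ 2) g)
      (√((2 * CL + 1) * CE * Λ * (Λ * q) ^ k * D k) * (r k * r 0))) :
    ∀ j ≤ k, Near (φ (r j ^ 2)) u (C.P (r j ^ 2) g)
      (2 * C0 * √(Λ * q) * √((2 * CL + 1) * CE * Λ * (Λ * q) ^ (k - j) * D k) * (r k * r j)) := by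
  have hΛ0 : 0 < Λ := by linarith
  have hrk : ∀ j ≤ k, r j = Λ ^ (k - j) * r k := by
    intro j hj
    obtain ⟨i, rfl⟩ := Nat.exists_eq_add_of_le hj
    rw [Nat.add_sub_cancel_left]
    clear hj hDq hDL hE htriv hND h0
    induction i with
    | zero => simp
    | succ i ih =>
      rw [ih, hrΛ (j + i), pow_succ, add_assoc]; ring
  have hDk : ∀ j ≤ k, D j ≤ q ^ (k - j) * D k := by
    have aux : ∀ i ≤ k, D (k - i) ≤ q ^ i * D k := by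
      intro i
      induction i with
      | zero => intro _; simp
      | succ i ih =>
        intro hi
        have h1 := hDq (k - (i + 1)) (by omega)
        have e : k - (i + 1) + 1 = k - i := by omega
        rw [e] at h1
        calc D (k - (i + 1)) ≤ q * D (k - i) := h1
          _ ≤ q * (q ^ i * D k) := mul_le_mul_of_nonneg_left (ih (by omega)) (by linarith)
          _ = _ := by rw [pow_succ]; ring
    intro j hj
    have := aux (k - j) (by omega)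
    rwa [show k - (k - j) = j by omega] at this
  have hR : 1 ≤ Λ * q := by nlinarith
  have hM : 0 ≤ (2 * CL + 1) * CE * Λ := by positivity
  refine rec_pred (k := k)
    (Q := fun j ρ => Near (φ (r j ^ 2)) u (C.P (r j ^ 2) g) (ρ * (r k * r j)))
    (S := fun j => (2 * CL + 1) * CE * Λ * Λ ^ (k - j) * D j) hκ hC0 hM hR (hD0 k) hκR ?_ ?_ ?_ ?_
    h0
  · intro j ρ ρ' hρ h
    exact h.mono (mul_le_mul_of_nonneg_right hρ (mul_nonneg (hr k).le (hr j).le))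
  · intro j hj ρ hρ0 hρC h
    have hrj := hr j
    have hrj1 := hr (j + 1)
    have hrk0 := hr k
    have hle : r (j + 1) ^ 2 ≤ r j ^ 2 := by
      apply pow_le_pow_left₀ hrj1.le
      rw [hrΛ j]; nlinarith
    have hst := near_step hC hφ hu2 hut hg hgt (t := r j ^ 2) (t' := r (j + 1) ^ 2) (σ := σ)
      (Sg := CE * D j) (Su := CE * D j) (ρ := ρ * (r k * r j)) (ρ₁ := C0 * (r k * r j))
      (by positivity) hle hσ
      (hDL j hj) (by positivity) (mul_nonneg hCE (hD0 j)) (mul_nonneg hCE (hD0 j)) (hE j hj)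
      (htriv j hj.le) (fun c₀ c hc => hND j hj c₀ c (hc.trans (by
        have : ρ * (r k * r j) ≤ C0 * (r k * r j) :=
          mul_le_mul_of_nonneg_right hρC (by positivity)
        linarith))) h
    refine hst.mono ?_
    have e1 : κ / Λ * (ρ * (r k * r j)) = κ * ρ * (r k * r (j + 1)) := by
      rw [hrΛ j]; field_simp
    have e2 : r j ^ 2 = Λ * Λ ^ (k - j) * (r k * r (j + 1)) := by
      rw [sq]
      nth_rewrite 1 [hrk j hj.le]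
      rw [hrΛ j]; ring
    have hDj := hD0 j
    have h3 : (r j ^ 2 - r (j + 1) ^ 2) * (CE * D j) ≤ r j ^ 2 * (CE * D j) :=
      mul_le_mul_of_nonneg_right (by nlinarith [sq_nonneg (r (j + 1))]) (mul_nonneg hCE hDj)
    calc κ / Λ * (ρ * (r k * r j)) + CL * r j ^ 2 * (CE * D j + CE * D j)
          + (r j ^ 2 - r (j + 1) ^ 2) * (CE * D j)
        ≤ κ / Λ * (ρ * (r k * r j)) + CL * r j ^ 2 * (CE * D j + CE * D j)
          + r j ^ 2 * (CE * D j) := by linarith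
      _ = κ * ρ * (r k * r (j + 1)) + (2 * CL + 1) * (CE * D j) * r j ^ 2 := by rw [e1]; ring
      _ = (κ * ρ + (2 * CL + 1) * CE * Λ * Λ ^ (k - j) * D j) * (r k * r (j + 1)) := by
          rw [e2]; ring
      _ ≤ _ := le_rfl
  · intro j hj
    obtain ⟨c₀, hc₀⟩ := htriv j hj
    refine ⟨c₀, 0, ?_⟩
    rw [map_zero, sub_zero]; exact hc₀
  · intro j hj
    have h1 := hDk j hj.le
    calc (2 * CL + 1) * CE * Λ * Λ ^ (k - j) * D j
        ≤ (2 * CL + 1) * CE * Λ * Λ ^ (k - j) * (q ^ (k - j) * D k) :=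
          mul_le_mul_of_nonneg_left h1 (by positivity)
      _ = (2 * CL + 1) * CE * Λ * (Λ * q) ^ (k - j) * D k := by rw [mul_pow]; ring

/-- the start of (R1) from the top-scale near isometry -/
theorem R1_start {ψ : M →ₘ[m] ℝ} {F : M →ₘ[m] ℝ} {a b C0 η' A N rk r0 : ℝ}
    (hC0 : 0 ≤ C0) (hη : 0 ≤ η') (hrk : 0 < rk) (hr0 : 0 < r0)
    (h1 : Near ψ u F (C0 * (rk * r0))) (h2 : Near ψ u F (η' * r0 ^ 2))
    (hN : C0 * η' * (r0 / rk) ≤ N) : Near ψ u F (√N * (rk * r0)) := by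
  rcases le_total (C0 * (rk * r0)) (η' * r0 ^ 2) with h | h
  · refine h1.mono ?_
    have h3 : C0 ≤ η' * (r0 / rk) := by
      rw [← mul_div_assoc, le_div_iff₀ hrk]
      have : C0 * rk * r0 ≤ η' * r0 * r0 := by nlinarith
      exact le_of_mul_le_mul_right this hr0
    refine mul_le_mul_of_nonneg_right ?_ (by positivity)
    apply Real.le_sqrt_of_sq_le
    calc C0 ^ 2 = C0 * C0 := sq C0
      _ ≤ C0 * (η' * (r0 / rk)) := mul_le_mul_of_nonneg_left h3 hC0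
      _ = C0 * η' * (r0 / rk) := by ring
      _ ≤ N := hN
  · refine h2.mono ?_
    have h3 : η' * (r0 / rk) ≤ C0 := by
      rw [← mul_div_assoc, div_le_iff₀ hrk]
      have : η' * r0 * r0 ≤ C0 * rk * r0 := by nlinarith
      exact le_of_mul_le_mul_right this hr0
    have h4 : η' * (r0 / rk) ≤ √N := by
      apply Real.le_sqrt_of_sq_le
      calc (η' * (r0 / rk)) ^ 2 = (η' * (r0 / rk)) * (η' * (r0 / rk)) := sq _
        _ ≤ C0 * (η' * (r0 / rk)) := mul_le_mul_of_nonneg_right h3 (by positivity)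
        _ = C0 * η' * (r0 / rk) := by ring
        _ ≤ N := hN
    calc η' * r0 ^ 2 = η' * (r0 / rk) * (rk * r0) := by field_simp
      _ ≤ √N * (rk * r0) := mul_le_mul_of_nonneg_right h4 (by positivity)

end

end Vale.Agent.P242.H196
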