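import Vale.Agent.P242.H196.AbsP
import Vale.Agent.P242.H196.GamP
import Vale.Agent.P242.H363.QQ
import Vale.Agent.P242.H542.Gam

/-!
P242, package A-T7 (helper196): (R2), the bound of the `Γ₂` form of the affine part. Kernel-free
parts, at a fixed centre.
-/

set_option linter.all false

open MeasureTheory Filter Topology Set
open scoped ENNReal NNReal

namespace Vale.Agent.P242.H196

open Vale.Agent.P233

variable {M : Type*} [MeasurableSpace M] {m : Measure M} {C : Calc m}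

section
variable (hC : IsGamma C) {κ K₀ N : ℝ}
variable {f g h u φ φ' F G H : M →ₘ[m] ℝ} {τ t B b a : ℝ}
include hC

/-- the form on `F` from a bound of the Laplacian of the weight and of the gradients of `F` and
`Δ F` -/
theorem NN_le_of_grad (hB : C.BEi (-K₀)) (hK : 0 ≤ K₀) (hF : F ∈ C.Test) (hφ : φ ∈ C.A)
    (h0 : 0 ≤ φ) (hL : C.IsLap φ h) (hφ' : MemLp φ' ∞ m) (ha : 0 ≤ a)
    (hK3 : ∀ᵐ z ∂m, |h z| ≤ a * φ' z) :
    C.NN (-K₀) F F φ ≤ a / 2 * I (φ' * C.Γ F F)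
      + √(I (φ * C.Γ F F)) * √(I (φ * C.Γ (C.lap F) (C.lap F))) + K₀ * I (φ * C.Γ F F) := by
  have FA := hC.test_A hF
  have lF := hC.test_lap_mem hF
  have hΓ := hC.Γ_mem hB hF hF
  have h1 : I (C.Γ (C.Γ F F) φ) = -I (h * C.Γ F F) := by
    rw [hC.symm _ hΓ.1 _ hφ.1]
    exact hL.2.2 _ hΓ.1
  have i1 : MemLp (h * C.Γ F F : M →ₘ[m] ℝ) 1 m := mem_mul_22 hL.2.1 (hC.memLp _ hΓ.1)
  have i2 : MemLp (φ' * C.Γ F F : M →ₘ[m] ℝ) 1 m := mem_mul_top hφ' (hC.Γ_mem1 FA.1 FA.1)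
  have h2 : I (h * C.Γ F F) ≤ a * I (φ' * C.Γ F F) := by
    rw [← I_smul]
    refine I_mono i1 (mem_smul _ i2) (le_iff_ae.2 ?_)
    filter_upwards [mul_ae h (C.Γ F F), smul_ae (φ' * C.Γ F F) a, mul_ae φ' (C.Γ F F), hK3,
      hC.Γ_nonneg_ae FA.1] with z a1 a2 a3 a4 a5
    rw [a1, a2, a3, ← mul_assoc]
    exact mul_le_mul_of_nonneg_right ((le_abs_self _).trans a4) a5
  have h3 := I_Γ_abs hC hφ.2 h0 FA.1 lF
  have i3 : MemLp (φ * C.Γ F (C.lap F) : M →ₘ[m] ℝ) 1 m :=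
    mem_mul_top hφ.2 (hC.Γ_mem1 FA.1 lF)
  have h4 : (2 : ℝ)⁻¹ * I (φ * (C.Γ F (C.lap F) + C.Γ F (C.lap F))) = I (φ * C.Γ F (C.lap F)) := by
    rw [mul_add, I_add i3 i3]; ring
  unfold Calc.NN
  rw [h4, h1]
  have h5 := (abs_le.1 h3).1
  linarith

/-- three terms -/
theorem NN_three (hB : C.BEi κ) (hF : F ∈ C.Test) (hG : G ∈ C.Test) (hH : H ∈ C.Test)
    (hφ : φ ∈ C.A) (h0 : 0 ≤ φ) :
    C.NN κ (G - H + F) (G - H + F) φ
      ≤ 4 * C.NN κ G G φ + 4 * C.NN κ H H φ + 2 * C.NN κ F F φ := by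
  have hGH : G - H ∈ C.Test := by
    have := hC.test_add hB hG (hC.test_smul hB (-1) hH)
    rwa [show G + (-1 : ℝ) • H = G - H by module] at this
  have h1 := hC.NN_add_le hB hGH hF hφ h0
  have h2 := hC.NN_sub_le hB hG hH hφ h0
  linarith

/-- the form on a difference of two functions with small `QQ` and small difference of Laplacians -/
theorem NN_diff (hN : 0 < N) (hBE : C.BE κ N) (hF : F ∈ C.Test) (hG : G ∈ C.Test)
    (hφ : φ ∈ C.A) (h0 : 0 ≤ φ) :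
    C.NN κ (F - G) (F - G) φ ≤ 2 * H363.QQ C κ N F F φ + 2 * H363.QQ C κ N G G φ
      + N⁻¹ * I (φ * (C.lap (F - G) * C.lap (F - G))) := by
  have h1 := H363.QQ_sub_le hC hN hBE hF hG hφ h0
  have h2 : H363.QQ C κ N (F - G) (F - G) φ = C.NN κ (F - G) (F - G) φ
      - N⁻¹ * I (φ * (C.lap (F - G) * C.lap (F - G))) := rfl
  linarith

/-- the small term: the form on `P_τ u - u` -/
theorem NN_P_sub_le (hB : C.BEi (-K₀)) (hK : 0 ≤ K₀) (hu : u ∈ C.Test) (hφ : φ ∈ C.A)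
    (h0 : 0 ≤ φ) (hL : C.IsLap φ h) (hφ' : MemLp φ' ∞ m) (h0' : 0 ≤ φ') (ha : 0 ≤ a)
    (hK3 : ∀ᵐ z ∂m, |h z| ≤ a * φ' z) (hτ : 0 < τ) (hb : 0 ≤ b)
    (h1 : ∀ s ∈ Icc 0 τ, I (φ * C.Γ (C.P s (C.lap u)) (C.P s (C.lap u))) ≤ b ^ 2)
    (h2 : ∀ s ∈ Icc 0 τ, I (φ' * C.Γ (C.P s (C.lap u)) (C.P s (C.lap u))) ≤ b ^ 2) :
    C.NN (-K₀) (C.P τ u - u) (C.P τ u - u) φ
      ≤ a / 2 * (τ * b) ^ 2 + (τ * b) * (2 * b) + K₀ * (τ * b) ^ 2 := by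
  have hD := hC.toIsDir
  have uA := hC.test_A hu
  have lu := hC.test_isLap hu
  have lW := hC.test_lap_mem hu
  have hPu := hC.P_test_pos hB hτ (hC.memLp _ uA.1) uA.2
  have hT : C.P τ u - u ∈ C.Test := by
    have := hC.test_add hB hPu (hC.test_smul hB (-1) hu)
    rwa [show C.P τ u + (-1 : ℝ) • u = C.P τ u - u by module] at this
  have e1 : C.lap (C.P τ u - u) = C.P τ (C.lap u) - C.lap u := by
    have := hC.lap_eq (hC.isLap_add (hC.test_isLap hPu) (hC.isLap_smul (-1) lu))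
    rw [show C.P τ u + (-1 : ℝ) • u = C.P τ u - u by module] at this
    rw [this, hD.P_lap_of τ lu]
    module
  have k1 := I_Γ_P_sub_le hC hφ.2 h0 lu lW hτ.le hb fun s hs => h1 s ⟨hs.1, hs.2.le⟩
  have k2 := I_Γ_P_sub_le hC hφ' h0' lu lW hτ.le hb fun s hs => h2 s ⟨hs.1, hs.2.le⟩
  have k3 : √(I (φ * C.Γ (C.lap (C.P τ u - u)) (C.lap (C.P τ u - u)))) ≤ 2 * b := by
    rw [e1]
    refine (I_Γ_sub_le hC hφ.2 h0 (hD.P_memW τ lW) lW).trans ?_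
    have a1 : √(I (φ * C.Γ (C.P τ (C.lap u)) (C.P τ (C.lap u)))) ≤ b :=
      Real.sqrt_le_iff.2 ⟨hb, h1 τ ⟨hτ.le, le_rfl⟩⟩
    have a2 : √(I (φ * C.Γ (C.lap u) (C.lap u))) ≤ b := by
      refine Real.sqrt_le_iff.2 ⟨hb, ?_⟩
      have := h1 0 ⟨le_rfl, hτ.le⟩
      rwa [hD.P_zero_time (hC.memLp _ lW)] at this
    linarith
  have k4 : √(I (φ * C.Γ (C.P τ u - u) (C.P τ u - u))) ≤ τ * b :=
    Real.sqrt_le_iff.2 ⟨by positivity, k1⟩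
  refine (NN_le_of_grad hC hB hK hT hφ h0 hL hφ' ha hK3).trans ?_
  have p1 : a / 2 * I (φ' * C.Γ (C.P τ u - u) (C.P τ u - u)) ≤ a / 2 * (τ * b) ^ 2 :=
    mul_le_mul_of_nonneg_left k2 (by positivity)
  have p2 : √(I (φ * C.Γ (C.P τ u - u) (C.P τ u - u)))
      * √(I (φ * C.Γ (C.lap (C.P τ u - u)) (C.lap (C.P τ u - u)))) ≤ (τ * b) * (2 * b) :=
    mul_le_mul k4 k3 (Real.sqrt_nonneg _) (by positivity)
  have p3 : K₀ * I (φ * C.Γ (C.P τ u - u) (C.P τ u - u)) ≤ K₀ * (τ * b) ^ 2 :=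
    mul_le_mul_of_nonneg_left k1 hK
  linarith

/-- (R2), algebra: `u = P_{(1+σ)t'} g - P_{σ t'} ψ + (u - P_{σ t'} u)` with `ψ = P_{t'} g - u` -/
theorem R2_split (hg : MemLp g 2 m) (hu : MemLp u 2 m) {t' σ' : ℝ} (ht' : 0 ≤ t') (hσ : 0 ≤ σ') :
    u = C.P (σ' + t') g - C.P σ' (C.P t' g - u) + (-1 : ℝ) • (C.P σ' u - u) := by
  have hD := hC.toIsDir
  rw [hD.P_sub σ' (hD.P_mem2 t' hg) hu, hD.P_P hσ ht' hg]
  module

/-- (R2), all terms: the form on `u` from the three bounds -/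
theorem R2_core (hB : C.BEi (-K₀)) (hg : MemLp g 2 m) (hgt : MemLp g ∞ m) (hu : u ∈ C.Test)
    (hφ : φ ∈ C.A) (h0 : 0 ≤ φ) {t' σ' e₁ e₂ e₃ : ℝ} (ht' : 0 < t') (hσ : 0 < σ')
    (h1 : C.NN (-K₀) (C.P (σ' + t') g) (C.P (σ' + t') g) φ ≤ e₁)
    (h2 : C.NN (-K₀) (C.P σ' (C.P t' g - u)) (C.P σ' (C.P t' g - u)) φ ≤ e₂)
    (h3 : C.NN (-K₀) (C.P σ' u - u) (C.P σ' u - u) φ ≤ e₃) :
    C.NN (-K₀) u u φ ≤ 4 * e₁ + 4 * e₂ + 2 * e₃ := by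
  have hD := hC.toIsDir
  have uA := hC.test_A hu
  have hu2 := hC.memLp _ uA.1
  have t1 : C.P (σ' + t') g ∈ C.Test := hC.P_test_pos hB (by linarith) hg hgt
  have t2 : C.P σ' (C.P t' g - u) ∈ C.Test :=
    hC.P_test_pos hB hσ (mem_sub (hD.P_mem2 t' hg) hu2)
      (mem_sub (hD.P_memTop ht'.le hg hgt) uA.2)
  have t3 : C.P σ' u - u ∈ C.Test := by
    have := hC.test_add hB (hC.P_test_pos hB hσ hu2 uA.2) (hC.test_smul hB (-1) hu)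
    rwa [show C.P σ' u + (-1 : ℝ) • u = C.P σ' u - u by module] at this
  have t4 := hC.test_smul hB (-1) t3
  have h4 : C.NN (-K₀) ((-1 : ℝ) • (C.P σ' u - u)) ((-1 : ℝ) • (C.P σ' u - u)) φ ≤ e₃ := by
    rw [hC.NN_smul_left hB (-1) t3 t4 hφ, hC.NN_smul_right hB (-1) t3 t3 hφ]
    linarith
  have h5 := NN_three hC hB t4 t1 t2 hφ h0
  rw [← R2_split hC hg hu2 ht'.le hσ.le] at h5
  linarith

end

end Vale.Agent.P242.H196
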