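import Vale.Agent.P242.H196.RRg
import Vale.Agent.P242.H542.DlVoc

/-!
P242, package A-T7 (helper196): the block `H155.Blk_R12`.
-/

set_option linter.all false

open MeasureTheory Filter Topology Set Metric
open scoped ENNReal NNReal MeasureTheory InnerProductSpace

universe u

namespace Vale.Agent.P242.H196

open Vale.Agent.P233 Vale.Agent.P233.RA Vale.Agent.P242.H990 Vale.Agent.P242.H155
  Vale.Agent.P242.H71

variable {M : Type u} [MetricSpace M] [CompleteSpace M] [SecondCountableTopology M]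
  [MeasurableSpace M] [BorelSpace M] {m : Measure M} {n : ℕ} {K A : ℝ} {o : M}
  {p : ℝ → M → M → ℝ}

/-- the decay lemma (helper542) -/
theorem dlb (e : Env m n K o A p) : DLB m n K o p := by
  obtain ⟨C, a₀, hC, ha, ha2, h⟩ := H542.blk_DLX M m n K o A p e
  refine ⟨C, a₀, hC, ha, by linarith, fun Λ hΛ => ?_⟩
  obtain ⟨CL, hCL, Q₀, hQ₀, h⟩ := h Λ hΛ
  refine ⟨CL, hCL, Q₀, hQ₀, fun Q hQ => ?_⟩
  obtain ⟨R₀, hR₀, h⟩ := h Q hQ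
  refine ⟨R₀, hR₀, fun R hR e' he' => ?_⟩
  obtain ⟨ε₁, hε₁, h⟩ := h R hR e' he'
  refine ⟨ε₁, hε₁, fun ε' η ρ h1 h2 h3 h4 h5 u uu hu x hx t ht htρ hT => ?_⟩
  obtain ⟨W, -, HW⟩ := h ε' η ρ h1 h2 h3 h4 h5 u uu hu x hx t ht htρ hT
  intro F hF hF' c₀ r S hr hS g1 g2
  obtain ⟨-, -, c₁, g⟩ := HW F hF hF' c₀ r S hS g1 g2
  refine ⟨c₁, W F, ?_⟩
  refine le_trans g (le_of_eq ?_)
  ring

/-- **(R1), (R2)**, one environment -/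
theorem rrx' (e : Env m n K o A p) : RRX m n K o p := rrx e (dlb e)

/-- **`Blk_R12`** -/
theorem blk_R12 : H155.Blk_R12.{u} := by
  intro M _ _ _ _ _ m n K o A p e
  obtain ⟨C, hC, h⟩ := rrx' e
  obtain ⟨Q₀, hQ₀, h⟩ := h 2 (by norm_num) C le_rfl
  refine ⟨C, hC, Q₀, hQ₀, fun Q hQ => ?_⟩
  obtain ⟨R₀, hR₀, h⟩ := h Q hQ
  refine ⟨R₀, hR₀, fun R hR => ?_⟩
  obtain ⟨B, ε₁, hB, hε₁, h⟩ := h R hR
  refine ⟨B, ε₁, hB, hε₁, fun A₀ hA₀ _ => ?_⟩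
  obtain ⟨M₀, hM₀, η₁, hη₁, h⟩ := h A₀ hA₀
  refine ⟨M₀, hM₀, η₁, hη₁, ?_⟩
  intro ε' η δ ρ h1 h2 h3 h4 h5 h6 u uu hu hD x hx t ht htM hT q hq
  obtain ⟨c, b, hr⟩ := h ε' η δ ρ h1 h2 h3 h4 h5 h6 u uu hu hD x hx t ht htM hT q hq
  exact ⟨c, b, hr.r1, hr.r1', hr.r2⟩

end Vale.Agent.P242.H196
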