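import Vale.Agent.P242.H254.E1c
import Vale.Agent.P242.H196.AbsP

/-!
P242, package A-T7 (helper196): the Laplacian of `P_τ (w₂ - w₁)` in the mean, `w₁, w₂` two vertex
functions.
-/

set_option linter.all false

open MeasureTheory Filter Topology Set
open scoped ENNReal NNReal

namespace Vale.Agent.P242.H196

open Vale.Agent.P233 Vale.Agent.P242.H254

variable {M : Type*} [MeasurableSpace M] {m : Measure M} {C : Calc m}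
variable {N K₁ δ κ : ℝ} {g₁ g₂ : M → ℝ} {w₁ w₂ σ : M →ₘ[m] ℝ} {φ : ℝ → M →ₘ[m] ℝ} {s τ : ℝ}

/-- `Δ P_τ (w₂ - w₁) = K₁ P_τ (w₂ - w₁) - (ν₂ - ν₁)` -/
theorem lap_diff (hC : IsGamma C) (hw₁ : MemLp w₁ 2 m) (hw₂ : MemLp w₂ 2 m) (hτ : 0 < τ) :
    C.lap (C.P τ (w₂ - w₁)) = K₁ • C.P τ (w₂ - w₁)
      - (nu C N K₁ δ w₂ τ - nu C N K₁ δ w₁ τ) := by
  have hD := hC.toIsDir
  have l1 := hD.P_isLap hτ hw₁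
  have l2 := hD.P_isLap hτ hw₂
  have e1 : C.lap (C.P τ (w₂ - w₁)) = C.lap (C.P τ w₂) - C.lap (C.P τ w₁) := by
    rw [hD.P_sub τ hw₂ hw₁]
    have := hD.lap_eq (hD.isLap_add l2 (hD.isLap_smul (-1) l1))
    rw [show C.P τ w₂ + (-1 : ℝ) • C.P τ w₁ = C.P τ w₂ - C.P τ w₁ by module] at this
    rw [this]; module
  rw [e1, hD.P_sub τ hw₂ hw₁]
  unfold nu nuW
  module

/-- the integral of `ν` against a centre -/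
theorem I_nu_cen (hC : IsGamma C) (hB : C.BEi κ) [SigmaFinite m] (hφ : Cen C φ)
    (hV : Vx C N K₁ δ g₁ w₁) (hs : 0 < s) (hτ : 0 < τ) :
    I (φ s * nu C N K₁ δ w₁ τ) = nuP C N K₁ δ w₁ (φ (s + τ)) := by
  rw [hV.I_nu hC hB hτ (hφ.mem2 s hs) (hφ.mem1 s hs), hφ.semi s τ hs hτ.le]

theorem nu_mul_mem (hC : IsGamma C) (hφ : Cen C φ) (hV : Vx C N K₁ δ g₁ w₁) (hs : 0 < s)
    (hτ : 0 < τ) : MemLp (φ s * nu C N K₁ δ w₁ τ : M →ₘ[m] ℝ) 1 m := by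
  have hW := hC.memLp _ (hV.nuW_mem hC hτ)
  unfold nu
  rw [mul_add, mul_smul_comm, mul_one]
  exact mem_add (mem_smul _ (hφ.mem1 s hs)) (mem_mul_22 (hφ.mem2 s hs) hW)

/-- **The source of the decay lemma for `w₂ - w₁`.** -/
theorem src_g (hC : IsGamma C) (hB : C.BEi κ) [SigmaFinite m] (hφ : Cen C φ)
    (hV₁ : Vx C N K₁ δ g₁ w₁) (hV₂ : Vx C N K₁ δ g₂ w₂) (hs : 0 < s) (hτ : 0 < τ) :
    I (φ s * |C.lap (C.P τ (w₂ - w₁))|) ≤ K₁ * I (φ s * |C.P τ (w₂ - w₁)|)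
      + nuP C N K₁ δ w₂ (φ (s + τ)) + nuP C N K₁ δ w₁ (φ (s + τ)) := by
  have hD := hC.toIsDir
  have h2₁ := hC.memLp _ hV₁.mem
  have h2₂ := hC.memLp _ hV₂.mem
  have hg : MemLp (w₂ - w₁ : M →ₘ[m] ℝ) 2 m := mem_sub h2₂ h2₁
  have hφ2 := hφ.mem2 s hs
  rw [← I_nu_cen hC hB hφ hV₂ hs hτ, ← I_nu_cen hC hB hφ hV₁ hs hτ]
  have m0 : MemLp (φ s * |C.lap (C.P τ (w₂ - w₁))| : M →ₘ[m] ℝ) 1 m :=
    mem_mul_22 hφ2 (mem_abs (hD.P_isLap hτ hg).2.1)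
  have m1 : MemLp (φ s * |C.P τ (w₂ - w₁)| : M →ₘ[m] ℝ) 1 m :=
    mem_mul_22 hφ2 (mem_abs (hD.P_mem2 τ hg))
  have m2 := nu_mul_mem hC hφ hV₂ hs hτ
  have m3 := nu_mul_mem hC hφ hV₁ hs hτ
  rw [← I_smul, ← I_add (mem_smul _ m1) m2, ← I_add (mem_add (mem_smul _ m1) m2) m3]
  refine I_mono m0 (mem_add (mem_add (mem_smul _ m1) m2) m3) (le_iff_ae.2 ?_)
  rw [lap_diff (N := N) (K₁ := K₁) (δ := δ) hC h2₁ h2₂ hτ]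
  set F := C.P τ (w₂ - w₁) with hF
  set ν₂ := nu C N K₁ δ w₂ τ with hν₂
  set ν₁ := nu C N K₁ δ w₁ τ with hν₁
  filter_upwards [mul_ae (φ s) |K₁ • F - (ν₂ - ν₁)|, abs_ae (K₁ • F - (ν₂ - ν₁)),
    sub_ae (K₁ • F) (ν₂ - ν₁), sub_ae ν₂ ν₁, smul_ae F K₁,
    add_ae (K₁ • (φ s * |F|) + φ s * ν₂) (φ s * ν₁), add_ae (K₁ • (φ s * |F|)) (φ s * ν₂),
    smul_ae (φ s * |F|) K₁, mul_ae (φ s) |F|, abs_ae F, mul_ae (φ s) ν₂, mul_ae (φ s) ν₁,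
    hV₂.nu_nonneg hC hB hτ, hV₁.nu_nonneg hC hB hτ, nonneg_iff_ae.1 (hφ.nonneg s hs)]
    with z a1 a2 a3 a4 a5 a6 a7 a8 a9 a10 a11 a12 a13 a14 a15
  rw [a1, a2, a3, a4, a5, a6, a7, a8, a9, a10, a11, a12]
  have hK := hV₁.K₁_pos
  have h1 : |K₁ * F z - (ν₂ z - ν₁ z)| ≤ K₁ * |F z| + ν₂ z + ν₁ z := by
    have b1 := abs_sub (K₁ * F z) (ν₂ z - ν₁ z)
    have b2 : |K₁ * F z| = K₁ * |F z| := by rw [abs_mul, abs_of_pos hK]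
    have b3 : |ν₂ z - ν₁ z| ≤ ν₂ z + ν₁ z := by
      rw [abs_le]; constructor <;> linarith
    linarith
  calc φ s z * |K₁ * F z - (ν₂ z - ν₁ z)| ≤ φ s z * (K₁ * |F z| + ν₂ z + ν₁ z) :=
        mul_le_mul_of_nonneg_left h1 a15
    _ = K₁ * (φ s z * |F z|) + φ s z * ν₂ z + φ s z * ν₁ z := by ring

/-- the same in `L²`: `I(φ (Δ P_τ g)²)` from the second moments of `ν` -/
theorem src_g_sq (hC : IsGamma C) (hB : C.BEi κ) [SigmaFinite m] (hφ : Cen C φ)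
    (hV₁ : Vx C N K₁ δ g₁ w₁) (hV₂ : Vx C N K₁ δ g₂ w₂) (hs : 0 < s) (hτ : 0 < τ)
    (m2 : MemLp (φ s * (nu C N K₁ δ w₂ τ * nu C N K₁ δ w₂ τ) : M →ₘ[m] ℝ) 1 m)
    (m1 : MemLp (φ s * (nu C N K₁ δ w₁ τ * nu C N K₁ δ w₁ τ) : M →ₘ[m] ℝ) 1 m) :
    I (φ s * (C.lap (C.P τ (w₂ - w₁)) * C.lap (C.P τ (w₂ - w₁))))
      ≤ 3 * K₁ ^ 2 * I (φ s * (C.P τ (w₂ - w₁) * C.P τ (w₂ - w₁)))
        + 3 * I (φ s * (nu C N K₁ δ w₂ τ * nu C N K₁ δ w₂ τ))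
        + 3 * I (φ s * (nu C N K₁ δ w₁ τ * nu C N K₁ δ w₁ τ)) := by
  have hD := hC.toIsDir
  have h2₁ := hC.memLp _ hV₁.mem
  have h2₂ := hC.memLp _ hV₂.mem
  have hg : MemLp (w₂ - w₁ : M →ₘ[m] ℝ) 2 m := mem_sub h2₂ h2₁
  have hl := (hD.P_isLap hτ hg).2.1
  have hF := hD.P_mem2 τ hg
  have n0 : MemLp (φ s * (C.lap (C.P τ (w₂ - w₁)) * C.lap (C.P τ (w₂ - w₁))) : M →ₘ[m] ℝ) 1 m :=
    mem_mul_top (hφ.top s hs) (mem_mul_22 hl hl)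
  have n1 : MemLp (φ s * (C.P τ (w₂ - w₁) * C.P τ (w₂ - w₁)) : M →ₘ[m] ℝ) 1 m :=
    mem_mul_top (hφ.top s hs) (mem_mul_22 hF hF)
  rw [← I_smul, ← I_smul, ← I_smul, ← I_add (mem_smul _ n1) (mem_smul _ m2),
    ← I_add (mem_add (mem_smul _ n1) (mem_smul _ m2)) (mem_smul _ m1)]
  refine I_mono n0 (mem_add (mem_add (mem_smul _ n1) (mem_smul _ m2)) (mem_smul _ m1))
    (le_iff_ae.2 ?_)
  rw [lap_diff (N := N) (K₁ := K₁) (δ := δ) hC h2₁ h2₂ hτ]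
  set F := C.P τ (w₂ - w₁) with hF
  set ν₂ := nu C N K₁ δ w₂ τ with hν₂
  set ν₁ := nu C N K₁ δ w₁ τ with hν₁
  set L := K₁ • F - (ν₂ - ν₁) with hL
  filter_upwards [mul_ae (φ s) (L * L), mul_ae L L,
    sub_ae (K₁ • F) (ν₂ - ν₁), sub_ae ν₂ ν₁, smul_ae F K₁,
    add_ae ((3 * K₁ ^ 2) • (φ s * (F * F)) + (3 : ℝ) • (φ s * (ν₂ * ν₂)))
      ((3 : ℝ) • (φ s * (ν₁ * ν₁))),
    add_ae ((3 * K₁ ^ 2) • (φ s * (F * F))) ((3 : ℝ) • (φ s * (ν₂ * ν₂))),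
    smul_ae (φ s * (F * F)) (3 * K₁ ^ 2), smul_ae (φ s * (ν₂ * ν₂)) 3,
    smul_ae (φ s * (ν₁ * ν₁)) 3, mul_ae (φ s) (F * F), mul_ae F F, mul_ae (φ s) (ν₂ * ν₂),
    mul_ae ν₂ ν₂, mul_ae (φ s) (ν₁ * ν₁), mul_ae ν₁ ν₁, nonneg_iff_ae.1 (hφ.nonneg s hs)]
    with z a1 a2 a3 a4 a5 a6 a7 a8 a9 a10 a11 a12 a13 a14 a15 a16 a17
  rw [a1, a2, a3, a4, a5, a6, a7, a8, a9, a10, a11, a12, a13, a14, a15, a16]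
  have h1 : (K₁ * F z - (ν₂ z - ν₁ z)) * (K₁ * F z - (ν₂ z - ν₁ z))
      ≤ 3 * K₁ ^ 2 * (F z * F z) + 3 * (ν₂ z * ν₂ z) + 3 * (ν₁ z * ν₁ z) := by
    nlinarith [sq_nonneg (K₁ * F z + ν₂ z), sq_nonneg (K₁ * F z - ν₁ z), sq_nonneg (ν₂ z + ν₁ z)]
  calc φ s z * ((K₁ * F z - (ν₂ z - ν₁ z)) * (K₁ * F z - (ν₂ z - ν₁ z)))
      ≤ φ s z * (3 * K₁ ^ 2 * (F z * F z) + 3 * (ν₂ z * ν₂ z) + 3 * (ν₁ z * ν₁ z)) :=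
        mul_le_mul_of_nonneg_left h1 a17
    _ = _ := by ring

end Vale.Agent.P242.H196
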