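import Vale.Agent.P242.H155.KMu
import Vale.Agent.P242.H744.NuC

/-!
P242, package A-T7 (helper196): the trivial bounds of `w_q - w_x` in the mean.
-/

set_option linter.all false

open MeasureTheory Filter Topology Set
open scoped ENNReal NNReal MeasureTheory

universe u

namespace Vale.Agent.P242.H196

open Vale.Agent.P233 Vale.Agent.P233.RA Vale.Agent.P242.H990 Vale.Agent.P242.H155

section pw
variable {M : Type u} [MetricSpace M]

/-- `|w_q - w_x| ≤ d(x,q) (d(x,·) + d(x,q))` -/
theorem abs_ww_sub_vertex (q x z : M) :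
    |ww (1 / 2) q z - ww (1 / 2) x z| ≤ dist x q * (dist x z + dist x q) := by
  have e : ww (1 / 2) q z - ww (1 / 2) x z
      = min (dist z q ^ 2 / 2) (1 / 2) - min (dist z x ^ 2 / 2) (1 / 2) := by
    unfold ww cc; ring
  rw [e]
  have h1 : |min (dist z q ^ 2 / 2) (1 / 2) - min (dist z x ^ 2 / 2) (1 / 2)|
      ≤ |dist z q ^ 2 / 2 - dist z x ^ 2 / 2| :=
    abs_min_sub_min_le_max _ _ _ _ |>.trans (by simp)
  refine h1.trans ?_
  have t1 : dist z q ≤ dist x z + dist x q := by
    have := dist_triangle z x q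
    rw [dist_comm z x] at this; exact this
  have t2 : dist x z ≤ dist z q + dist x q := by
    have := dist_triangle x q z
    rw [dist_comm q z] at this; linarith
  have z0 : 0 ≤ dist z q := dist_nonneg
  have x0 : 0 ≤ dist x q := dist_nonneg
  have y0 : 0 ≤ dist x z := dist_nonneg
  rw [dist_comm z x, abs_le]
  constructor <;> nlinarith

end pw

variable {M : Type u} [MetricSpace M] [CompleteSpace M] [SecondCountableTopology M]
  [MeasurableSpace M] [BorelSpace M] {m : Measure M} {n : ℕ} {K A : ℝ} {o : M}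
  {p : ℝ → M → M → ℝ}

/-- the class of `w_q - w_x` -/
noncomputable def gqx (m : Measure M) (q x : M) : M →ₘ[m] ℝ :=
  cl m (ww (1 / 2) q) - cl m (ww (1 / 2) x)

theorem gqx_ae (q x : M) : ∀ᵐ z ∂m, gqx m q x z = ww (1 / 2) q z - ww (1 / 2) x z := by
  have h : (0 : ℝ) ≤ 1 / 2 := by norm_num
  filter_upwards [sub_ae (cl m (ww (1 / 2) q)) (cl m (ww (1 / 2) x)),
    N2.H982.ww_ae (m := m) h q, N2.H982.ww_ae (m := m) h x] with z a b c
  unfold gqx
  rw [a, b, c]

/-- second moments -/
theorem dist_sq_env (e : H71.Env m n K o A p) (R₀ : ℝ) :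
    ∃ B, 1 ≤ B ∧ ∀ x s, dist x o ≤ R₀ → 0 < s → 8 * A ^ 2 * s ≤ 1 →
      Integrable (fun z => dist x z ^ 2) (kμ m p s x) ∧
        ∫ z, dist x z ^ 2 ∂(kμ m p s x) ≤ B * s := by
  have hA := e.kb.one_le
  set B := cG n A (4 * A ^ 2) 0 * cW A 2 * Real.exp (2 * A * R₀) with hB
  have hc : 0 < cG n A (4 * A ^ 2) 0 * cW A 2 := mul_pos (cG_pos hA (by positivity)) cW_pos
  refine ⟨max 1 B, le_max_left _ _, fun x s hx hs h1 => ?_⟩
  obtain ⟨i, h⟩ := dist_sq e.ker e.kb hs (by linarith) x
  refine ⟨i, h.trans ?_⟩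
  refine mul_le_mul_of_nonneg_right ?_ hs.le
  refine le_trans ?_ (le_max_right _ _)
  rw [hB]
  refine mul_le_mul_of_nonneg_left ?_ hc.le
  exact Real.exp_le_exp.2 (mul_le_mul_of_nonneg_left hx (by linarith))

/-- **The trivial bounds** of `w_q - w_x`. -/
theorem triv_g (e : H71.Env m n K o A p) (R₀ : ℝ) :
    ∃ B, 1 ≤ B ∧ ∀ x q s, dist x o ≤ R₀ → 0 < s → 8 * A ^ 2 * s ≤ 1 →
      I (ph m p s x * |gqx m q x|) ≤ B * dist x q * (√s + dist x q) ∧
      I (ph m p s x * (gqx m q x * gqx m q x)) ≤ B * dist x q ^ 2 * (s + dist x q ^ 2) := by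
  obtain ⟨B, hB1, hB⟩ := dist_sq_env e R₀
  refine ⟨2 * B, by linarith, fun x q s hx hs h1 => ?_⟩
  obtain ⟨hi, hle⟩ := hB x s hx hs h1
  haveI := kμ_prob e.ker hs x
  have hac := kμ_ac (m := m) (p := p) (s := s) e.ker hs x
  have hgae : ∀ᵐ z ∂(kμ m p s x), |gqx m q x z| ≤ dist x q * (dist x z + dist x q) := by
    refine hac.ae_le ?_
    filter_upwards [gqx_ae (m := m) q x] with z hz
    rw [hz]; exact abs_ww_sub_vertex q x z
  have d0 : 0 ≤ dist x q := dist_nonneg
  have hmd : AEStronglyMeasurable (fun z => dist x z) (kμ m p s x) :=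
    (continuous_const.dist continuous_id).aestronglyMeasurable
  have hi1 : Integrable (fun z => dist x z) (kμ m p s x) := by
    refine (hi.add (integrable_const (1 : ℝ))).mono' hmd (ae_of_all _ fun z => ?_)
    rw [Real.norm_eq_abs, abs_of_nonneg dist_nonneg]
    simp only [Pi.add_apply]
    nlinarith [sq_nonneg (dist x z - 1), dist_nonneg (x := x) (y := z)]
  have hd1 : ∫ z, dist x z ∂(kμ m p s x) ≤ √B * √s := by
    rw [← Real.sqrt_mul (by linarith)]
    refine Real.le_sqrt_of_sq_le (le_trans ?_ hle)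
    have hJ := ConvexOn.map_integral_le (μ := kμ m p s x) (f := fun z => dist x z)
      (g := fun t : ℝ => t ^ 2) (s := Set.univ) (Even.convexOn_pow (by norm_num))
      (by fun_prop) isClosed_univ (by simp) hi1 hi
    exact hJ
  have hmg : AEStronglyMeasurable (fun z => gqx m q x z) (kμ m p s x) :=
    (gqx m q x).aestronglyMeasurable.mono_ac hac
  constructor
  · rw [kμ_Iabs e.ker hs]
    have hbd : Integrable (fun z => dist x q * (dist x z + dist x q)) (kμ m p s x) :=
      (hi1.add (integrable_const _)).const_mul _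
    calc ∫ z, |gqx m q x z| ∂(kμ m p s x)
        ≤ ∫ z, dist x q * (dist x z + dist x q) ∂(kμ m p s x) := by
          refine integral_mono_of_nonneg (ae_of_all _ fun z => abs_nonneg _) hbd hgae
      _ = dist x q * ((∫ z, dist x z ∂(kμ m p s x)) + dist x q) := by
          rw [integral_const_mul, integral_add hi1 (integrable_const _), integral_const]
          simp
      _ ≤ dist x q * (√B * √s + dist x q) :=
          mul_le_mul_of_nonneg_left (by linarith) d0
      _ ≤ dist x q * (2 * B * (√s + dist x q)) := by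
          refine mul_le_mul_of_nonneg_left ?_ d0
          have h3 : √B ≤ B := by
            rw [Real.sqrt_le_left (by linarith)]; nlinarith
          have := Real.sqrt_nonneg s
          nlinarith
      _ = _ := by ring
  · have e1 : I (ph m p s x * (gqx m q x * gqx m q x))
        = ∫ z, gqx m q x z ^ 2 ∂(kμ m p s x) := by
      rw [kμ_I e.ker hs]
      refine integral_congr_ae (hac.ae_le ?_)
      filter_upwards [mul_ae (gqx m q x) (gqx m q x)] with z hz
      rw [hz, sq]
    have hbd : Integrable (fun z => dist x q ^ 2 * (2 * dist x z ^ 2 + 2 * dist x q ^ 2))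
        (kμ m p s x) :=
      ((hi.const_mul 2).add (integrable_const _)).const_mul _
    rw [e1]
    calc ∫ z, gqx m q x z ^ 2 ∂(kμ m p s x)
        ≤ ∫ z, dist x q ^ 2 * (2 * dist x z ^ 2 + 2 * dist x q ^ 2) ∂(kμ m p s x) := by
          refine integral_mono_of_nonneg (ae_of_all _ fun z => sq_nonneg _) hbd ?_
          filter_upwards [hgae] with z hz
          have h4 : gqx m q x z ^ 2 ≤ (dist x q * (dist x z + dist x q)) ^ 2 := by
            rw [← sq_abs]; exact pow_le_pow_left₀ (abs_nonneg _) hz 2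
          refine h4.trans ?_
          rw [mul_pow]
          refine mul_le_mul_of_nonneg_left ?_ (sq_nonneg _)
          nlinarith [sq_nonneg (dist x z - dist x q)]
      _ = dist x q ^ 2 * (2 * (∫ z, dist x z ^ 2 ∂(kμ m p s x)) + 2 * dist x q ^ 2) := by
          rw [integral_const_mul, integral_add (hi.const_mul 2) (integrable_const _),
            integral_const_mul, integral_const]
          simp
      _ ≤ dist x q ^ 2 * (2 * (B * s) + 2 * dist x q ^ 2) :=
          mul_le_mul_of_nonneg_left (by linarith) (sq_nonneg _)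
      _ ≤ dist x q ^ 2 * (2 * B * (s + dist x q ^ 2)) := by
          refine mul_le_mul_of_nonneg_left ?_ (sq_nonneg _)
          nlinarith [sq_nonneg (dist x q)]
      _ = _ := by ring

end Vale.Agent.P242.H196
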