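import Vale.Agent.P242.H196.NuD
import Vale.Agent.P242.H196.Triv
import Vale.Agent.P242.H196.SrcG
import Vale.Agent.P242.H254.E1v
import Vale.Agent.P242.H597.EnvB
import Vale.Agent.P242.H924.Uc
import Vale.Agent.P242.H744.Start
import Vale.Agent.P242.H751.Nd

/-!
P242, package A-T7 (helper196): (R1), (R2) in the frozen vocabulary, part a: sources.
-/

set_option linter.all false

open MeasureTheory Filter Topology Set Metric
open scoped ENNReal NNReal MeasureTheory InnerProductSpace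

universe u

namespace Vale.Agent.P242.H196

open Vale.Agent.P233 Vale.Agent.P233.RA Vale.Agent.P242.H990 Vale.Agent.P242.H155
  Vale.Agent.P242.H71

variable {M : Type u} [MetricSpace M] [CompleteSpace M] [SecondCountableTopology M]
  [MeasurableSpace M] [BorelSpace M] {m : Measure M} {n : ℕ} {K A : ℝ} {o : M}
  {p : ℝ → M → M → ℝ}

/-! ### real powers -/

theorem rpow_eighth_ge {z : ℝ} (hz : 0 ≤ z) (hz1 : z ≤ 1) : z ≤ z ^ (1 / 8 : ℝ) := by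
  rcases hz.eq_or_lt with h | h
  · rw [← h, Real.zero_rpow (by norm_num)]
  · calc z = z ^ (1 : ℝ) := (Real.rpow_one z).symm
      _ ≤ z ^ (1 / 8 : ℝ) := Real.rpow_le_rpow_of_exponent_ge h hz1 (by norm_num)

/-- `z = w^8` -/
theorem rpow_eighth_pow {z : ℝ} (hz : 0 ≤ z) : (z ^ (1 / 8 : ℝ)) ^ 8 = z := by
  rw [← Real.rpow_natCast, ← Real.rpow_mul hz]; norm_num

/-- `t ≤ A₀ (t/ρ²)^{1/8}` -/
theorem t_le_floor {t ρ A₀ : ℝ} (ht : 0 ≤ t) (hρ : 0 < ρ) (htρ : t ≤ ρ ^ 2) (hA : ρ ^ 2 ≤ A₀) :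
    t ≤ A₀ * (t / ρ ^ 2) ^ (1 / 8 : ℝ) := by
  have hρ2 : 0 < ρ ^ 2 := by positivity
  have h1 : t / ρ ^ 2 ≤ 1 := by rw [div_le_one hρ2]; exact htρ
  have h0 : 0 ≤ t / ρ ^ 2 := by positivity
  have h2 := rpow_eighth_ge h0 h1
  calc t = ρ ^ 2 * (t / ρ ^ 2) := by field_simp
    _ ≤ A₀ * (t / ρ ^ 2) ^ (1 / 8 : ℝ) := mul_le_mul hA h2 h0 (by linarith)

/-! ### environment -/

theorem abs_sq_cls {X : Type*} [MeasurableSpace X] {μ : Measure X} (f : X →ₘ[μ] ℝ) :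
    (|f| : X →ₘ[μ] ℝ) ^ 2 = f ^ 2 := by
  apply AEEqFun.ext
  rw [sq, sq]
  filter_upwards [mul_ae |f| |f|, mul_ae f f, abs_ae f] with x a1 a2 a3
  rw [a1, a2, a3, abs_mul_abs_self]

theorem env_n (e : Env m n K o A p) : 0 < (n : ℝ) := by
  have := e.hyp.two_le
  exact_mod_cast (by omega : 0 < n)

/-- `BE(-|K|, n)` -/
theorem env_be' (e : Env m n K o A p) : (sob m).BE (-|K|) n := (H744.be_abs e.hyp).1

theorem gqx_mem2 (e : Env m n K o A p) (q x : M) : MemLp (gqx m q x) 2 m := by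
  have hC := H751.env_gamma e
  exact mem_sub (hC.memLp _ (H744.w_mem e.hyp q)) (hC.memLp _ (H744.w_mem e.hyp x))

theorem gqx_top (e : Env m n K o A p) (q x : M) : MemLp (gqx m q x) ∞ m :=
  mem_sub (H254.vx_of e.hyp q).memA.2 (H254.vx_of e.hyp x).memA.2

/-- the mean of `|P_τ F|` -/
theorem I_abs_P_le (e : Env m n K o A p) {F : M →ₘ[m] ℝ} (hF : MemLp F 2 m) {x : M} {s τ : ℝ}
    (hs : 0 < s) (hτ : 0 ≤ τ) :
    I (ph m p s x * |(sob m).P τ F|) ≤ I (ph m p (s + τ) x * |F|) := by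
  have hC := H751.env_gamma e
  have hD := hC.toIsDir
  have hφ := H597.env_cen e x
  have h2 := mem_abs hF
  rw [← hφ.av_P hD hs hτ h2]
  have m1 : MemLp (ph m p s x * |(sob m).P τ F| : M →ₘ[m] ℝ) 1 m :=
    mem_mul_22 (hφ.mem2 s hs) (mem_abs (hD.P_mem2 τ hF))
  have m2 : MemLp (ph m p s x * (sob m).P τ |F| : M →ₘ[m] ℝ) 1 m :=
    mem_mul_22 (hφ.mem2 s hs) (hD.P_mem2 τ h2)
  refine I_mono m1 m2 (mul_le_mul_of_nonneg_left ?_ (hφ.nonneg s hs))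
  have a1 : (sob m).P τ F ≤ (sob m).P τ |F| := hD.P_mono hτ hF h2 (le_abs_self F)
  have a2 : -(sob m).P τ F ≤ (sob m).P τ |F| := by
    have h3 := hD.P_mono hτ (mem_neg hF) h2 (neg_le_abs F)
    have h4 : (sob m).P τ (-F) = -(sob m).P τ F := by
      have := hD.P_smul τ (-1) hF
      rwa [neg_one_smul, neg_one_smul] at this
    rwa [h4] at h3
  exact abs_le'.2 ⟨a1, a2⟩

/-- **S1.** The source of `w_q - w_x`. -/
theorem src_voc (e : Env m n K o A p) (R₀ C₀ Γ : ℝ) (hC₀ : 0 ≤ C₀) (hΓ : 1 ≤ Γ) :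
    ∃ B, 1 ≤ B ∧ ∀ Q A₀ ρ t s τ : ℝ, ∀ x q : M, 0 < A₀ → 0 < ρ → ρ ^ 2 ≤ A₀ → t ≤ ρ ^ 2 →
      dist x o ≤ R₀ → 0 < t → dist x q ≤ C₀ * √t → 0 < s → 0 < τ → t / Γ ≤ s + τ → s + τ ≤ Γ * t →
      B * t ≤ Q * ρ ^ 2 → Q * ρ ^ 2 ≤ 1 / 2 → t ≤ Q * ρ ^ 2 →
      I (ph m p s x * |(sob m).lap ((sob m).P τ (gqx m q x))|)
        ≤ B * (Dt m n K p Q A₀ ρ t x + Dt m n K p Q A₀ ρ t q) := by
  obtain ⟨B₁, hB₁, h₁⟩ := nu_le_Dt e R₀ C₀ Γ hΓ hC₀
  obtain ⟨B₂, hB₂, h₂⟩ := triv_g e R₀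
  have hA := e.kb.one_le
  have hA2 : 1 ≤ A ^ 2 := one_le_pow₀ hA
  set T := (|K| + 1) * (B₂ * (C₀ * (√Γ + C₀))) with hT
  have hT0 : 0 ≤ T := by positivity
  refine ⟨T + B₁ + 8 * A ^ 2 * Γ, by nlinarith, ?_⟩
  intro Q A₀ ρ t s τ x q hA₀ hρ hρA htρ hx ht hxq hs hτ h3 h4 h5 h6 h7
  have hC := H751.env_gamma e
  have hB := H597.env_bei' e
  haveI := H597.env_sf e
  have hφ := H597.env_cen e x
  have hn := env_n e
  set D := Dt m n K p Q A₀ ρ t x + Dt m n K p Q A₀ ρ t q with hD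
  have hDx0 : A₀ * (t / ρ ^ 2) ^ (1 / 8 : ℝ) ≤ Dt m n K p Q A₀ ρ t x := Dt_ge_floor e ht h7
  have hDq0 : 0 ≤ Dt m n K p Q A₀ ρ t q := Dt_nonneg e hA₀.le ht h7
  have hDx00 : 0 ≤ Dt m n K p Q A₀ ρ t x := Dt_nonneg e hA₀.le ht h7
  have htD : t ≤ D := by
    have := t_le_floor ht.le hρ htρ hρA
    rw [hD]; linarith
  have hD0 : 0 ≤ D := by rw [hD]; positivity
  have h8 : 8 * A ^ 2 * Γ * t ≤ (T + B₁ + 8 * A ^ 2 * Γ) * t :=
    mul_le_mul_of_nonneg_right (by linarith) ht.le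
  have h9 : 8 * A ^ 2 * Γ * t ≤ Q * ρ ^ 2 := h8.trans h5
  have hst : 0 < s + τ := by linarith
  have key := src_g hC hB hφ (H254.vx_of e.hyp x) (H254.vx_of e.hyp q) hs hτ
  have e1 : H254.nuP (sob m) n (|K| + 1) (1 / 2) (cl m (ww (1 / 2) q)) (ph m p (s + τ) x)
      = nu m n K p q (s + τ) x := (H254.nuF_eq q _).symm
  have e2 : H254.nuP (sob m) n (|K| + 1) (1 / 2) (cl m (ww (1 / 2) x)) (ph m p (s + τ) x)
      = nu m n K p x (s + τ) x := (H254.nuF_eq x _).symm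
  rw [e1, e2] at key
  have k1 := h₁ Q A₀ ρ t (s + τ) x q hA₀.le hx ht hxq h3 h4 h9 (h9.trans h6)
  have k2 := h₁ Q A₀ ρ t (s + τ) x x hA₀.le hx ht (by rw [dist_self]; positivity) h3 h4 h9
    (h9.trans h6)
  have k3 : I (ph m p s x * |(sob m).P τ (gqx m q x)|) ≤ B₂ * (C₀ * (√Γ + C₀)) * t := by
    refine (I_abs_P_le e (gqx_mem2 e q x) hs hτ.le).trans ?_
    have h10 : 8 * A ^ 2 * (s + τ) ≤ 1 := by
      have : 8 * A ^ 2 * (s + τ) ≤ 8 * A ^ 2 * (Γ * t) :=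
        mul_le_mul_of_nonneg_left h4 (by positivity)
      linarith
    refine (h₂ x q (s + τ) hx hst h10).1.trans ?_
    have h11 : √(s + τ) ≤ √Γ * √t := by
      rw [← Real.sqrt_mul (by linarith)]; exact Real.sqrt_le_sqrt h4
    have ht0 := Real.sqrt_nonneg t
    have d0 : 0 ≤ dist x q := dist_nonneg
    have hΓ0 := Real.sqrt_nonneg Γ
    have tt : √t * √t = t := Real.mul_self_sqrt ht.le
    calc B₂ * dist x q * (√(s + τ) + dist x q)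
        ≤ B₂ * (C₀ * √t) * (√Γ * √t + C₀ * √t) := by
          refine mul_le_mul ?_ (add_le_add h11 hxq) (by positivity) (by positivity)
          exact mul_le_mul_of_nonneg_left hxq (by linarith)
      _ = B₂ * (C₀ * (√Γ + C₀)) * (√t * √t) := by ring
      _ = _ := by rw [tt]
  have k4 : (|K| + 1) * I (ph m p s x * |(sob m).P τ (gqx m q x)|) ≤ T * D := by
    calc (|K| + 1) * I (ph m p s x * |(sob m).P τ (gqx m q x)|)
        ≤ (|K| + 1) * (B₂ * (C₀ * (√Γ + C₀)) * t) :=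
          mul_le_mul_of_nonneg_left k3 (by positivity)
      _ = T * t := by rw [hT]; ring
      _ ≤ T * D := mul_le_mul_of_nonneg_left htD hT0
  have k5 : B₁ * Dt m n K p Q A₀ ρ t q + B₁ * Dt m n K p Q A₀ ρ t x = B₁ * D := by rw [hD]; ring
  have k6 : 0 ≤ 8 * A ^ 2 * Γ * D := by positivity
  have hdef : gqx m q x = cl m (ww (1 / 2) q) - cl m (ww (1 / 2) x) := rfl
  rw [← hdef] at key
  calc I (ph m p s x * |(sob m).lap ((sob m).P τ (gqx m q x))|)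
      ≤ (|K| + 1) * I (ph m p s x * |(sob m).P τ (gqx m q x)|) + nu m n K p q (s + τ) x
        + nu m n K p x (s + τ) x := key
    _ ≤ T * D + (B₁ * Dt m n K p Q A₀ ρ t q + B₁ * Dt m n K p Q A₀ ρ t x) := by linarith
    _ = T * D + B₁ * D := by rw [k5]
    _ ≤ (T + B₁ + 8 * A ^ 2 * Γ) * D := by linarith

section cfg
variable {R Q η ρ : ℝ} {u : Fin n → M →ₘ[m] ℝ} {uu : M → E n}

/-- **S2.** The Laplacian of `P_τ u_c`. -/
theorem src_uc (e : Env m n K o A p) (hu : Cfg m n K o p R Q η ρ u uu) (hη : 0 ≤ η) (c : E n)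
    {x : M} (hx : x ∈ ball o (R * ρ)) {s τ : ℝ} (hs : 0 < s) (hτ : 0 ≤ τ)
    (hQ : s + τ ≤ Q * ρ ^ 2) :
    I (ph m p s x * |(sob m).lap ((sob m).P τ (uc u c))|) ≤ √n * ‖c‖ * (η / ρ) := by
  have hC := H751.env_gamma e
  have hD := hC.toIsDir
  have hφ := H597.env_cen e x
  have hT := H924.uc_testI e hu c
  have hl := hC.test_isLap hT.1
  have hρ := hu.ρ_pos
  rw [hD.P_lap_of τ hl]
  refine (I_abs_P_le e hl.2.1 hs hτ).trans ?_
  have hst : 0 < s + τ := by linarith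
  have h1 := H924.uc_lap1 e hu c hx hst hQ
  set f := (sob m).lap (uc u c) with hf
  have hb : 0 ≤ √n * ‖c‖ * (η / ρ) := by positivity
  -- Cauchy-Schwarz
  have h2 := H751.PP_abs_le_sqrt e hst x (G := |f|) (mem_abs hl.2.1)
  have h3 : (|f| : M →ₘ[m] ℝ) ^ 2 = f ^ 2 := abs_sq_cls f
  rw [h3] at h2
  refine (le_abs_self _).trans (h2.trans ?_)
  exact Real.sqrt_le_iff.2 ⟨hb, h1⟩

end cfg

end Vale.Agent.P242.H196
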