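import Vale.Agent.P242.H196.RRa
import Vale.Agent.P242.H196.R1
import Vale.Agent.P242.H196.R2

/-!
P242, package A-T7 (helper196): (R1), (R2) in the frozen vocabulary, part b: at one centre `x`, one
vertex `q` and the levels `r j`, all constants explicit.
-/

set_option linter.all false

open MeasureTheory Filter Topology Set Metric
open scoped ENNReal NNReal MeasureTheory InnerProductSpace

universe u

namespace Vale.Agent.P242.H196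

open Vale.Agent.P233 Vale.Agent.P233.RA Vale.Agent.P242.H990 Vale.Agent.P242.H155
  Vale.Agent.P242.H71

/-- size of `c` from nondegeneracy -/
theorem norm_small {ρ t tk G P₀ κn N : ℝ} (hρ : 0 < ρ) (ht : 0 < t) (htk : tk ≤ t) (htk0 : 0 < tk)
    (htρ : t ≤ ρ ^ 2) (hκ : 0 < κn) (hP : 0 ≤ P₀) (hN : 0 ≤ N)
    (hlow : 1 / 2 * (t / ρ ^ 2) ^ (1 / 8 : ℝ) * N ^ 2 ≤ G)
    (hnd : κn * √t * √G ≤ P₀ * (√tk * √t)) :
    (N / ρ) ^ 2 ≤ 2 * (P₀ / κn) ^ 2 * ((t / ρ ^ 2) ^ (1 / 8 : ℝ)) ^ 2 := by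
  have hρ2 : 0 < ρ ^ 2 := by positivity
  set z := t / ρ ^ 2 with hz
  have hz0 : 0 < z := by positivity
  have hz1 : z ≤ 1 := by rw [hz, div_le_one hρ2]; exact htρ
  set w := z ^ (1 / 8 : ℝ) with hw
  have hw0 : 0 < w := Real.rpow_pos_of_pos hz0 _
  have hw1 : w ≤ 1 := Real.rpow_le_one hz0.le hz1 (by norm_num)
  have hw8 : w ^ 8 = z := rpow_eighth_pow hz0.le
  have hst : 0 < √t := Real.sqrt_pos.2 ht
  have hG0 : 0 ≤ G := le_trans (by positivity) hlow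
  have h1 : √G ≤ P₀ / κn * √tk := by
    rw [div_mul_eq_mul_div, le_div_iff₀ hκ]
    have : √G * κn * √t ≤ P₀ * √tk * √t := by nlinarith
    exact le_of_mul_le_mul_right this hst
  have h2 : G ≤ (P₀ / κn) ^ 2 * (ρ ^ 2 * z) := by
    have h3 : G ≤ (P₀ / κn * √tk) ^ 2 := by
      rw [← Real.sq_sqrt hG0]
      exact pow_le_pow_left₀ (Real.sqrt_nonneg _) h1 2
    rw [mul_pow, Real.sq_sqrt htk0.le] at h3
    have h4 : ρ ^ 2 * z = t := by rw [hz]; field_simp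
    rw [h4]
    exact h3.trans (mul_le_mul_of_nonneg_left htk (sq_nonneg _))
  -- divide by `w`
  have h5 : N ^ 2 * w ≤ 2 * (P₀ / κn) ^ 2 * ρ ^ 2 * w ^ 7 * w := by
    have : w ^ 7 * w = z := by rw [← hw8]; ring
    calc N ^ 2 * w = 2 * (1 / 2 * w * N ^ 2) := by ring
      _ ≤ 2 * G := by linarith
      _ ≤ 2 * ((P₀ / κn) ^ 2 * (ρ ^ 2 * z)) := by linarith
      _ = 2 * (P₀ / κn) ^ 2 * ρ ^ 2 * (w ^ 7 * w) := by rw [this]; ring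
      _ = _ := by ring
  have h6 : N ^ 2 ≤ 2 * (P₀ / κn) ^ 2 * ρ ^ 2 * w ^ 7 := le_of_mul_le_mul_right h5 hw0
  have h7 : w ^ 7 ≤ w ^ 2 := pow_le_pow_of_le_one hw0.le hw1 (by norm_num)
  rw [div_pow, div_le_iff₀ hρ2]
  calc N ^ 2 ≤ 2 * (P₀ / κn) ^ 2 * ρ ^ 2 * w ^ 7 := h6
    _ ≤ 2 * (P₀ / κn) ^ 2 * ρ ^ 2 * w ^ 2 := mul_le_mul_of_nonneg_left h7 (by positivity)
    _ = _ := by ring

variable {M : Type u} [MetricSpace M] [CompleteSpace M] [SecondCountableTopology M]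
  [MeasurableSpace M] [BorelSpace M] {m : Measure M} {n : ℕ} {K A : ℝ} {o : M}
  {p : ℝ → M → M → ℝ}
variable {R Q η ρ : ℝ} {u : Fin n → M →ₘ[m] ℝ} {uu : M → E n}

/-- The inputs at the levels `r j`, `j ≤ k`, for the centre `x` and the vertex `q`. -/
structure Lv (m : Measure M) {n : ℕ} (K : ℝ) (p : ℝ → M → M → ℝ) (u : Fin n → M →ₘ[m] ℝ)
    (x q : M) (k : ℕ) (r D : ℕ → ℝ) (Λ θ σ κd CL B₁ C₁ κn A₀ ρ : ℝ) : Prop where
  r_pos : ∀ j, 0 < r j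
  rΛ : ∀ j, r j = Λ * r (j + 1)
  one_le : 1 ≤ Λ
  r0 : r 0 ^ 2 ≤ ρ ^ 2
  θ1 : 1 ≤ θ
  D0 : ∀ j, 0 ≤ D j
  Dq : ∀ j < k, D j ≤ θ * D (j + 1)
  Dfl : ∀ j ≤ k, A₀ * (r j ^ 2 / ρ ^ 2) ^ (1 / 8 : ℝ) ≤ D j
  κd0 : 0 ≤ κd
  κd1 : κd ^ 2 * (Λ * θ) ≤ 1 / 16
  CL0 : 0 ≤ CL
  B1 : 1 ≤ B₁
  C1 : 1 ≤ C₁
  κn0 : 0 < κn
  σ1 : σ ≤ 1
  dl : ∀ j < k, DLAt (sob m) (fun s => ph m p s x) (ucL u) (r j ^ 2) (r (j + 1) ^ 2) σ (κd / Λ)
    (CL * r j ^ 2)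
  nd : ∀ j ≤ k, ∀ (c : E n) (b : ℝ), κn * √(r j ^ 2) * √(Gm m p u (r j ^ 2) x c c)
    ≤ PP m p (r j ^ 2) x |uc u c - b • (1 : M →ₘ[m] ℝ)|
  low : ∀ j ≤ k, ∀ c : E n, 1 / 2 * (r j ^ 2 / ρ ^ 2) ^ (1 / 8 : ℝ) * ‖c‖ ^ 2
    ≤ Gm m p u (r j ^ 2) x c c
  src : ∀ j < k, ∀ s ∈ Icc (r (j + 1) ^ 2) (r j ^ 2), ∀ τ ∈ Ioc 0 (2 * r j ^ 2),
    I (ph m p s x * |(sob m).lap ((sob m).P τ (gqx m q x))|) ≤ B₁ * D j
  triv : ∀ j ≤ k, I (ph m p (r j ^ 2) x * |(sob m).P (r j ^ 2) (gqx m q x)|) ≤ C₁ * (r k * r j)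
  start : Near (ph m p (r 0 ^ 2) x) (ucL u) ((sob m).P (r 0 ^ 2) (gqx m q x))
    (√((2 * CL + 1) * B₁ * Λ * (Λ * θ) ^ k * D k) * (r k * r 0))

section
variable {x q : M} {k : ℕ} {r D : ℕ → ℝ} {Λ θ σ κd CL B₁ C₁ κn A₀ : ℝ}

theorem Lv.r_sq_le (h : Lv m K p u x q k r D Λ θ σ κd CL B₁ C₁ κn A₀ ρ) (j : ℕ) :
    r j ^ 2 ≤ ρ ^ 2 := by
  induction j with
  | zero => exact h.r0
  | succ j ih =>
    refine le_trans (pow_le_pow_left₀ (h.r_pos _).le ?_ 2) ih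
    rw [h.rΛ j]
    have := h.r_pos (j + 1)
    have := h.one_le
    nlinarith

theorem Lv.r_le (h : Lv m K p u x q k r D Λ θ σ κd CL B₁ C₁ κn A₀ ρ) {i j : ℕ} (hij : i ≤ j) :
    r j ≤ r i := by
  induction j, hij using Nat.le_induction with
  | base => exact le_rfl
  | succ j hj ih =>
    refine le_trans ?_ ih
    rw [h.rΛ j]
    have := h.r_pos (j + 1)
    have := h.one_le
    nlinarith

/-- the size of `c` at the level `j` -/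
theorem Lv.norm_le (h : Lv m K p u x q k r D Λ θ σ κd CL B₁ C₁ κn A₀ ρ) (hρ : 0 < ρ) {j : ℕ}
    (hj : j ≤ k) (c : E n) (c₀ : ℝ) {P₀ : ℝ} (hP : 0 ≤ P₀)
    (hc : I (ph m p (r j ^ 2) x * |uc u c - c₀ • (1 : M →ₘ[m] ℝ)|) ≤ P₀ * (r k * r j)) :
    (‖c‖ / ρ) ^ 2 ≤ 2 * (P₀ / κn) ^ 2 * ((r j ^ 2 / ρ ^ 2) ^ (1 / 8 : ℝ)) ^ 2 := by
  have hrj := h.r_pos j
  have hrk := h.r_pos k
  refine norm_small hρ (by positivity) (tk := r k ^ 2) ?_ (by positivity) (h.r_sq_le j) h.κn0 hP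
    (norm_nonneg c) (h.low j hj c) ?_
  · exact pow_le_pow_left₀ hrk.le (h.r_le hj) 2
  · refine (h.nd j hj c c₀).trans ?_
    rw [Real.sqrt_sq hrj.le, Real.sqrt_sq hrk.le]
    exact hc

/-- **(R1)** in the frozen vocabulary, all levels. -/
theorem Lv.R1 (h : Lv m K p u x q k r D Λ θ σ κd CL B₁ C₁ κn A₀ ρ) (e : Env m n K o A p)
    (hu : Cfg m n K o p R Q η ρ u uu) (hη : 0 ≤ η) (hx : x ∈ ball o (R * ρ))
    (hQ : 2 * ρ ^ 2 ≤ Q * ρ ^ 2) (hA₀ : 0 < A₀)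
    (hsm : √n * (√2 * (2 * C₁ / κn)) * η ≤ A₀) :
    ∀ j ≤ k, Near (ph m p (r j ^ 2) x) (ucL u) ((sob m).P (r j ^ 2) (gqx m q x))
      (2 * C₁ * √(Λ * θ) * √((2 * CL + 1) * B₁ * Λ * (Λ * θ) ^ (k - j) * D k) * (r k * r j)) := by
  have hC := H751.env_gamma e
  have hρ := hu.ρ_pos
  have hρ2 : 0 < ρ ^ 2 := by positivity
  have hφ := H597.env_cen e x
  have hB1 := h.B1
  have hC1 := h.C1
  have hκn := h.κn0
  refine R1_all (C := sob m) (φ := fun s => ph m p s x) (u := ucL u) hC.toIsDir hφ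
    (fun c => hC.memLp _ (hC.test_A (H924.uc_testI e hu c).1).1)
    (fun c => (hC.test_A (H924.uc_testI e hu c).1).2) (gqx_mem2 e q x) (gqx_top e q x)
    h.r_pos h.rΛ h.one_le h.θ1 h.D0 h.Dq h.κd0 h.κd1 h.C1 h.CL0 (by linarith) h.σ1 h.dl h.src
    (fun j hj => ⟨0, by rw [zero_smul, sub_zero]; exact h.triv j hj⟩) ?_ h.start
  intro j hj c₀ c hc s hs τ hτ
  have hrj := h.r_pos j
  have hrj1 := h.r_pos (j + 1)
  have hsp : 0 < s := lt_of_lt_of_le (by positivity) hs.1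
  have hn := h.norm_le hρ hj.le c c₀ (P₀ := 2 * C₁) (by linarith) hc
  have hsτ : s + τ ≤ Q * ρ ^ 2 := by
    have h1 := hs.2
    have h2 := hτ.2
    have h3 := h.r_sq_le j
    have h4 : σ * r j ^ 2 ≤ r j ^ 2 := by
      have := h.σ1
      nlinarith [sq_nonneg (r j)]
    linarith
  refine (src_uc e hu hη c hx hsp hτ.1.le hsτ).trans ?_
  set w := (r j ^ 2 / ρ ^ 2) ^ (1 / 8 : ℝ) with hw
  have hw0 : 0 ≤ w := Real.rpow_nonneg (by positivity) _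
  have h5 : ‖c‖ / ρ ≤ √2 * (2 * C₁ / κn) * w := by
    have h6 : (√2 * (2 * C₁ / κn) * w) ^ 2 = 2 * (2 * C₁ / κn) ^ 2 * w ^ 2 := by
      rw [mul_pow, mul_pow, Real.sq_sqrt (by norm_num)]
    rw [← h6] at hn
    exact le_of_sq_le_sq hn (by positivity)
  calc √n * ‖c‖ * (η / ρ) = √n * (‖c‖ / ρ) * η := by ring
    _ ≤ √n * (√2 * (2 * C₁ / κn) * w) * η := by
        refine mul_le_mul_of_nonneg_right ?_ hη
        exact mul_le_mul_of_nonneg_left h5 (Real.sqrt_nonneg _)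
    _ = √n * (√2 * (2 * C₁ / κn)) * η * w := by ring
    _ ≤ A₀ * w := mul_le_mul_of_nonneg_right hsm hw0
    _ ≤ D j := h.Dfl j hj.le
    _ ≤ B₁ * D j := by nlinarith [h.D0 j]

end

end Vale.Agent.P242.H196
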