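import Vale.Agent.P242.H196.RRb
import Vale.Agent.P242.H254.E1k
import Vale.Agent.P242.H696.K9

/-!
P242, package A-T7 (helper196): (R2) in the frozen vocabulary: the three terms of the `Γ₂` form of
the affine part.
-/

set_option linter.all false

open MeasureTheory Filter Topology Set Metric
open scoped ENNReal NNReal MeasureTheory InnerProductSpace

universe u

namespace Vale.Agent.P242.H196

open Vale.Agent.P233 Vale.Agent.P233.RA Vale.Agent.P242.H990 Vale.Agent.P242.H155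
  Vale.Agent.P242.H71

variable {M : Type u} [MetricSpace M] [CompleteSpace M] [SecondCountableTopology M]
  [MeasurableSpace M] [BorelSpace M] {m : Measure M} {n : ℕ} {K A : ℝ} {o : M}
  {p : ℝ → M → M → ℝ}

section cfg
variable {R Q η ρ : ℝ} {u : Fin n → M →ₘ[m] ℝ} {uu : M → E n}

/-- the gradient of `P_r Δu_c` in the mean -/
theorem uc_P_lap2 (e : Env m n K o A p) (hu : Cfg m n K o p R Q η ρ u uu) (hη : 0 ≤ η) (c : E n)
    {x : M} (hx : x ∈ ball o (R * ρ)) {s r : ℝ} (hs : 0 < s) (hr : 0 ≤ r)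
    (hQ : s + r ≤ Q * ρ ^ 2) (hK : |K| * r ≤ 1) :
    I (ph m p s x * (sob m).Γ ((sob m).P r ((sob m).lap (uc u c)))
      ((sob m).P r ((sob m).lap (uc u c)))) ≤ (Real.exp 1 * (√n * ‖c‖ * (η / ρ ^ 2))) ^ 2 := by
  have hC := H751.env_gamma e
  have hB := H597.env_bei' e
  haveI := H597.env_sf e
  have hφ := H597.env_cen e x
  have hW := hC.test_lap_mem (H924.uc_testI e hu c).1
  have h1 := IsGamma.P_gradW hC hB hr hW (hφ.nonneg s hs) (hφ.mem2 s hs) (hφ.top s hs)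
  have e1 : (sob m).P r (ph m p s x) = ph m p (s + r) x := hφ.semi s r hs hr
  rw [e1] at h1
  have h2 := H924.uc_lap2 e hu c hx (by linarith : 0 < s + r) hQ
  have h3 : Real.exp (-(2 * -|K| * r)) ≤ Real.exp 1 ^ 2 := by
    rw [← Real.exp_nat_mul]
    apply Real.exp_le_exp.2
    push_cast
    linarith
  refine h1.trans ?_
  have h4 : 0 ≤ I (ph m p (s + r) x * (sob m).Γ ((sob m).lap (uc u c)) ((sob m).lap (uc u c))) :=
    I_nonneg (mul_nonneg (hφ.nonneg _ (by linarith)) (hC.nonneg _ hW))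
  rw [mul_pow]
  exact mul_le_mul h3 h2 h4 (by positivity)

/-- the third term -/
theorem e3_voc (e : Env m n K o A p) (hu : Cfg m n K o p R Q η ρ u uu) (hη : 0 ≤ η) (c : E n)
    {x : M} (hx : x ∈ ball o (R * ρ)) {R₀ : ℝ} (hx0 : dist x o ≤ R₀) {s τ : ℝ} (hs : 0 < s)
    (hτ : 0 < τ) (hs1 : 512 * A ^ 2 * s ≤ 1 / 2) (hQ : 512 * A ^ 2 * s + τ ≤ Q * ρ ^ 2)
    (hK : |K| * τ ≤ 1) :
    gam m K p s x ((sob m).P τ (uc u c) - uc u c) ((sob m).P τ (uc u c) - uc u c)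
      ≤ (H254.cA3 n K A R₀ / s / 2 * τ + 3) * τ * (Real.exp 1 * (√n * ‖c‖ * (η / ρ ^ 2))) ^ 2 := by
  have hC := H751.env_gamma e
  have hB := H597.env_bei' e
  have hφ := H597.env_cen e x
  have hA := e.kb.one_le
  have hA2 : 1 ≤ A ^ 2 := one_le_pow₀ hA
  have hρ := hu.ρ_pos
  have hT := (H924.uc_testI e hu c).1
  set b := Real.exp 1 * (√n * ‖c‖ * (η / ρ ^ 2)) with hb
  have hb0 : 0 ≤ b := by positivity
  have hss : s ≤ 512 * A ^ 2 * s := by nlinarith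
  have hs' : 0 < 512 * A ^ 2 * s := by positivity
  have hc3 := H254.cA3_nonneg n K (A := A) R₀ hA
  have key := NN_P_sub_le hC hB (abs_nonneg K) hT (hφ.memA hC.toIsDir hs) (hφ.nonneg s hs)
    (hφ.isLap hC.toIsDir hs) (hφ.top _ hs') (hφ.nonneg _ hs')
    (show 0 ≤ H254.cA3 n K A R₀ / s by positivity) (H254.env_K3 e hx0 hs hs1) hτ hb0
    (fun r hr => uc_P_lap2 e hu hη c hx hs hr.1 (by linarith [hr.2])
      ((mul_le_mul_of_nonneg_left hr.2 (abs_nonneg K)).trans hK))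
    (fun r hr => uc_P_lap2 e hu hη c hx hs' hr.1 (by linarith [hr.2])
      ((mul_le_mul_of_nonneg_left hr.2 (abs_nonneg K)).trans hK))
  refine key.trans ?_
  have h1 : |K| * (τ * b) ^ 2 ≤ τ * b ^ 2 := by
    calc |K| * (τ * b) ^ 2 = |K| * τ * (τ * b ^ 2) := by ring
      _ ≤ 1 * (τ * b ^ 2) := mul_le_mul_of_nonneg_right hK (by positivity)
      _ = _ := one_mul _
  calc H254.cA3 n K A R₀ / s / 2 * (τ * b) ^ 2 + τ * b * (2 * b) + |K| * (τ * b) ^ 2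
      ≤ H254.cA3 n K A R₀ / s / 2 * (τ * b) ^ 2 + τ * b * (2 * b) + τ * b ^ 2 := by linarith
    _ = _ := by ring

end cfg

/-! ### the first term -/

/-- the square of a difference -/
theorem I_sq_sub_le {φ f X Y : M →ₘ[m] ℝ} (h0 : 0 ≤ φ) (hX : MemLp (φ * X ^ 2 : M →ₘ[m] ℝ) 1 m)
    (hY : MemLp (φ * Y ^ 2 : M →ₘ[m] ℝ) 1 m) (hf : f = X - Y) :
    I (φ * (f * f)) ≤ 2 * I (φ * X ^ 2) + 2 * I (φ * Y ^ 2) := by
  have key : ∀ᵐ z ∂m, 0 ≤ (φ * (f * f) : M →ₘ[m] ℝ) z ∧ (φ * (f * f) : M →ₘ[m] ℝ) z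
      ≤ ((2 : ℝ) • (φ * X ^ 2) + (2 : ℝ) • (φ * Y ^ 2) : M →ₘ[m] ℝ) z := by
    rw [hf]
    filter_upwards [mul_ae φ ((X - Y) * (X - Y)), mul_ae (X - Y) (X - Y), sub_ae (f := X) (g := Y),
      add_ae ((2 : ℝ) • (φ * X ^ 2)) ((2 : ℝ) • (φ * Y ^ 2)), smul_ae (φ * X ^ 2) (2 : ℝ),
      smul_ae (φ * Y ^ 2) (2 : ℝ), mul_ae φ (X ^ 2), mul_ae φ (Y ^ 2), sq_ae (f := X),
      sq_ae (f := Y), nonneg_iff_ae.1 h0] with z a1 a2 a3 a4 a5 a6 a7 a8 a9 b1 b2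
    rw [a1, a2, a3, a4, a5, a6, a7, a8, a9, b1]
    refine ⟨mul_nonneg b2 (mul_self_nonneg _), ?_⟩
    have h1 : (X z - Y z) * (X z - Y z) ≤ 2 * X z ^ 2 + 2 * Y z ^ 2 := by
      nlinarith [sq_nonneg (X z + Y z)]
    have h2 := mul_le_mul_of_nonneg_left h1 b2
    linarith
  have m2 : MemLp ((2 : ℝ) • (φ * X ^ 2) + (2 : ℝ) • (φ * Y ^ 2) : M →ₘ[m] ℝ) 1 m :=
    mem_add (mem_smul _ hX) (mem_smul _ hY)
  have m1 : MemLp (φ * (f * f) : M →ₘ[m] ℝ) 1 m := by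
    refine mem_of_le m2 ?_
    filter_upwards [key] with z hz
    rw [abs_of_nonneg hz.1]
    exact hz.2.trans (le_abs_self _)
  refine (I_mono m1 m2 (le_iff_ae.2 (key.mono fun z hz => hz.2))).trans (le_of_eq ?_)
  rw [I_add (mem_smul _ hX) (mem_smul _ hY), I_smul, I_smul]

/-- integrability of the weighted square of a function minus a constant -/
theorem mem_sq_sub {φ f : M →ₘ[m] ℝ} (hφ1 : MemLp φ 1 m) (hφt : MemLp φ ∞ m) (hf : MemLp f 2 m)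
    (N : ℝ) : MemLp (φ * (f - N • (1 : M →ₘ[m] ℝ)) ^ 2 : M →ₘ[m] ℝ) 1 m := by
  have m1 : MemLp ((2 : ℝ) • (φ * (f * f)) + (2 * N ^ 2) • φ : M →ₘ[m] ℝ) 1 m := by
    refine mem_add (mem_smul _ ?_) (mem_smul _ hφ1)
    exact mem_mul_top hφt (mem_mul_22 hf hf)
  refine mem_of_le m1 ?_
  filter_upwards [mul_ae φ ((f - N • (1 : M →ₘ[m] ℝ)) ^ 2), sq_ae (f := f - N • (1 : M →ₘ[m] ℝ)),
    sub_ae (f := f) (g := N • (1 : M →ₘ[m] ℝ)), smul_ae (1 : M →ₘ[m] ℝ) N,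
    one_ae (M := M) (m := m), add_ae ((2 : ℝ) • (φ * (f * f))) ((2 * N ^ 2) • φ),
    smul_ae (φ * (f * f)) (2 : ℝ), smul_ae φ (2 * N ^ 2), mul_ae φ (f * f), mul_ae f f]
    with z a1 a2 a3 a4 a5 a6 a7 a8 a9 b1
  rw [a1, a2, a3, a4, a5, a6, a7, a8, a9, b1]
  have e1 : 2 * (φ z * (f z * f z)) + 2 * N ^ 2 * φ z = φ z * (2 * (f z) ^ 2 + 2 * N ^ 2) := by ring
  rw [e1, abs_mul, abs_mul]
  refine mul_le_mul_of_nonneg_left ?_ (abs_nonneg _)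
  rw [abs_of_nonneg (sq_nonneg _), abs_of_nonneg (by positivity)]
  nlinarith [sq_nonneg (f z + N * 1)]

/-- one vertex (helper254's L9 in the frozen vocabulary) -/
theorem vx_voc (e : Env m n K o A p) (R₀ C₀ Γ : ℝ) (hC₀ : 0 ≤ C₀) (hΓ : 1 ≤ Γ) :
    ∃ B, 1 ≤ B ∧ ∀ Q A₀ ρ t s τ : ℝ, ∀ x y : M, 0 < A₀ → 0 < ρ → ρ ^ 2 ≤ A₀ → t ≤ ρ ^ 2 →
      dist x o ≤ R₀ → 0 < t → dist x y ≤ C₀ * √t → t / Γ ≤ s → s ≤ Γ * t → t / Γ ≤ τ →
      τ ≤ Γ * t → B * t ≤ Q * ρ ^ 2 → Q * ρ ^ 2 ≤ 1 / 2 → t ≤ Q * ρ ^ 2 →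
      H363.QQ (sob m) (-|K|) n ((sob m).P τ (cl m (ww (1 / 2) y)))
        ((sob m).P τ (cl m (ww (1 / 2) y))) (ph m p s x) ≤ B * Dt m n K p Q A₀ ρ t y ∧
      I (ph m p s x * ((sob m).lap ((sob m).P τ (cl m (ww (1 / 2) y)))
        - (n : ℝ) • (1 : M →ₘ[m] ℝ)) ^ 2) ≤ n * B * Dt m n K p Q A₀ ρ t y := by
  have hA := e.kb.one_le
  have hA2 : 1 ≤ A ^ 2 := one_le_pow₀ hA
  set a : ℝ := 512 * A ^ 2 with ha
  have ha1 : 1 ≤ a := by rw [ha]; linarith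
  have ha0 : 0 < a := by linarith
  have hΓ0 : 0 < Γ := by linarith
  -- the end of the window is `G₂ τ ≤ G₃ t`
  set G₂ : ℝ := a ^ 3 * Γ ^ 2 + a + 1 with hG₂
  have hG₂0 : 0 < G₂ := by positivity
  set G₃ : ℝ := G₂ * Γ with hG₃
  have hG₃0 : 0 < G₃ := by positivity
  have hG21 : 1 ≤ G₂ := by
    rw [hG₂]; linarith [show (0:ℝ) ≤ a ^ 3 * Γ ^ 2 by positivity]
  have hG₃1 : 1 ≤ G₃ := by
    rw [hG₃]
    nlinarith
  obtain ⟨B₁, hB₁, h₁⟩ := nu_le_Dt e R₀ C₀ G₃ hG₃1 hC₀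
  set Bw : ℝ := H254.cWin n K A R₀ (C₀ * √Γ) G₂ with hBw
  have hBw0 : 0 ≤ Bw := by
    rw [hBw]
    have c1 := H254.cA1_nonneg n A R₀
    have c3 := H254.cA3_nonneg n K R₀ hA
    have c4 := H254.cA4_nonneg n R₀ (C₀ * √Γ) G₂ hA
    unfold H254.cWin; linarith
  set cq : ℝ := H254.cQ n (|K| + 1) (1 / 2) (-|K|) Bw (Γ * Γ) with hcq
  have hn := env_n e
  have hcq0 : 0 ≤ cq := by
    have h0 := (H254.vx_of e.hyp o).cq_nonneg (κ := -|K|) hBw0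
    rw [hcq]
    unfold H254.cQ
    positivity
  refine ⟨cq * (Γ * B₁) + 8 * A ^ 2 * G₃, ?_, ?_⟩
  · have h1 : 0 ≤ cq * (Γ * B₁) := by positivity
    have h2 : 1 * 1 ≤ A ^ 2 * G₃ := mul_le_mul hA2 hG₃1 (by norm_num) (by positivity)
    linarith
  intro Q A₀ ρ t s τ x y hA₀ hρ hρA htρ hx ht hxy hs1 hs2 hτ1 hτ2 hBt hQ12 htQ
  have hC := H751.env_gamma e
  haveI := H597.env_sf e
  have hBE := env_be' e
  have hlo : 0 < t / Γ := by positivity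
  have hs0 : 0 < s := hlo.trans_le hs1
  have hτ0 : 0 < τ := hlo.trans_le hτ1
  have htτ : t ≤ Γ * τ := by
    rw [div_le_iff₀ hΓ0] at hτ1; linarith
  have hts : t ≤ Γ * s := by
    rw [div_le_iff₀ hΓ0] at hs1; linarith
  have h8 : 8 * A ^ 2 * G₃ * t ≤ (cq * (Γ * B₁) + 8 * A ^ 2 * G₃) * t :=
    mul_le_mul_of_nonneg_right (by linarith [show 0 ≤ cq * (Γ * B₁) by positivity]) ht.le
  have h9 : 8 * A ^ 2 * G₃ * t ≤ Q * ρ ^ 2 := h8.trans hBt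
  have hG₃t : G₃ * t ≤ 1 / 2 := by
    have : 1 * (G₃ * t) ≤ 8 * A ^ 2 * (G₃ * t) :=
      mul_le_mul_of_nonneg_right (by linarith) (by positivity)
    linarith
  have hGτ : G₂ * τ ≤ G₃ * t := by
    rw [hG₃, mul_assoc]
    exact mul_le_mul_of_nonneg_left hτ2 hG₂0.le
  have hτ12 : τ ≤ 1 := by
    have : 1 * τ ≤ G₂ * τ := mul_le_mul_of_nonneg_right hG21 hτ0.le
    linarith
  set D := Dt m n K p Q A₀ ρ t y with hDdef
  have hDf : A₀ * (t / ρ ^ 2) ^ (1 / 8 : ℝ) ≤ D := Dt_ge_floor e ht htQ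
  have hD0 : 0 ≤ D := Dt_nonneg e hA₀.le ht htQ
  have htD : t ≤ D := (t_le_floor ht.le hρ htρ hρA).trans hDf
  set D' := Γ * B₁ * D with hD'
  have hD'0 : 0 ≤ D' := by positivity
  have hτD' : τ ≤ D' := by
    calc τ ≤ Γ * t := hτ2
      _ ≤ Γ * D := mul_le_mul_of_nonneg_left htD hΓ0.le
      _ = Γ * 1 * D := by ring
      _ ≤ Γ * B₁ * D := by gcongr
  have hBD : B₁ * D ≤ D' := by
    calc B₁ * D = 1 * B₁ * D := by ring
      _ ≤ Γ * B₁ * D := by gcongr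
  have hwin : a * (a * (a * s) + τ) + τ ≤ G₂ * τ := by
    have h1 : a ^ 3 * s ≤ a ^ 3 * (Γ ^ 2 * τ) := by
      refine mul_le_mul_of_nonneg_left ?_ (by positivity)
      calc s ≤ Γ * t := hs2
        _ ≤ Γ * (Γ * τ) := mul_le_mul_of_nonneg_left htτ hΓ0.le
        _ = _ := by ring
    calc a * (a * (a * s) + τ) + τ = a ^ 3 * s + a * τ + τ := by ring
      _ ≤ a ^ 3 * (Γ ^ 2 * τ) + a * τ + τ := by linarith
      _ = G₂ * τ := by rw [hG₂]; ring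
  have hτs : τ ≤ Γ * Γ * s := by
    calc τ ≤ Γ * t := hτ2
      _ ≤ Γ * (Γ * s) := mul_le_mul_of_nonneg_left hts hΓ0.le
      _ = _ := by ring
  have hxy' : dist x y ≤ C₀ * √Γ * √τ := by
    refine hxy.trans ?_
    rw [mul_assoc, ← Real.sqrt_mul hΓ0.le]
    exact mul_le_mul_of_nonneg_left (Real.sqrt_le_sqrt htτ) hC₀
  have hW := H254.win_of e hG₂0 hx hτ0 hxy' hlo (hGτ.trans hG₃t)
  have hnu : ∀ σ, t / Γ ≤ σ → σ ≤ G₂ * τ →
      H254.nuP (sob m) n (|K| + 1) (1 / 2) (cl m (ww (1 / 2) y)) (ph m p σ x) ≤ D' := by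
    intro σ hσ1 hσ2
    rw [← H254.nuF_eq]
    refine (h₁ Q A₀ ρ t σ x y hA₀.le hx ht hxy ?_ (hσ2.trans hGτ) h9 (h9.trans hQ12)).trans hBD
    refine le_trans ?_ hσ1
    apply div_le_div_of_nonneg_left ht.le hΓ0
    rw [hG₃]
    exact le_mul_of_one_le_left hΓ0.le hG21
  have h9 := (H254.vx_of e.hyp y).L9 (Q := Γ * Γ) hC hBE hW hlo ha1 hBw0 (by linarith) hD'0 hnu hτ0
      hτ12 hτD' hs1 hτs hwin
  rw [← hcq] at h9
  have h10 : cq * D' ≤ (cq * (Γ * B₁) + 8 * A ^ 2 * G₃) * D := by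
    have : 0 ≤ 8 * A ^ 2 * G₃ * D := by positivity
    rw [hD']; nlinarith
  refine ⟨h9.1.trans h10, h9.2.trans ?_⟩
  rw [mul_assoc, mul_assoc]
  exact mul_le_mul_of_nonneg_left h10 hn.le

/-- the first term: the form on `P_τ (w_q - w_x)` -/
theorem e1_voc (e : Env m n K o A p) (R₀ C₀ Γ : ℝ) (hC₀ : 0 ≤ C₀) (hΓ : 1 ≤ Γ) :
    ∃ B, 1 ≤ B ∧ ∀ Q A₀ ρ t s τ : ℝ, ∀ x q : M, 0 < A₀ → 0 < ρ → ρ ^ 2 ≤ A₀ → t ≤ ρ ^ 2 →
      dist x o ≤ R₀ → 0 < t → dist x q ≤ C₀ * √t → t / Γ ≤ s → s ≤ Γ * t → t / Γ ≤ τ →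
      τ ≤ Γ * t → B * t ≤ Q * ρ ^ 2 → Q * ρ ^ 2 ≤ 1 / 2 → t ≤ Q * ρ ^ 2 →
      gam m K p s x ((sob m).P τ (gqx m q x)) ((sob m).P τ (gqx m q x))
        ≤ B * (Dt m n K p Q A₀ ρ t x + Dt m n K p Q A₀ ρ t q) := by
  obtain ⟨B, hB1, hv⟩ := vx_voc e R₀ C₀ Γ hC₀ hΓ
  refine ⟨4 * B, by linarith, ?_⟩
  intro Q A₀ ρ t s τ x q hA₀ hρ hρA htρ hx ht hxq hs1 hs2 hτ1 hτ2 hBt hQ12 htQ
  have hC := H751.env_gamma e
  have hD := hC.toIsDir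
  have hφ := H597.env_cen e x
  have hBE := env_be' e
  have hn := env_n e
  have hBt' : B * t ≤ Q * ρ ^ 2 := by nlinarith
  obtain ⟨vq1, vq2⟩ := hv Q A₀ ρ t s τ x q hA₀ hρ hρA htρ hx ht hxq hs1 hs2 hτ1 hτ2 hBt' hQ12 htQ
  obtain ⟨vx1, vx2⟩ := hv Q A₀ ρ t s τ x x hA₀ hρ hρA htρ hx ht (by rw [dist_self]; positivity)
    hs1 hs2 hτ1 hτ2 hBt' hQ12 htQ
  have hs0 : 0 < s := lt_of_lt_of_le (by positivity) hs1
  have hτ0 : 0 < τ := lt_of_lt_of_le (by positivity) hτ1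
  set wq := cl m (ww (1 / 2) q) with hwq
  set wx := cl m (ww (1 / 2) x) with hwx
  have wq2 : MemLp wq 2 m := hC.memLp _ (H744.w_mem e.hyp q)
  have wx2 : MemLp wx 2 m := hC.memLp _ (H744.w_mem e.hyp x)
  have hB := H597.env_bei' e
  have tq : (sob m).P τ wq ∈ (sob m).Test :=
    hC.P_test_pos hB hτ0 wq2 (H254.vx_of e.hyp q).memA.2
  have tx : (sob m).P τ wx ∈ (sob m).Test :=
    hC.P_test_pos hB hτ0 wx2 (H254.vx_of e.hyp x).memA.2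
  have e1 : (sob m).P τ (gqx m q x) = (sob m).P τ wq - (sob m).P τ wx :=
    hD.P_sub τ wq2 wx2
  have key := NN_diff hC hn hBE tq tx (hφ.memA hD hs0) (hφ.nonneg s hs0)
  have lq := (hD.P_isLap hτ0 wq2).2.1
  have lx := (hD.P_isLap hτ0 wx2).2.1
  have elap : (sob m).lap ((sob m).P τ wq - (sob m).P τ wx)
      = ((sob m).lap ((sob m).P τ wq) - (n : ℝ) • (1 : M →ₘ[m] ℝ))
        - ((sob m).lap ((sob m).P τ wx) - (n : ℝ) • (1 : M →ₘ[m] ℝ)) := by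
    have h1 := hC.lap_eq (hC.isLap_add (hD.P_isLap hτ0 wq2)
      (hC.isLap_smul (-1) (hD.P_isLap hτ0 wx2)))
    rw [show (sob m).P τ wq + (-1 : ℝ) • (sob m).P τ wx
      = (sob m).P τ wq - (sob m).P τ wx by module] at h1
    rw [h1]
    module
  have h5 := I_sq_sub_le (hφ.nonneg s hs0) (mem_sq_sub (hφ.mem1 s hs0) (hφ.top s hs0) lq n)
    (mem_sq_sub (hφ.mem1 s hs0) (hφ.top s hs0) lx n) elap
  set Dx := Dt m n K p Q A₀ ρ t x with hDx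
  set Dq := Dt m n K p Q A₀ ρ t q with hDq
  have h6 : (n : ℝ)⁻¹ * I (ph m p s x * ((sob m).lap ((sob m).P τ wq - (sob m).P τ wx)
      * (sob m).lap ((sob m).P τ wq - (sob m).P τ wx))) ≤ 2 * (B * Dx) + 2 * (B * Dq) := by
    rw [inv_mul_le_iff₀ hn]
    refine h5.trans ?_
    have : (n : ℝ) * (2 * (B * Dx) + 2 * (B * Dq)) = 2 * (n * B * Dx) + 2 * (n * B * Dq) := by ring
    rw [this]
    linarith
  unfold gam
  rw [e1]
  linarith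

end Vale.Agent.P242.H196
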