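import Vale.Agent.P242.H196.RRc

/-!
P242, package A-T7 (helper196): (R1), (R2) in the frozen vocabulary: the outputs at the last level.
-/

set_option linter.all false

open MeasureTheory Filter Topology Set Metric
open scoped ENNReal NNReal MeasureTheory InnerProductSpace

universe u

namespace Vale.Agent.P242.H196

open Vale.Agent.P233 Vale.Agent.P233.RA Vale.Agent.P242.H990 Vale.Agent.P242.H155
  Vale.Agent.P242.H71

/-- the constant of (R1) at the last but one level -/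
noncomputable def cY (Λ θ CL B₁ C₁ : ℝ) : ℝ :=
  (2 * C₁) ^ 2 * (Λ * θ) * ((2 * CL + 1) * B₁ * Λ * (Λ * θ))

theorem cY_nonneg {Λ θ CL B₁ C₁ : ℝ} (hΛ : 0 ≤ Λ) (hθ : 0 ≤ θ) (hCL : 0 ≤ CL) (hB : 0 ≤ B₁) :
    0 ≤ cY Λ θ CL B₁ C₁ := by unfold cY; positivity

variable {M : Type u} [MetricSpace M] [CompleteSpace M] [SecondCountableTopology M]
  [MeasurableSpace M] [BorelSpace M] {m : Measure M} {n : ℕ} {K A : ℝ} {o : M}
  {p : ℝ → M → M → ℝ}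
variable {R Q η ρ : ℝ} {u : Fin n → M →ₘ[m] ℝ} {uu : M → E n}
variable {x q : M} {k : ℕ} {r D : ℕ → ℝ} {Λ θ σ κd CL B₁ C₁ κn A₀ : ℝ}

theorem cR2_nonneg {n : ℕ} {K A Γ R₀ : ℝ} (hA : 1 ≤ A) (hΓ : 0 < Γ) :
    0 ≤ H696.cR2 n K A Γ R₀ := by
  have h1 := H696.cR_pos (n := n) (R := R₀) hA hΓ
  have h2 := H696.cM_pos (n := n) (R := R₀) hA (show 0 < 4 * Γ by positivity)
  have h3 := cK_pos (n := n) (C₀ := 0) hA (show (0 : ℝ) < 512 * A ^ 2 by positivity)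
  have h4 : 0 ≤ cL n n (-|K|) A (512 * A ^ 2) 0 := by unfold cL; positivity
  unfold H696.cR2
  positivity

/-- (R1) at the last but one level, with the size of `c` -/
theorem Lv.near (h : Lv m K p u x q (k + 1) r D Λ θ σ κd CL B₁ C₁ κn A₀ ρ) (e : Env m n K o A p)
    (hu : Cfg m n K o p R Q η ρ u uu) (hη : 0 ≤ η) (hx : x ∈ ball o (R * ρ))
    (hQ : 2 * ρ ^ 2 ≤ Q * ρ ^ 2) (hA₀ : 0 < A₀)
    (hsm : √n * (√2 * (2 * C₁ / κn)) * η ≤ A₀) :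
    ∃ (c : E n) (c₀ : ℝ),
      I (ph m p (r k ^ 2) x * |(sob m).P (r k ^ 2) (gqx m q x) - c₀ • (1 : M →ₘ[m] ℝ) - uc u c|)
        ≤ √(cY Λ θ CL B₁ C₁ * D (k + 1)) * (r (k + 1) * r k) ∧
      (‖c‖ / ρ) ^ 2 ≤ 2 * ((√(cY Λ θ CL B₁ C₁ * D (k + 1)) + C₁) / κn) ^ 2
        * ((r k ^ 2 / ρ ^ 2) ^ (1 / 8 : ℝ)) ^ 2 := by
  have hC := H751.env_gamma e
  have hρ := hu.ρ_pos
  have hφ := H597.env_cen e x
  have hrk := h.r_pos k
  have hrk1 := h.r_pos (k + 1)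
  have hΛ := h.one_le
  have hθ := h.θ1
  have hB1 := h.B1
  have hCL := h.CL0
  have hC1 := h.C1
  obtain ⟨c₀, c, hc⟩ := h.R1 e hu hη hx hQ hA₀ hsm k (Nat.le_succ k)
  have eY : 2 * C₁ * √(Λ * θ) * √((2 * CL + 1) * B₁ * Λ * (Λ * θ) ^ (k + 1 - k) * D (k + 1))
      = √(cY Λ θ CL B₁ C₁ * D (k + 1)) := by
    rw [Nat.add_sub_cancel_left, pow_one]
    have e1 : ∀ X : ℝ, √((2 * C₁) ^ 2 * (Λ * θ) * X) = 2 * C₁ * √(Λ * θ) * √X := fun X => by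
      rw [Real.sqrt_mul (by positivity), Real.sqrt_mul (sq_nonneg _),
        Real.sqrt_sq (by linarith)]
    have e2 : cY Λ θ CL B₁ C₁ * D (k + 1)
        = (2 * C₁) ^ 2 * (Λ * θ) * ((2 * CL + 1) * B₁ * Λ * (Λ * θ) * D (k + 1)) := by
      unfold cY; ring
    rw [e2, e1]
  rw [eY] at hc
  have hc' : I (ph m p (r k ^ 2) x * |(sob m).P (r k ^ 2) (gqx m q x) - c₀ • (1 : M →ₘ[m] ℝ)
      - uc u c|) ≤ √(cY Λ θ CL B₁ C₁ * D (k + 1)) * (r (k + 1) * r k) := hc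
  refine ⟨c, c₀, hc', ?_⟩
  refine h.norm_le hρ (Nat.le_succ k) c (-c₀) (by positivity) ?_
  have htr := h.triv k (Nat.le_succ k)
  set F := (sob m).P (r k ^ 2) (gqx m q x) with hF
  have hFt : MemLp F ∞ m := hC.toIsDir.P_memTop (by positivity) (gqx_mem2 e q x) (gqx_top e q x)
  have hut : MemLp (uc u c) ∞ m := (hC.test_A (H924.uc_testI e hu c).1).2
  have hone : MemLp (c₀ • (1 : M →ₘ[m] ℝ)) ∞ m := mem_smul _ mem_top_one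
  have e3 : uc u c - (-c₀) • (1 : M →ₘ[m] ℝ) = F - (F - c₀ • (1 : M →ₘ[m] ℝ) - uc u c) := by
    module
  rw [e3]
  refine (I_wabs_sub_le (hφ.nonneg _ (by positivity))
    (Near.top_mul (hφ.mem1 _ (by positivity)) hFt)
    (Near.top_mul (hφ.mem1 _ (by positivity)) (mem_sub (mem_sub hFt hone) hut))).trans ?_
  calc I (ph m p (r k ^ 2) x * |F|) + I (ph m p (r k ^ 2) x * |F - c₀ • (1 : M →ₘ[m] ℝ) - uc u c|)
      ≤ C₁ * (r (k + 1) * r k) + √(cY Λ θ CL B₁ C₁ * D (k + 1)) * (r (k + 1) * r k) :=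
        add_le_add htr hc'
    _ = _ := by ring

/-- real arithmetic: the third term of (R2) -/
theorem e3_real {t ρ b N η n Y D₁ C₁ κn w A₀ Dk θ : ℝ} (hn : 0 ≤ n) (hρ : 0 < ρ) (ht : 0 < t)
    (htρ : t ≤ ρ ^ 2) (hη : 0 ≤ η) (hY : 0 ≤ Y) (hD : 0 ≤ D₁) (hκ : 0 < κn) (hC : 0 ≤ C₁)
    (hw : 0 ≤ w) (hw1 : w ≤ 1) (hb : b = Real.exp 1 * (√n * N * (η / ρ ^ 2)))
    (hN : (N / ρ) ^ 2 ≤ 2 * ((√(Y * D₁) + C₁) / κn) ^ 2 * w ^ 2)
    (s1 : 4 * Real.exp 2 * n * η ^ 2 * Y ≤ κn ^ 2)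
    (s2 : 4 * Real.exp 2 * n * η ^ 2 * C₁ ^ 2 ≤ κn ^ 2 * A₀) (hA : A₀ * w ≤ Dk)
    (hDk : Dk ≤ θ * D₁) : t * b ^ 2 ≤ (1 + θ) * D₁ := by
  have hρ2 : 0 < ρ ^ 2 := by positivity
  have e2 : Real.exp 1 ^ 2 = Real.exp 2 := by rw [← Real.exp_nat_mul]; norm_num
  have hκ2 : 0 < κn ^ 2 := by positivity
  have h1 : t * b ^ 2 = Real.exp 2 * n * η ^ 2 * (N / ρ) ^ 2 * (t / ρ ^ 2) := by
    rw [hb, mul_pow, mul_pow, mul_pow, Real.sq_sqrt hn, e2]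
    field_simp
  have h2 : t / ρ ^ 2 ≤ 1 := by rw [div_le_one hρ2]; exact htρ
  have h3 : ((√(Y * D₁) + C₁) / κn) ^ 2 ≤ (2 * (Y * D₁) + 2 * C₁ ^ 2) / κn ^ 2 := by
    rw [div_pow]
    refine div_le_div_of_nonneg_right ?_ hκ2.le
    have := Real.sq_sqrt (show 0 ≤ Y * D₁ by positivity)
    nlinarith [sq_nonneg (√(Y * D₁) - C₁)]
  have hw2 : w ^ 2 ≤ w := by nlinarith
  have hw3 : w ^ 2 ≤ 1 := by nlinarith
  have h4 : Real.exp 2 * n * η ^ 2 * (N / ρ) ^ 2 * (t / ρ ^ 2)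
      ≤ Real.exp 2 * n * η ^ 2 * (2 * ((2 * (Y * D₁) + 2 * C₁ ^ 2) / κn ^ 2) * w ^ 2) * 1 := by
    have a1 : (N / ρ) ^ 2 ≤ 2 * ((2 * (Y * D₁) + 2 * C₁ ^ 2) / κn ^ 2) * w ^ 2 := by
      refine hN.trans ?_
      gcongr
    have a2 : Real.exp 2 * n * η ^ 2 * (N / ρ) ^ 2
        ≤ Real.exp 2 * n * η ^ 2 * (2 * ((2 * (Y * D₁) + 2 * C₁ ^ 2) / κn ^ 2) * w ^ 2) :=
      mul_le_mul_of_nonneg_left a1 (by positivity)
    exact mul_le_mul a2 h2 (by positivity) (le_trans (by positivity) a2)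
  have h5 : Real.exp 2 * n * η ^ 2 * (2 * ((2 * (Y * D₁) + 2 * C₁ ^ 2) / κn ^ 2) * w ^ 2) * 1
      = (4 * Real.exp 2 * n * η ^ 2 * Y) / κn ^ 2 * (D₁ * w ^ 2)
        + (4 * Real.exp 2 * n * η ^ 2 * C₁ ^ 2) / κn ^ 2 * w ^ 2 := by
    field_simp
    ring
  have h6 : (4 * Real.exp 2 * n * η ^ 2 * Y) / κn ^ 2 ≤ 1 := by rw [div_le_one hκ2]; exact s1
  have h7 : (4 * Real.exp 2 * n * η ^ 2 * C₁ ^ 2) / κn ^ 2 ≤ A₀ := by
    rw [div_le_iff₀ hκ2]; linarith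
  have h7' : 0 ≤ (4 * Real.exp 2 * n * η ^ 2 * C₁ ^ 2) / κn ^ 2 := by positivity
  have h8 : (4 * Real.exp 2 * n * η ^ 2 * Y) / κn ^ 2 * (D₁ * w ^ 2) ≤ 1 * D₁ := by
    refine mul_le_mul h6 ?_ (by positivity) (by norm_num)
    nlinarith
  have h9 : (4 * Real.exp 2 * n * η ^ 2 * C₁ ^ 2) / κn ^ 2 * w ^ 2 ≤ A₀ * w := by
    exact mul_le_mul h7 hw2 (by positivity) (h7'.trans h7)
  rw [h1]
  linarith

/-- (R2) at the last level -/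
theorem Lv.R2 (h : Lv m K p u x q (k + 1) r D Λ θ σ κd CL B₁ C₁ κn A₀ ρ) (e : Env m n K o A p)
    (hu : Cfg m n K o p R Q η ρ u uu) (hη : 0 ≤ η) (hx : x ∈ ball o (R * ρ))
    (hx1 : dist x o ≤ 1) (hA₀ : 0 < A₀) {c : E n} {c₀ : ℝ}
    (hc : I (ph m p (r k ^ 2) x * |(sob m).P (r k ^ 2) (gqx m q x) - c₀ • (1 : M →ₘ[m] ℝ)
      - uc u c|) ≤ √(cY Λ θ CL B₁ C₁ * D (k + 1)) * (r (k + 1) * r k))
    (hN : (‖c‖ / ρ) ^ 2 ≤ 2 * ((√(cY Λ θ CL B₁ C₁ * D (k + 1)) + C₁) / κn) ^ 2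
        * ((r k ^ 2 / ρ ^ 2) ^ (1 / 8 : ℝ)) ^ 2)
    (s1 : 4 * Real.exp 2 * n * η ^ 2 * cY Λ θ CL B₁ C₁ ≤ κn ^ 2)
    (s2 : 4 * Real.exp 2 * n * η ^ 2 * C₁ ^ 2 ≤ κn ^ 2 * A₀)
    (hΛA : 8192 * A ^ 4 ≤ Λ ^ 2) (hrk12 : r k ^ 2 ≤ 1 / 2) (hKr : |K| * r k ^ 2 ≤ 1)
    (hrQ : 2 * r k ^ 2 ≤ Q * ρ ^ 2) {Be s : ℝ}
    (he1 : gam m K p s x ((sob m).P (r k ^ 2 / (8192 * A ^ 4) + r k ^ 2) (gqx m q x))
      ((sob m).P (r k ^ 2 / (8192 * A ^ 4) + r k ^ 2) (gqx m q x)) ≤ Be * D (k + 1))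
    (hs1 : r (k + 1) ^ 2 / Λ ^ 2 ≤ s) (hs2 : s ≤ r (k + 1) ^ 2) :
    gm m K p u s x c c ≤ (4 * Be + 4 * (H696.cR2 n K A (Λ ^ 4) 1 * (cY Λ θ CL B₁ C₁ * Λ ^ 2))
      + 2 * ((H254.cA3 n K A 1 * Λ ^ 4 / 2 + 3) * (Λ ^ 2 * (1 + θ)))) * D (k + 1) := by
  have hC := H751.env_gamma e
  have hD := hC.toIsDir
  have hB := H597.env_bei' e
  have hφ := H597.env_cen e x
  have hρ := hu.ρ_pos
  have hA := e.kb.one_le
  have hA4 : 1 ≤ A ^ 4 := one_le_pow₀ hA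
  have hΛ := h.one_le
  have hΛ2 : 1 ≤ Λ ^ 2 := one_le_pow₀ hΛ
  have hrk := h.r_pos k
  have hrk1 := h.r_pos (k + 1)
  have hrΛ := h.rΛ k
  have hD1 := h.D0 (k + 1)
  have hCL := h.CL0
  have hB1 := h.B1
  have hθ := h.θ1
  have hC1 := h.C1
  set a : ℝ := 8192 * A ^ 4 with ha
  have ha1 : 1 ≤ a := by rw [ha]; linarith
  have ha0 : 0 < a := by linarith
  set t := r (k + 1) ^ 2 with ht
  have ht0 : 0 < t := by positivity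
  have hT : r k ^ 2 = Λ ^ 2 * t := by rw [hrΛ, mul_pow]
  set τ := r k ^ 2 / a with hτ
  have hτ0 : 0 < τ := by positivity
  have hτT : τ ≤ r k ^ 2 := div_le_self (by positivity) ha1
  have haτ : a * τ = r k ^ 2 := by rw [hτ]; field_simp
  have hs0 : 0 < s := lt_of_lt_of_le (by positivity) hs1
  have hts : t ≤ Λ ^ 2 * s := by
    rw [div_le_iff₀ (by positivity)] at hs1; linarith
  have hY := cY_nonneg (C₁ := C₁) (by linarith : 0 ≤ Λ) (by linarith : 0 ≤ θ) hCL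
    (by linarith : 0 ≤ B₁)
  set Y := cY Λ θ CL B₁ C₁ with hYd
  set D₁ := D (k + 1) with hD₁
  -- second term
  set F := (sob m).P (r k ^ 2) (gqx m q x) - uc u c with hF
  have hg2 := gqx_mem2 e q x
  have hgt := gqx_top e q x
  have uT := (H924.uc_testI e hu c).1
  have uA := hC.test_A uT
  have hF2 : MemLp F 2 m := mem_sub (hD.P_mem2 _ hg2) (hC.memLp _ uA.1)
  have hFt : MemLp F ∞ m := mem_sub (hD.P_memTop (by positivity) hg2 hgt) uA.2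
  have h2 := H696.reg_gam (Γ := Λ ^ 4) e hx1 hs0 hτ0 hrk12 (by
      exact (mul_le_mul_of_nonneg_left hτT (abs_nonneg K)).trans hKr) (by
      rw [hT]
      calc a * s ≤ a * t := mul_le_mul_of_nonneg_left hs2 ha0.le
        _ ≤ Λ ^ 2 * t := mul_le_mul_of_nonneg_right hΛA ht0.le) (by
      rw [hT]
      calc Λ ^ 2 * t ≤ Λ ^ 2 * (Λ ^ 2 * s) := mul_le_mul_of_nonneg_left hts (by positivity)
        _ = Λ ^ 4 * s := by ring) haτ.le (by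
      calc r k ^ 2 = a * τ := haτ.symm
        _ ≤ Λ ^ 4 * τ := by
          refine mul_le_mul_of_nonneg_right ?_ hτ0.le
          calc a ≤ Λ ^ 2 := hΛA
            _ = Λ ^ 2 * 1 := by ring
            _ ≤ Λ ^ 2 * Λ ^ 2 := mul_le_mul_of_nonneg_left hΛ2 (by positivity)
            _ = Λ ^ 4 := by ring) hF2 hFt c₀
  have e0 : (sob m).P (r k ^ 2) (gqx m q x) - c₀ • (1 : M →ₘ[m] ℝ) - uc u c
      = F - c₀ • (1 : M →ₘ[m] ℝ) := by rw [hF]; abel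
  rw [e0] at hc
  have hI0 : 0 ≤ I (ph m p (r k ^ 2) x * |F - c₀ • (1 : M →ₘ[m] ℝ)|) :=
    I_nonneg (mul_nonneg (hφ.nonneg _ (by positivity)) (abs_nonneg _))
  have hcR : 0 ≤ H696.cR2 n K A (Λ ^ 4) 1 := cR2_nonneg hA (by positivity)
  have h2' : gam m K p s x ((sob m).P τ F) ((sob m).P τ F)
      ≤ H696.cR2 n K A (Λ ^ 4) 1 * (Y * Λ ^ 2) * D₁ := by
    have b1 : (I (ph m p (r k ^ 2) x * |F - c₀ • (1 : M →ₘ[m] ℝ)|)) ^ 2
        ≤ Y * D₁ * (Λ ^ 2 * t ^ 2) := by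
      refine (pow_le_pow_left₀ hI0 hc 2).trans (le_of_eq ?_)
      rw [mul_pow, Real.sq_sqrt (by positivity), mul_pow, hT]
      ring
    have b2 : τ ^ 2 * gam m K p s x ((sob m).P τ F) ((sob m).P τ F)
        ≤ H696.cR2 n K A (Λ ^ 4) 1 * (Y * D₁ * (Λ ^ 2 * t ^ 2)) :=
      h2.trans (mul_le_mul_of_nonneg_left b1 hcR)
    have b3 : t ≤ τ := by
      rw [hτ, le_div_iff₀ ha0, hT]
      calc t * a ≤ t * Λ ^ 2 := mul_le_mul_of_nonneg_left hΛA ht0.le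
        _ = _ := by ring
    have b4 : t ^ 2 ≤ τ ^ 2 := pow_le_pow_left₀ ht0.le b3 2
    have b5 : H696.cR2 n K A (Λ ^ 4) 1 * (Y * D₁ * (Λ ^ 2 * t ^ 2))
        ≤ τ ^ 2 * (H696.cR2 n K A (Λ ^ 4) 1 * (Y * Λ ^ 2) * D₁) := by
      calc H696.cR2 n K A (Λ ^ 4) 1 * (Y * D₁ * (Λ ^ 2 * t ^ 2))
          = t ^ 2 * (H696.cR2 n K A (Λ ^ 4) 1 * (Y * Λ ^ 2) * D₁) := by ring
        _ ≤ _ := mul_le_mul_of_nonneg_right b4 (by positivity)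
    exact le_of_mul_le_mul_left (b2.trans b5) (by positivity)
  -- third term
  have hc3 := H254.cA3_nonneg n K (A := A) 1 hA
  have hsT : 512 * A ^ 2 * s ≤ r k ^ 2 := by
    rw [hT]
    have g1 : 512 * A ^ 2 ≤ Λ ^ 2 := by
      refine le_trans ?_ hΛA
      rw [ha]
      have : A ^ 2 ≤ A ^ 4 := pow_le_pow_right₀ hA (by norm_num)
      linarith
    calc 512 * A ^ 2 * s ≤ 512 * A ^ 2 * t := mul_le_mul_of_nonneg_left hs2 (by positivity)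
      _ ≤ Λ ^ 2 * t := mul_le_mul_of_nonneg_right g1 ht0.le
  have h3 := e3_voc e hu hη c hx hx1 hs0 hτ0 (hsT.trans hrk12) (by linarith)
    ((mul_le_mul_of_nonneg_left hτT (abs_nonneg K)).trans hKr)
  set b := Real.exp 1 * (√n * ‖c‖ * (η / ρ ^ 2)) with hb
  have hw0 : 0 ≤ (r k ^ 2 / ρ ^ 2) ^ (1 / 8 : ℝ) := Real.rpow_nonneg (by positivity) _
  have hw1 : (r k ^ 2 / ρ ^ 2) ^ (1 / 8 : ℝ) ≤ 1 := by
    refine Real.rpow_le_one (by positivity) ?_ (by norm_num)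
    rw [div_le_one (by positivity)]
    exact h.r_sq_le k
  have htb := e3_real (n := (n : ℝ)) (Nat.cast_nonneg n) hρ ht0 (h.r_sq_le (k + 1)) hη hY hD1 h.κn0
    (by linarith) hw0 hw1 hb hN s1 s2 (h.Dfl k (Nat.le_succ k)) (h.Dq k (Nat.lt_succ_self k))
  have h3' : gam m K p s x ((sob m).P τ (uc u c) - uc u c) ((sob m).P τ (uc u c) - uc u c)
      ≤ (H254.cA3 n K A 1 * Λ ^ 4 / 2 + 3) * (Λ ^ 2 * (1 + θ)) * D₁ := by
    refine h3.trans ?_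
    have c1 : H254.cA3 n K A 1 / s / 2 * τ ≤ H254.cA3 n K A 1 * Λ ^ 4 / 2 := by
      have d1 : τ ≤ Λ ^ 4 * s := by
        calc τ ≤ r k ^ 2 := hτT
          _ = Λ ^ 2 * t := hT
          _ ≤ Λ ^ 2 * (Λ ^ 2 * s) := mul_le_mul_of_nonneg_left hts (by positivity)
          _ = Λ ^ 4 * s := by ring
      have d2 : H254.cA3 n K A 1 / s / 2 * τ ≤ H254.cA3 n K A 1 / s / 2 * (Λ ^ 4 * s) :=
        mul_le_mul_of_nonneg_left d1 (by positivity)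
      refine d2.trans (le_of_eq ?_)
      field_simp
    have c2 : τ * b ^ 2 ≤ Λ ^ 2 * (1 + θ) * D₁ := by
      calc τ * b ^ 2 ≤ Λ ^ 2 * t * b ^ 2 := by
            refine mul_le_mul_of_nonneg_right ?_ (sq_nonneg b)
            rw [← hT]; exact hτT
        _ = Λ ^ 2 * (t * b ^ 2) := by ring
        _ ≤ Λ ^ 2 * ((1 + θ) * D₁) := mul_le_mul_of_nonneg_left htb (by positivity)
        _ = _ := by ring
    calc (H254.cA3 n K A 1 / s / 2 * τ + 3) * τ * b ^ 2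
        = (H254.cA3 n K A 1 / s / 2 * τ + 3) * (τ * b ^ 2) := by ring
      _ ≤ (H254.cA3 n K A 1 * Λ ^ 4 / 2 + 3) * (Λ ^ 2 * (1 + θ) * D₁) :=
        mul_le_mul (by linarith) c2 (by positivity) (by positivity)
      _ = _ := by ring
  have key := R2_core hC hB hg2 hgt uT (hφ.memA hD hs0) (hφ.nonneg s hs0)
    (t' := r k ^ 2) (σ' := τ) (by positivity) hτ0 he1 h2' h3'
  unfold gm gam
  refine key.trans (le_of_eq ?_)
  ring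

end Vale.Agent.P242.H196
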