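import Vale.Agent.P242.H196.RRd

/-!
P242, package A-T7 (helper196): the levels of (R1), (R2).
-/

set_option linter.all false

open MeasureTheory Filter Topology Set Metric
open scoped ENNReal NNReal MeasureTheory InnerProductSpace

universe u

namespace Vale.Agent.P242.H196

open Vale.Agent.P233 Vale.Agent.P233.RA Vale.Agent.P242.H990 Vale.Agent.P242.H155
  Vale.Agent.P242.H71

/-! ### real parts -/

/-- the levels -/
theorem exists_levels {Λ Mc t ρ : ℝ} (hΛ : 2 ≤ Λ) (hM : 1 ≤ Mc) (ht : 0 < t) (hρ : 0 < ρ)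
    (h : Mc * Λ ^ 2 * t ≤ ρ ^ 2) : ∃ (k : ℕ) (r : ℕ → ℝ), (∀ j, 0 < r j) ∧
      (∀ j, r j = Λ * r (j + 1)) ∧ r (k + 1) = √t ∧ ρ ^ 2 ≤ Mc * Λ ^ 2 * r 0 ^ 2 ∧
      Mc * r 0 ^ 2 ≤ ρ ^ 2 := by
  have hΛ0 : 0 < Λ := by linarith
  have hMt : 0 < Mc * t := by positivity
  have hΛ2 : 1 < Λ ^ 2 := by nlinarith
  have hx1 : Λ ^ 2 ≤ ρ ^ 2 / (Mc * t) := by
    rw [le_div_iff₀ hMt]; linarith
  obtain ⟨k, hk1, hk2⟩ := exists_nat_pow_near (hΛ2.le.trans hx1) hΛ2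
  obtain ⟨k', rfl⟩ : ∃ k', k = k' + 1 := by
    refine Nat.exists_eq_succ_of_ne_zero fun h0 => ?_
    rw [h0, zero_add, pow_one] at hk2
    linarith
  have ht0 : 0 < √t := Real.sqrt_pos.2 ht
  refine ⟨k', fun j => Λ ^ (k' + 1) * √t / Λ ^ j, fun j => by positivity, fun j => ?_, ?_, ?_, ?_⟩
  · show Λ ^ (k' + 1) * √t / Λ ^ j = Λ * (Λ ^ (k' + 1) * √t / Λ ^ (j + 1))
    rw [pow_succ Λ j]; field_simp
  · show Λ ^ (k' + 1) * √t / Λ ^ (k' + 1) = √t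
    field_simp
  · simp only [pow_zero, div_one]
    rw [mul_pow, Real.sq_sqrt ht.le, ← pow_mul, mul_comm (k' + 1) 2, pow_mul]
    rw [div_lt_iff₀ hMt] at hk2
    rw [pow_succ (Λ ^ 2) (k' + 1)] at hk2
    linarith
  · simp only [pow_zero, div_one]
    rw [mul_pow, Real.sq_sqrt ht.le, ← pow_mul, mul_comm (k' + 1) 2, pow_mul]
    rw [le_div_iff₀ hMt] at hk1
    linarith

/-- the growth `θ = (Λ²)^{1/8}`, `θ⁴ = Λ` -/
theorem theta_pow {Λ : ℝ} (hΛ : 0 ≤ Λ) : ((Λ ^ 2) ^ (1 / 8 : ℝ)) ^ 4 = Λ := by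
  rw [← Real.rpow_natCast, ← Real.rpow_mul (by positivity), ← Real.rpow_natCast,
    ← Real.rpow_mul hΛ]
  norm_num

theorem kd_small {Λ C θ : ℝ} (hC : 1 ≤ C) (hΛ : (4 * C) ^ 4 ≤ Λ) (hθ0 : 0 ≤ θ) (hθ : θ ^ 4 = Λ) :
    (2 * C / Λ) ^ 2 * (Λ * θ) ≤ 1 / 16 := by
  have h1 : 4 * C ≤ θ := by
    rw [← hθ] at hΛ
    exact le_of_pow_le_pow_left₀ (by norm_num) hθ0 hΛ
  have hθ1 : 0 < θ := by linarith
  have hΛ0 : 0 < Λ := by rw [← hθ]; positivity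
  have h2 : 64 * C ^ 2 ≤ θ ^ 3 := by
    calc 64 * C ^ 2 ≤ 64 * C ^ 3 := by
          have : C ^ 2 ≤ C ^ 3 := pow_le_pow_right₀ hC (by norm_num)
          linarith
      _ = (4 * C) ^ 3 := by ring
      _ ≤ θ ^ 3 := pow_le_pow_left₀ (by positivity) h1 3
  have h3 : (2 * C / Λ) ^ 2 * (Λ * θ) = 4 * C ^ 2 * θ / Λ := by field_simp; ring
  rw [h3, div_le_iff₀ hΛ0, ← hθ]
  nlinarith [mul_le_mul_of_nonneg_right h2 hθ0]

theorem DLAt.mono {X : Type*} [MeasurableSpace X] {μ : Measure X} {C : Calc μ} {V : Type*}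
    [AddCommGroup V] [Module ℝ V] {φ : ℝ → X →ₘ[μ] ℝ} {u : V →ₗ[ℝ] (X →ₘ[μ] ℝ)}
    {t t' σ κ L κ' L' : ℝ} (h : DLAt C φ u t t' σ κ L) (hκ : κ ≤ κ') (hL : L ≤ L') :
    DLAt C φ u t t' σ κ' L' := by
  intro F h2 ht c₀ ρ S hρ hS h1 hs
  refine (h F h2 ht c₀ ρ S hρ hS h1 hs).mono ?_
  have := mul_le_mul_of_nonneg_right hκ hρ
  have := mul_le_mul_of_nonneg_right hL hS
  linarith

variable {M : Type u} [MetricSpace M] [CompleteSpace M] [SecondCountableTopology M]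
  [MeasurableSpace M] [BorelSpace M] {m : Measure M} {n : ℕ} {K A : ℝ} {o : M}
  {p : ℝ → M → M → ℝ}
variable {R Q η ρ : ℝ} {u : Fin n → M →ₘ[m] ℝ} {uu : M → E n}
variable {x q : M} {k : ℕ} {r : ℕ → ℝ} {Λ θ σ κd CL B₁ κn A₀ C₀ Bt Mc e₀ : ℝ}

/-- the drop at the levels -/
noncomputable def DD (m : Measure M) (n : ℕ) (K : ℝ) (p : ℝ → M → M → ℝ) (Q A₀ ρ : ℝ) (x q : M)
    (r : ℕ → ℝ) (j : ℕ) : ℝ :=
  Dt m n K p Q A₀ ρ (r j ^ 2) x + Dt m n K p Q A₀ ρ (r j ^ 2) q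

/-- **construction of the level data** -/
theorem lv_mk (e : Env m n K o A p) (hu : Cfg m n K o p R Q η ρ u uu) (hx1 : dist x o ≤ 1)
    (hA₀ : 0 < A₀) (hρA : ρ ^ 2 ≤ A₀) (hQ : 1 ≤ Q) (hC₀ : 1 ≤ C₀) (hΛ : 2 ≤ Λ)
    (hxq : dist x q ≤ C₀ * r k) (hr : ∀ j, 0 < r j) (hrΛ : ∀ j, r j = Λ * r (j + 1))
    (hMc : 1 ≤ Mc) (hM1 : B₁ ≤ Mc) (hM2 : 8 * A ^ 2 ≤ Mc) (hMr : Mc * r 0 ^ 2 ≤ ρ ^ 2)
    (hθ : θ = (Λ ^ 2) ^ (1 / 8 : ℝ)) (hκd0 : 0 ≤ κd) (hκd1 : κd ^ 2 * (Λ * θ) ≤ 1 / 16)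
    (hCL : 0 ≤ CL) (hB₁ : 1 ≤ B₁) (hBt : 1 ≤ Bt) (hκn : 0 < κn) (hσ : σ ≤ 1)
    (hdl : ∀ j < k, DLAt (sob m) (fun s => ph m p s x) (ucL u) (r j ^ 2) (r (j + 1) ^ 2) σ (κd / Λ)
      (CL * r j ^ 2))
    (hnd : ∀ j ≤ k, ∀ (c : E n) (b : ℝ), κn * √(r j ^ 2) * √(Gm m p u (r j ^ 2) x c c)
      ≤ PP m p (r j ^ 2) x |uc u c - b • (1 : M →ₘ[m] ℝ)|)
    (hlow : ∀ j ≤ k, ∀ c : E n, 1 / 2 * (r j ^ 2 / ρ ^ 2) ^ (1 / 8 : ℝ) * ‖c‖ ^ 2
      ≤ Gm m p u (r j ^ 2) x c c)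
    (hsrc : ∀ Q A₀ ρ t s τ : ℝ, ∀ x q : M, 0 < A₀ → 0 < ρ → ρ ^ 2 ≤ A₀ → t ≤ ρ ^ 2 →
      dist x o ≤ 1 → 0 < t → dist x q ≤ C₀ * √t → 0 < s → 0 < τ → t / Λ ^ 4 ≤ s + τ →
      s + τ ≤ Λ ^ 4 * t → B₁ * t ≤ Q * ρ ^ 2 → Q * ρ ^ 2 ≤ 1 / 2 → t ≤ Q * ρ ^ 2 →
      I (ph m p s x * |(sob m).lap ((sob m).P τ (gqx m q x))|)
        ≤ B₁ * (Dt m n K p Q A₀ ρ t x + Dt m n K p Q A₀ ρ t q))
    (htr : ∀ x q s, dist x o ≤ 1 → 0 < s → 8 * A ^ 2 * s ≤ 1 →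
      I (ph m p s x * |gqx m q x|) ≤ Bt * dist x q * (√s + dist x q))
    (hstart : ∃ (c₀ : ℝ) (c : E n), I (ph m p (r 0 ^ 2) x * |(sob m).P (r 0 ^ 2) (gqx m q x)
      - c₀ • (1 : M →ₘ[m] ℝ) - uc u c|) ≤ e₀ * (r 0 ^ 2 / ρ ^ 2) * r 0 ^ 2)
    (he₀ : 0 ≤ e₀) (he₁ : Bt * (C₀ * (√2 + C₀)) * e₀ ≤ A₀) :
    Lv m K p u x q k r (DD m n K p Q A₀ ρ x q r) Λ θ σ κd CL B₁ (Bt * (C₀ * (√2 + C₀))) κn A₀ ρ := by
  have hρ := hu.ρ_pos
  have hρ2 : 0 < ρ ^ 2 := by positivity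
  have hΛ1 : 1 ≤ Λ := by linarith
  have hΛ0 : 0 < Λ := by linarith
  have hQρ : ρ ^ 2 ≤ Q * ρ ^ 2 := by nlinarith
  have hA := e.kb.one_le
  have s2 : 1 ≤ √2 := Real.one_le_sqrt.2 (by norm_num)
  have rle : ∀ i j, i ≤ j → r j ≤ r i := by
    intro i j hij
    induction j, hij using Nat.le_induction with
    | base => exact le_rfl
    | succ j hj ih =>
      refine le_trans ?_ ih
      rw [hrΛ j]
      have := hr (j + 1)
      nlinarith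
  have r2le : ∀ j, r j ^ 2 ≤ r 0 ^ 2 := fun j =>
    pow_le_pow_left₀ (hr j).le (rle 0 j (Nat.zero_le _)) 2
  have r0M : ∀ j, Mc * r j ^ 2 ≤ ρ ^ 2 := fun j =>
    (mul_le_mul_of_nonneg_left (r2le j) (by linarith)).trans hMr
  have rρ : ∀ j, r j ^ 2 ≤ ρ ^ 2 := by
    intro j
    have h1 := r0M j
    have h2 : 1 * r j ^ 2 ≤ Mc * r j ^ 2 := mul_le_mul_of_nonneg_right hMc (sq_nonneg _)
    linarith
  have rQ : ∀ j, r j ^ 2 ≤ Q * ρ ^ 2 := fun j => (rρ j).trans hQρ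
  have hD0 : ∀ j, 0 ≤ DD m n K p Q A₀ ρ x q r j := by
    intro j
    have := hr j
    have h1 := Dt_nonneg (Q := Q) (ρ := ρ) (y := x) e hA₀.le (t := r j ^ 2) (by positivity) (rQ j)
    have h2 := Dt_nonneg (Q := Q) (ρ := ρ) (y := q) e hA₀.le (t := r j ^ 2) (by positivity) (rQ j)
    unfold DD; linarith
  have hDfl : ∀ j, A₀ * (r j ^ 2 / ρ ^ 2) ^ (1 / 8 : ℝ) ≤ DD m n K p Q A₀ ρ x q r j := by
    intro j
    have := hr j
    have h1 := Dt_ge_floor (Q := Q) (A₀ := A₀) (ρ := ρ) (y := x) e (t := r j ^ 2) (by positivity)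
      (rQ j)
    have h2 := Dt_nonneg (Q := Q) (ρ := ρ) (y := q) e hA₀.le (t := r j ^ 2) (by positivity) (rQ j)
    unfold DD; linarith
  have hDq : ∀ j, DD m n K p Q A₀ ρ x q r j ≤ θ * DD m n K p Q A₀ ρ x q r (j + 1) := by
    intro j
    have h0 := hr j
    have h1 := hr (j + 1)
    have e1 : r j ^ 2 / r (j + 1) ^ 2 = Λ ^ 2 := by
      rw [hrΛ j]; field_simp
    have h2 := Dt_mono (Q := Q) (A₀ := A₀) (ρ := ρ) (y := x) e hA₀.le (t := r (j + 1) ^ 2)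
      (t' := r j ^ 2) (by positivity) (pow_le_pow_left₀ h1.le (rle j (j + 1) (Nat.le_succ j)) 2)
      (rQ j) hρ
    have h3 := Dt_mono (Q := Q) (A₀ := A₀) (ρ := ρ) (y := q) e hA₀.le (t := r (j + 1) ^ 2)
      (t' := r j ^ 2) (by positivity) (pow_le_pow_left₀ h1.le (rle j (j + 1) (Nat.le_succ j)) 2)
      (rQ j) hρ
    rw [e1, ← hθ] at h2 h3
    unfold DD
    linarith
  have hθ1 : 1 ≤ θ := by
    rw [hθ]
    exact Real.one_le_rpow (one_le_pow₀ hΛ1) (by norm_num)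
  have hDk : ∀ j, DD m n K p Q A₀ ρ x q r 0 ≤ θ ^ j * DD m n K p Q A₀ ρ x q r j := by
    intro j
    induction j with
    | zero => simp
    | succ j ih =>
      refine ih.trans ?_
      rw [pow_succ, mul_assoc]
      exact mul_le_mul_of_nonneg_left (hDq j) (by positivity)
  have hdist : ∀ j ≤ k, dist x q ≤ C₀ * r j := fun j hj =>
    hxq.trans (mul_le_mul_of_nonneg_left (rle j k hj) (by linarith))
  have htriv : ∀ j ≤ k, I (ph m p (r j ^ 2) x * |(sob m).P (r j ^ 2) (gqx m q x)|)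
      ≤ Bt * (C₀ * (√2 + C₀)) * (r k * r j) := by
    intro j hj
    have hrj := hr j
    have hrk := hr k
    refine (I_abs_P_le e (gqx_mem2 e q x) (by positivity) (by positivity)).trans ?_
    have h1 : 8 * A ^ 2 * (r j ^ 2 + r j ^ 2) ≤ 1 := by
      have h2 : 8 * A ^ 2 * r j ^ 2 ≤ ρ ^ 2 :=
        (mul_le_mul_of_nonneg_right hM2 (sq_nonneg _)).trans (r0M j)
      have h3 := hu.Qρ
      linarith
    refine (htr x q _ hx1 (by positivity) h1).trans ?_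
    have e2 : √(r j ^ 2 + r j ^ 2) = √2 * r j := by
      rw [← two_mul, Real.sqrt_mul (by norm_num), Real.sqrt_sq hrj.le]
    rw [e2]
    have d0 : 0 ≤ dist x q := dist_nonneg
    calc Bt * dist x q * (√2 * r j + dist x q) ≤ Bt * (C₀ * r k) * (√2 * r j + C₀ * r j) := by
          refine mul_le_mul ?_ (by linarith [hdist j hj]) (by positivity) (by positivity)
          exact mul_le_mul_of_nonneg_left hxq (by linarith)
      _ = _ := by ring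
  have hC₁ : 1 ≤ Bt * (C₀ * (√2 + C₀)) := by
    have h1 : 1 ≤ C₀ * (√2 + C₀) := by nlinarith
    nlinarith
  refine
    { r_pos := hr
      rΛ := hrΛ
      one_le := hΛ1
      r0 := rρ 0
      θ1 := hθ1
      D0 := hD0
      Dq := fun j _ => hDq j
      Dfl := fun j _ => hDfl j
      κd0 := hκd0
      κd1 := hκd1
      CL0 := hCL
      B1 := hB₁
      C1 := hC₁
      κn0 := hκn
      σ1 := hσ
      dl := hdl
      nd := hnd
      low := hlow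
      src := ?_
      triv := htriv
      start := ?_ }
  · intro j hj s hs τ hτ
    have hrj := hr j
    have hrj1 := hr (j + 1)
    have hs0 : 0 < s := lt_of_lt_of_le (by positivity) hs.1
    have e3 : √(r j ^ 2) = r j := Real.sqrt_sq hrj.le
    refine hsrc Q A₀ ρ (r j ^ 2) s τ x q hA₀ hρ hρA (rρ j) hx1 (by positivity)
      (by rw [e3]; exact hdist j hj.le) hs0 hτ.1 ?_ ?_ ?_ hu.Qρ (rQ j)
    · have h1 : r j ^ 2 / Λ ^ 4 ≤ r (j + 1) ^ 2 := by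
        rw [div_le_iff₀ (by positivity), hrΛ j]
        have : 1 ≤ Λ ^ 2 := one_le_pow₀ hΛ1
        calc (Λ * r (j + 1)) ^ 2 = r (j + 1) ^ 2 * (Λ ^ 2 * 1) := by ring
          _ ≤ r (j + 1) ^ 2 * (Λ ^ 2 * Λ ^ 2) := by gcongr
          _ = _ := by ring
      linarith [hs.1, hτ.1]
    · have h1 : 16 ≤ Λ ^ 4 := by
        calc (16 : ℝ) = 2 ^ 4 := by norm_num
          _ ≤ Λ ^ 4 := pow_le_pow_left₀ (by norm_num) hΛ 4
      have h2 : 16 * r j ^ 2 ≤ Λ ^ 4 * r j ^ 2 := mul_le_mul_of_nonneg_right h1 (sq_nonneg _)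
      linarith [hs.2, hτ.2, sq_nonneg (r j)]
    · exact ((mul_le_mul_of_nonneg_right hM1 (sq_nonneg _)).trans (r0M j)).trans hQρ
  · have hr0 := hr 0
    have hrk := hr k
    have hrk0 : r 0 = Λ ^ k * r k := by
      clear hdl hnd hlow htriv hdist hxq hstart
      have : ∀ j, r 0 = Λ ^ j * r j := by
        intro j
        induction j with
        | zero => simp
        | succ j ih => rw [ih, hrΛ j, pow_succ]; ring
      exact this k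
    refine R1_start (a := 0) (b := 0) (A := 0) (η' := e₀ * (r 0 ^ 2 / ρ ^ 2)) (C0 := Bt * (C₀ * (√2 + C₀))) (by linarith)
      (by positivity) hrk hr0 ⟨0, 0, ?_⟩ ?_ ?_
    · rw [map_zero, sub_zero, zero_smul, sub_zero]
      exact htriv 0 (Nat.zero_le _)
    · obtain ⟨c₀, c, hc⟩ := hstart
      exact ⟨c₀, c, hc⟩
    · have h1 := hDk k
      have h2 := hDfl 0
      have hz0 : 0 ≤ r 0 ^ 2 / ρ ^ 2 := by positivity
      have hz1 : r 0 ^ 2 / ρ ^ 2 ≤ 1 := by rw [div_le_one hρ2]; exact rρ 0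
      have h3 := rpow_eighth_ge hz0 hz1
      have e4 : r 0 / r k = Λ ^ k := by rw [hrk0]; field_simp
      rw [e4]
      set z := r 0 ^ 2 / ρ ^ 2 with hz
      set Dk := DD m n K p Q A₀ ρ x q r k with hDk'
      have h4 : A₀ * z ≤ θ ^ k * Dk := by
        calc A₀ * z ≤ A₀ * z ^ (1 / 8 : ℝ) := mul_le_mul_of_nonneg_left h3 hA₀.le
          _ ≤ _ := h2.trans h1
      have hDk0 : 0 ≤ Dk := hD0 k
      have h5 : 1 ≤ (2 * CL + 1) * B₁ * Λ := by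
        have a1 : 1 * 1 ≤ (2 * CL + 1) * B₁ := mul_le_mul (by linarith) hB₁ (by norm_num)
          (by linarith)
        have a2 : 1 * 1 ≤ (2 * CL + 1) * B₁ * Λ := mul_le_mul (by linarith) hΛ1 (by norm_num)
          (by linarith)
        linarith
      calc Bt * (C₀ * (√2 + C₀)) * (e₀ * z) * Λ ^ k
          = Bt * (C₀ * (√2 + C₀)) * e₀ * z * Λ ^ k := by ring
        _ ≤ A₀ * z * Λ ^ k := by gcongr
        _ ≤ θ ^ k * Dk * Λ ^ k := by gcongr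
        _ = 1 * ((Λ * θ) ^ k * Dk) := by rw [mul_pow]; ring
        _ ≤ (2 * CL + 1) * B₁ * Λ * ((Λ * θ) ^ k * Dk) :=
          mul_le_mul_of_nonneg_right h5 (by positivity)
        _ = _ := by ring

end Vale.Agent.P242.H196
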