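import Vale.Agent.P242.H196.RRe

/-!
P242, package A-T7 (helper196): (R1), (R2) at one centre, in the form of `Blk_R12`.
-/

set_option linter.all false

open MeasureTheory Filter Topology Set Metric
open scoped ENNReal NNReal MeasureTheory InnerProductSpace

universe u

namespace Vale.Agent.P242.H196

open Vale.Agent.P233 Vale.Agent.P233.RA Vale.Agent.P242.H990 Vale.Agent.P242.H155
  Vale.Agent.P242.H71

/-- the constant of (R2) -/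
noncomputable def cR3 (n : ℕ) (K A Λ θ CL B₁ C₁ Be : ℝ) : ℝ :=
  4 * Be + 4 * (H696.cR2 n K A (Λ ^ 4) 1 * (cY Λ θ CL B₁ C₁ * Λ ^ 2))
    + 2 * ((H254.cA3 n K A 1 * Λ ^ 4 / 2 + 3) * (Λ ^ 2 * (1 + θ)))

/-- the constant of `RR3` -/
noncomputable def cRR (n : ℕ) (K A Λ θ CL B₁ C₁ Be : ℝ) : ℝ :=
  1 + √(cY Λ θ CL B₁ C₁) * Λ + Λ ^ 2 * B₁ + cR3 n K A Λ θ CL B₁ C₁ Be

variable {M : Type u} [MetricSpace M] [CompleteSpace M] [SecondCountableTopology M]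
  [MeasurableSpace M] [BorelSpace M] {m : Measure M} {n : ℕ} {K A : ℝ} {o : M}
  {p : ℝ → M → M → ℝ}
variable {R Q η ρ : ℝ} {u : Fin n → M →ₘ[m] ℝ} {uu : M → E n}
variable {x q : M} {k : ℕ} {r D : ℕ → ℝ} {Λ θ σ κd CL B₁ C₁ κn A₀ C₀ Be D₁ t : ℝ}

/-- the three conclusions at `(x, t)`, vertex `q`, `D₁` the sum of the drops -/
structure RR3 (m : Measure M) {n : ℕ} (K : ℝ) (p : ℝ → M → M → ℝ) (u : Fin n → M →ₘ[m] ℝ)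
    (Λ B D₁ t : ℝ) (x q : M) (c : E n) (b : ℝ) : Prop where
  r1 : PP m p (Λ ^ 2 * t) x
    |(bb m q (Λ ^ 2 * t) - bb m x (Λ ^ 2 * t)) - (b • (1 : M →ₘ[m] ℝ) + uc u c)| ≤ B * √D₁ * t
  r1' : PP m p (Λ ^ 2 * t) x
    |(bb m q (Λ ^ 2 * t) - bb m x (Λ ^ 2 * t)) - (cl m (ww (1 / 2) q) - cl m (ww (1 / 2) x))| ≤
      B * D₁ * t
  r2 : ∀ s, t / Λ ^ 2 ≤ s → s ≤ t → gm m K p u s x c c ≤ B * D₁

theorem gqx_P (e : Env m n K o A p) (q x : M) (T : ℝ) :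
    (sob m).P T (gqx m q x) = bb m q T - bb m x T := by
  have hC := H751.env_gamma e
  exact hC.toIsDir.P_sub _ (hC.memLp _ (H744.w_mem e.hyp q)) (hC.memLp _ (H744.w_mem e.hyp x))

theorem cR3_nonneg (hA : 1 ≤ A) (hΛ : 1 ≤ Λ) (hθ : 0 ≤ θ) (hCL : 0 ≤ CL) (hB : 0 ≤ B₁)
    (hBe : 0 ≤ Be) : 0 ≤ cR3 n K A Λ θ CL B₁ C₁ Be := by
  have hY := cY_nonneg (C₁ := C₁) (by linarith : 0 ≤ Λ) hθ hCL hB
  have hcR := cR2_nonneg (n := n) (K := K) (R₀ := 1) hA (show 0 < Λ ^ 4 by positivity)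
  have hc3 := H254.cA3_nonneg n K (A := A) 1 hA
  unfold cR3
  positivity

/-- **(R1), (R2) at the last level.** -/
theorem Lv.fin (h : Lv m K p u x q (k + 1) r D Λ θ σ κd CL B₁ C₁ κn A₀ ρ)
    (e : Env m n K o A p) (hu : Cfg m n K o p R Q η ρ u uu) (hη : 0 ≤ η) (hη1 : η ≤ 1)
    (hx : x ∈ ball o (R * ρ)) (hx1 : dist x o ≤ 1) (hA₀ : 0 < A₀)
    (hQ : 2 ≤ Q) (hΛ : 2 ≤ Λ)
    (hsm : √n * (√2 * (2 * C₁ / κn)) * η ≤ A₀)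
    (s1 : 4 * Real.exp 2 * n * η ^ 2 * cY Λ θ CL B₁ C₁ ≤ κn ^ 2)
    (s2 : 4 * Real.exp 2 * n * η ^ 2 * C₁ ^ 2 ≤ κn ^ 2 * A₀)
    (hΛA : 8192 * A ^ 4 ≤ Λ ^ 2) (hBe : 1 ≤ Be) (ht : t = r (k + 1) ^ 2) (hD₁ : D₁ = D (k + 1))
    (hsrc : ∀ τ ∈ Ioc 0 (Λ ^ 2 * t),
      I (ph m p (Λ ^ 2 * t) x * |(sob m).lap ((sob m).P τ (gqx m q x))|) ≤ B₁ * D₁)
    (he1 : ∀ s, t / Λ ^ 2 ≤ s → s ≤ t →
      gam m K p s x ((sob m).P (Λ ^ 2 * t / (8192 * A ^ 4) + Λ ^ 2 * t) (gqx m q x))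
        ((sob m).P (Λ ^ 2 * t / (8192 * A ^ 4) + Λ ^ 2 * t) (gqx m q x)) ≤ Be * D₁) :
    ∃ (c : E n) (b : ℝ), RR3 m K p u Λ (cRR n K A Λ θ CL B₁ C₁ Be) D₁ t x q c b := by
  have hC := H751.env_gamma e
  have hD := hC.toIsDir
  have hφ := H597.env_cen e x
  have hρ := hu.ρ_pos
  have hρ2 : 0 < ρ ^ 2 := by positivity
  have hA := e.kb.one_le
  have hΛ1 := h.one_le
  have hΛ0 : 0 < Λ := by linarith
  have hrk := h.r_pos k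
  have hrk1 := h.r_pos (k + 1)
  have hrΛ := h.rΛ k
  have hCL := h.CL0
  have hB1 := h.B1
  have hθ := h.θ1
  have hQ2 : 2 * ρ ^ 2 ≤ Q * ρ ^ 2 := mul_le_mul_of_nonneg_right hQ hρ2.le
  obtain ⟨c, c₀, hc, hN⟩ := h.near e hu hη hx hQ2 hA₀ hsm
  have hD1 := h.D0 (k + 1)
  have ht0 : 0 < t := by rw [ht]; positivity
  have hT : Λ ^ 2 * t = r k ^ 2 := by rw [hrΛ, mul_pow, ht]
  have hTρ : r k ^ 2 ≤ ρ ^ 2 := h.r_sq_le k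
  have hY := cY_nonneg (C₁ := C₁) hΛ0.le (by linarith : 0 ≤ θ) hCL (by linarith : 0 ≤ B₁)
  have hQρ := hu.Qρ
  have hT12 : r k ^ 2 ≤ 1 / 2 := by linarith
  have hKT : |K| * r k ^ 2 ≤ 1 :=
    (mul_le_mul_of_nonneg_left hTρ (abs_nonneg K)).trans (hu.Kρ.trans hη1)
  have hX3' := cR3_nonneg (n := n) (K := K) (C₁ := C₁) hA hΛ1 (by linarith : 0 ≤ θ) hCL
    (by linarith : 0 ≤ B₁) (by linarith : 0 ≤ Be)
  set Y := cY Λ θ CL B₁ C₁ with hYdef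
  have hX1' : 0 ≤ √Y * Λ := by positivity
  have hX2' : 0 ≤ Λ ^ 2 * B₁ := by positivity
  have hcRR : cRR n K A Λ θ CL B₁ C₁ Be = 1 + √Y * Λ + Λ ^ 2 * B₁ + cR3 n K A Λ θ CL B₁ C₁ Be :=
    rfl
  rw [hcRR]
  rw [← hD₁] at hc hN hD1
  have sD : 0 ≤ √D₁ := Real.sqrt_nonneg _
  refine ⟨c, c₀, ?_, ?_, ?_⟩
  · -- (R1)
    have e1 : (bb m q (Λ ^ 2 * t) - bb m x (Λ ^ 2 * t)) - (c₀ • (1 : M →ₘ[m] ℝ) + uc u c)
        = (sob m).P (r k ^ 2) (gqx m q x) - c₀ • (1 : M →ₘ[m] ℝ) - uc u c := by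
      rw [gqx_P e, ← hT]; abel
    rw [e1, hT]
    refine le_trans hc ?_
    have e3 : √(Y * D₁) * (r (k + 1) * r k) = √Y * Λ * (√D₁ * t) := by
      rw [Real.sqrt_mul hY, hrΛ, ht]; ring
    have h1 : 0 ≤ √D₁ * t := by positivity
    rw [e3]
    calc √Y * Λ * (√D₁ * t)
        ≤ (1 + √Y * Λ + Λ ^ 2 * B₁ + cR3 n K A Λ θ CL B₁ C₁ Be) * (√D₁ * t) :=
          mul_le_mul_of_nonneg_right (by linarith) h1
      _ = _ := by ring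
  · -- (R1')
    rw [← gqx_P e]
    have e4 : cl m (ww (1 / 2) q) - cl m (ww (1 / 2) x) = gqx m q x := rfl
    rw [e4]
    have hT0 : 0 < Λ ^ 2 * t := by positivity
    have h1 := I_abs_P_sub_self_le hD hT0 (gqx_mem2 e q x) (hφ.mem2 _ hT0) (hφ.nonneg _ hT0)
      (by positivity : 0 ≤ B₁ * D₁) hsrc
    refine le_trans h1 ?_
    have h3 : 0 ≤ D₁ * t := by positivity
    calc Λ ^ 2 * t * (B₁ * D₁) = Λ ^ 2 * B₁ * (D₁ * t) := by ring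
      _ ≤ (1 + √Y * Λ + Λ ^ 2 * B₁ + cR3 n K A Λ θ CL B₁ C₁ Be) * (D₁ * t) :=
          mul_le_mul_of_nonneg_right (by linarith) h3
      _ = _ := by ring
  · -- (R2)
    intro s hs1 hs2
    have h1 := he1 s hs1 hs2
    rw [hT, hD₁] at h1
    rw [hD₁] at hc hN
    have h2 := h.R2 e hu hη hx hx1 hA₀ hc hN s1 s2 hΛA hT12 hKT (by linarith) h1
      (by rw [← ht]; exact hs1) (by rw [← ht]; exact hs2)
    rw [← hD₁] at h2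
    refine h2.trans ?_
    exact mul_le_mul_of_nonneg_right (by unfold cR3; unfold cR3 at hX3'; linarith) hD1

end Vale.Agent.P242.H196
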