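import Vale.Agent.P242.H196.RRf
import Vale.Agent.P242.H696.StR
import Vale.Agent.P242.H751.BlkNd

/-!
P242, package A-T7 (helper196): (R1), (R2) in the frozen vocabulary, one centre, all constants; the
decay lemma as a hypothesis `DLB`.
-/

set_option linter.all false

open MeasureTheory Filter Topology Set Metric
open scoped ENNReal NNReal MeasureTheory InnerProductSpace

universe u

namespace Vale.Agent.P242.H196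

open Vale.Agent.P233 Vale.Agent.P233.RA Vale.Agent.P242.H990 Vale.Agent.P242.H155
  Vale.Agent.P242.H71

section defs

variable {M : Type u} [MetricSpace M] [MeasurableSpace M] [BorelSpace M]

/-- the decay lemma in the frozen vocabulary (helper542), one environment -/
def DLB (m : Measure M) (n : ℕ) (K : ℝ) (o : M) (p : ℝ → M → M → ℝ) : Prop :=
  ∃ C a₀ : ℝ, 1 ≤ C ∧ 0 < a₀ ∧ a₀ ≤ 1 ∧ ∀ Λ, C ≤ Λ → ∃ CL, 1 ≤ CL ∧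
  ∃ Q₀, 1 ≤ Q₀ ∧ ∀ Q, Q₀ ≤ Q → ∃ R₀, 1 ≤ R₀ ∧ ∀ R, R₀ ≤ R → ∀ e, 0 < e → ∃ ε₁, 0 < ε₁ ∧
    ∀ ε' η ρ, 0 < ε' → ε' ≤ ε₁ → 0 < η → η ≤ ε₁ → ρ ≤ ε₁ →
      ∀ (u : Fin n → M →ₘ[m] ℝ) (uu : M → E n), Cfg m n K o p R Q η ρ u uu →
        ∀ x ∈ ball o (R / 2 * ρ), ∀ t, 0 < t → t ≤ ρ ^ 2 → TTx m K p Q ε' ρ u x (t / Λ ^ 2) →
          DLAt (sob m) (fun s => ph m p s x) (ucL u) t (t / Λ ^ 2) a₀ ((C / Λ + e) / Λ)
            (CL * t / Λ)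

/-- (R1), (R2), one environment; `C₀`, `Λ` arbitrary (large) -/
def RRX (m : Measure M) (n : ℕ) (K : ℝ) (o : M) (p : ℝ → M → M → ℝ) : Prop :=
  ∃ C : ℝ, 2 ≤ C ∧ ∀ C₀, 1 ≤ C₀ → ∀ Λ, C ≤ Λ →
  ∃ Q₀, 1 ≤ Q₀ ∧ ∀ Q, Q₀ ≤ Q → ∃ R₀, 1 ≤ R₀ ∧ ∀ R, R₀ ≤ R → ∃ B ε₁, 1 ≤ B ∧ 0 < ε₁ ∧
    ∀ A₀, 0 < A₀ → ∃ M₀, 1 ≤ M₀ ∧ ∃ η₁, 0 < η₁ ∧
    ∀ ε' η δ ρ, 0 < ε' → ε' ≤ ε₁ → 0 < η → η ≤ η₁ → δ ≤ η₁ → ρ ≤ η₁ →
      ∀ (u : Fin n → M →ₘ[m] ℝ) (uu : M → E n), Cfg m n K o p R Q η ρ u uu →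
        DropS m n K o p R Q δ ρ →
        ∀ x ∈ ball o (R / 2 * ρ), ∀ t, 0 < t → M₀ * t ≤ ρ ^ 2 → TTx m K p Q ε' ρ u x t →
          ∀ q, dist x q ≤ C₀ * √t → ∃ (c : E n) (b : ℝ), RR3 m K p u Λ B
            (Dt m n K p Q A₀ ρ t x + Dt m n K p Q A₀ ρ t q) t x q c b

end defs

/-- choice of `η₁` -/
theorem choose_eta {a b₁ b₂ b₃ b₄ b₅ b₆ : ℝ} (ha : 0 < a) (h1 : 0 ≤ b₁) (h2 : 0 ≤ b₂)
    (h3 : 0 ≤ b₃) (h4 : 0 ≤ b₄) (h5 : 0 ≤ b₅) (h6 : 0 ≤ b₆) :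
    ∃ η₁, 0 < η₁ ∧ η₁ ≤ a ∧ ∀ η, 0 ≤ η → η ≤ η₁ → b₁ * η ≤ 1 ∧ b₂ * η ≤ 1 ∧ b₃ * η ≤ 1 ∧
      b₄ * η ≤ 1 ∧ b₅ * η ≤ 1 ∧ b₆ * η ≤ 1 := by
  set S := 1 + b₁ + b₂ + b₃ + b₄ + b₅ + b₆ with hS
  have hS0 : 0 < S := by positivity
  refine ⟨min a (1 / S), by positivity, min_le_left _ _, fun η h0 h => ?_⟩
  have h7 : S * η ≤ 1 := by
    have := h.trans (min_le_right _ _)
    rw [le_div_iff₀ hS0] at this
    linarith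
  have k : ∀ b, b ≤ S → b * η ≤ 1 := fun b hb => (mul_le_mul_of_nonneg_right hb h0).trans h7
  refine ⟨k _ ?_, k _ ?_, k _ ?_, k _ ?_, k _ ?_, k _ ?_⟩ <;> rw [hS] <;> linarith

variable {M : Type u} [MetricSpace M] [CompleteSpace M] [SecondCountableTopology M]
  [MeasurableSpace M] [BorelSpace M] {m : Measure M} {n : ℕ} {K A : ℝ} {o : M}
  {p : ℝ → M → M → ℝ}
variable {R Q η ρ : ℝ} {u : Fin n → M →ₘ[m] ℝ} {uu : M → E n}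
variable {x q : M} {Λ σ CD e₀ CL B₁ κn A₀ C₀ Be Bt Mc D₁ t ε' : ℝ}

/-- one centre, one vertex, constants fixed -/
theorem rr_at (e : Env m n K o A p) (hu : Cfg m n K o p R Q η ρ u uu) (hη : 0 < η) (hη1 : η ≤ 1)
    (hx : x ∈ ball o (R * ρ)) (hA₀ : 0 < A₀) (hρA : ρ ^ 2 ≤ A₀) (hQ : 2 ≤ Q) (hC₀ : 1 ≤ C₀)
    (hΛ : 2 ≤ Λ) (hCD : 1 ≤ CD) (hΛC : (4 * CD) ^ 4 ≤ Λ) (hΛA : 8192 * A ^ 4 ≤ Λ) (ht : 0 < t)
    (hMc : 1 ≤ Mc) (hM1 : B₁ ≤ Mc) (hM2 : 8 * A ^ 2 ≤ Mc) (hM3 : Be ≤ Mc) (hM4 : Λ ^ 2 ≤ Mc)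
    (htM : Mc * Λ ^ 2 * t ≤ ρ ^ 2) (hT : TTx m K p Q ε' ρ u x t) (hε : ε' ≤ 1 / 16)
    (hxq : dist x q ≤ C₀ * √t)
    (hCL : 0 ≤ CL) (hB₁ : 1 ≤ B₁) (hBt : 1 ≤ Bt) (hBe : 1 ≤ Be) (hκn : 0 < κn) (hσ : σ ≤ 1)
    (hdl : ∀ s, 0 < s → s ≤ ρ ^ 2 → TTx m K p Q ε' ρ u x (s / Λ ^ 2) →
      DLAt (sob m) (fun s => ph m p s x) (ucL u) s (s / Λ ^ 2) σ ((CD / Λ + CD / Λ) / Λ)
            (CL * s / Λ))
    (hnd : ∀ s, 0 < s → s ≤ ρ ^ 2 → TTx m K p Q ε' ρ u x s → ∀ (c : E n) (b : ℝ),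
      κn * √s * √(Gm m p u s x c c) ≤ PP m p s x |uc u c - b • (1 : M →ₘ[m] ℝ)|)
    (hsrc : ∀ Q A₀ ρ t s τ : ℝ, ∀ x q : M, 0 < A₀ → 0 < ρ → ρ ^ 2 ≤ A₀ → t ≤ ρ ^ 2 →
      dist x o ≤ 1 → 0 < t → dist x q ≤ C₀ * √t → 0 < s → 0 < τ → t / Λ ^ 4 ≤ s + τ →
      s + τ ≤ Λ ^ 4 * t → B₁ * t ≤ Q * ρ ^ 2 → Q * ρ ^ 2 ≤ 1 / 2 → t ≤ Q * ρ ^ 2 →
      I (ph m p s x * |(sob m).lap ((sob m).P τ (gqx m q x))|)
        ≤ B₁ * (Dt m n K p Q A₀ ρ t x + Dt m n K p Q A₀ ρ t q))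
    (he1 : ∀ Q A₀ ρ t s τ : ℝ, ∀ x q : M, 0 < A₀ → 0 < ρ → ρ ^ 2 ≤ A₀ → t ≤ ρ ^ 2 →
      dist x o ≤ 1 → 0 < t → dist x q ≤ C₀ * √t → t / Λ ^ 4 ≤ s → s ≤ Λ ^ 4 * t →
      t / Λ ^ 4 ≤ τ → τ ≤ Λ ^ 4 * t → Be * t ≤ Q * ρ ^ 2 → Q * ρ ^ 2 ≤ 1 / 2 → t ≤ Q * ρ ^ 2 →
      gam m K p s x ((sob m).P τ (gqx m q x)) ((sob m).P τ (gqx m q x))
        ≤ Be * (Dt m n K p Q A₀ ρ t x + Dt m n K p Q A₀ ρ t q))
    (htr : ∀ x q s, dist x o ≤ 1 → 0 < s → 8 * A ^ 2 * s ≤ 1 →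
      I (ph m p s x * |gqx m q x|) ≤ Bt * dist x q * (√s + dist x q))
    (hst : ∀ s, ρ ^ 2 / Mc ^ 2 ≤ s → s ≤ ρ ^ 2 / Mc → dist x q ≤ C₀ * √s →
      ∃ (c₀ : ℝ) (c : E n), I (ph m p s x * |(sob m).P s (gqx m q x)
      - c₀ • (1 : M →ₘ[m] ℝ) - uc u c|) ≤ e₀ * (s / ρ ^ 2) * s)
    (he₀ : 0 ≤ e₀) (he₁ : Bt * (C₀ * (√2 + C₀)) * e₀ ≤ A₀)
    (h24 : (1 + 24 * n) * η ≤ 1 / 2)
    (hsm : √n * (√2 * (2 * (Bt * (C₀ * (√2 + C₀))) / κn)) * η ≤ A₀)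
    (s1 : 4 * Real.exp 2 * n * η ^ 2 * cY Λ ((Λ ^ 2) ^ (1 / 8 : ℝ)) CL B₁ (Bt * (C₀ * (√2 + C₀)))
      ≤ κn ^ 2)
    (s2 : 4 * Real.exp 2 * n * η ^ 2 * (Bt * (C₀ * (√2 + C₀))) ^ 2 ≤ κn ^ 2 * A₀) :
    ∃ (c : E n) (b : ℝ), RR3 m K p u Λ
      (cRR n K A Λ ((Λ ^ 2) ^ (1 / 8 : ℝ)) CL B₁ (Bt * (C₀ * (√2 + C₀))) Be)
      (Dt m n K p Q A₀ ρ t x + Dt m n K p Q A₀ ρ t q) t x q c b := by
  have hρ := hu.ρ_pos
  have hρ2 : 0 < ρ ^ 2 := by positivity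
  have hΛ0 : 0 < Λ := by linarith
  have hΛ1 : 1 ≤ Λ := by linarith
  have hΛ2 : 1 ≤ Λ ^ 2 := one_le_pow₀ hΛ1
  have hA := e.kb.one_le
  have hA4 : 1 ≤ A ^ 4 := one_le_pow₀ hA
  have hMc0 : 0 < Mc := by linarith
  have hx1 : dist x o ≤ 1 := (mem_ball.1 hx).le.trans hu.Rρ
  obtain ⟨k, r, hr, hrΛ, hrk, hr0a, hr0b⟩ := exists_levels hΛ hMc ht hρ htM
  have hrk2 : r (k + 1) ^ 2 = t := by rw [hrk, Real.sq_sqrt ht.le]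
  have rle : ∀ i j, i ≤ j → r j ≤ r i := by
    intro i j hij
    induction j, hij using Nat.le_induction with
    | base => exact le_rfl
    | succ j hj ih =>
      refine le_trans ?_ ih
      rw [hrΛ j]
      exact le_mul_of_one_le_left (hr (j + 1)).le hΛ1
  have r2le : ∀ i j, i ≤ j → r j ^ 2 ≤ r i ^ 2 := fun i j hij =>
    pow_le_pow_left₀ (hr j).le (rle i j hij) 2
  have rρ : ∀ j, r j ^ 2 ≤ ρ ^ 2 := by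
    intro j
    have h1 := r2le 0 j (Nat.zero_le _)
    have h2 : 1 * r 0 ^ 2 ≤ Mc * r 0 ^ 2 := mul_le_mul_of_nonneg_right hMc (sq_nonneg _)
    linarith
  have rt : ∀ j ≤ k + 1, t ≤ r j ^ 2 := fun j hj => by
    rw [← hrk2]; exact r2le j (k + 1) hj
  have hxq' : dist x q ≤ C₀ * r (k + 1) := by rw [hrk]; exact hxq
  have hstart := hst (r 0 ^ 2) (by
      rw [div_le_iff₀ (by positivity)]
      calc ρ ^ 2 ≤ Mc * Λ ^ 2 * r 0 ^ 2 := hr0a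
        _ ≤ Mc * Mc * r 0 ^ 2 := by gcongr
        _ = _ := by ring) (by
      rw [le_div_iff₀ hMc0]; linarith) (by
      rw [Real.sqrt_sq (hr 0).le]
      exact hxq'.trans (mul_le_mul_of_nonneg_left (rle 0 (k + 1) (Nat.zero_le _)) (by linarith)))
  set θ := (Λ ^ 2) ^ (1 / 8 : ℝ) with hθ
  have hθ0 : 0 ≤ θ := Real.rpow_nonneg (by positivity) _
  have hL := lv_mk (k := k + 1) (θ := θ) (κd := 2 * CD / Λ) (σ := σ) e hu hx1 hA₀ hρA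
    (by linarith) hC₀ hΛ
    hxq' hr hrΛ hMc hM1 hM2 hr0b hθ (by positivity) (kd_small hCD hΛC hθ0 (theta_pow hΛ0.le)) hCL
    hB₁ hBt hκn hσ (fun j hj => by
      have hrj := hr j
      have e1 : r j ^ 2 / Λ ^ 2 = r (j + 1) ^ 2 := by rw [hrΛ j]; field_simp
      have h1 := hdl (r j ^ 2) (by positivity) (rρ j) (by
        rw [e1]; exact hT.mono (rt (j + 1) hj))
      rw [e1] at h1
      refine h1.mono (le_of_eq (by ring)) ?_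
      exact div_le_self (by positivity) hΛ1) (fun j hj c b => by
      have hrj := hr j
      exact hnd (r j ^ 2) (by positivity) (rρ j) (hT.mono (rt j hj)) c b) (fun j hj c => by
      have hrj := hr j
      exact H597.G_lower e hu (by linarith) hx (by positivity) (rρ j) (hT.mono (rt j hj)) hε hη.le
        h24 c) hsrc htr hstart he₀ he₁
  have hMct : Mc * t ≤ ρ ^ 2 := by
    calc Mc * t = Mc * 1 * t := by ring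
      _ ≤ Mc * Λ ^ 2 * t := by gcongr
      _ ≤ _ := htM
  have hQρ := hu.Qρ
  have hρQ : ρ ^ 2 ≤ Q * ρ ^ 2 := le_mul_of_one_le_left hρ2.le (by linarith)
  have htρ : t ≤ ρ ^ 2 := by
    have : 1 * t ≤ Mc * t := mul_le_mul_of_nonneg_right hMc ht.le
    linarith
  have hΛ24 : Λ ^ 2 ≤ Λ ^ 4 := pow_le_pow_right₀ hΛ1 (by norm_num)
  have hdiv : t / Λ ^ 4 ≤ t / Λ ^ 2 := div_le_div_of_nonneg_left ht.le (by positivity) hΛ24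
  have hdiv1 : t / Λ ^ 4 ≤ t := div_le_self ht.le (one_le_pow₀ hΛ1)
  have h2T : 2 * (Λ ^ 2 * t) ≤ Λ ^ 4 * t := by
    have h4 : 2 ≤ Λ ^ 2 := hΛ.trans (le_self_pow₀ hΛ1 two_ne_zero)
    have : 2 * Λ ^ 2 ≤ Λ ^ 4 := by
      calc 2 * Λ ^ 2 ≤ Λ ^ 2 * Λ ^ 2 := mul_le_mul_of_nonneg_right h4 (by positivity)
        _ = Λ ^ 4 := by ring
    calc 2 * (Λ ^ 2 * t) = 2 * Λ ^ 2 * t := by ring
      _ ≤ Λ ^ 4 * t := mul_le_mul_of_nonneg_right this ht.le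
  have hΛ2t : t ≤ Λ ^ 2 * t := le_mul_of_one_le_left ht.le hΛ2
  have hΛA2 : 8192 * A ^ 4 ≤ Λ ^ 2 := hΛA.trans (le_self_pow₀ hΛ1 two_ne_zero)
  refine hL.fin e hu hη.le hη1 hx hx1 hA₀ hQ hΛ hsm s1 s2 hΛA2 hBe hrk2.symm ?_ ?_ ?_
  · unfold DD
    rw [hrk2]
  · intro τ hτ
    refine hsrc Q A₀ ρ t (Λ ^ 2 * t) τ x q hA₀ hρ hρA htρ hx1 ht hxq (by positivity) hτ.1
      (by linarith [hτ.1]) (by linarith [hτ.2]) ?_ hQρ (htρ.trans hρQ)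
    exact ((mul_le_mul_of_nonneg_right hM1 ht.le).trans hMct).trans hρQ
  · intro s hs1 hs2
    have hτa : Λ ^ 2 * t / (8192 * A ^ 4) ≤ Λ ^ 2 * t := div_le_self (by positivity) (by linarith)
    have hτ0 : 0 < Λ ^ 2 * t / (8192 * A ^ 4) := by positivity
    refine he1 Q A₀ ρ t s _ x q hA₀ hρ hρA htρ hx1 ht hxq (hdiv.trans hs1) (by linarith)
      (by linarith) (by linarith) ?_ hQρ (htρ.trans hρQ)
    exact ((mul_le_mul_of_nonneg_right hM3 ht.le).trans hMct).trans hρQ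

/-- **(R1), (R2)** from the decay lemma -/
theorem rrx (e : Env m n K o A p) (hDL : DLB m n K o p) : RRX m n K o p := by
  obtain ⟨CD, a₀, hCD, ha₀, ha₁, hDL⟩ := hDL
  obtain ⟨κn, hκn, hNd⟩ := H751.blk_Nd M m n K o A p e
  obtain ⟨Bt, hBt, htr⟩ := triv_g e 1
  have hA := e.kb.one_le
  refine ⟨max ((4 * CD) ^ 4) (max (8192 * A ^ 4) 2),
    (le_max_right _ _).trans (le_max_right _ _), ?_⟩
  intro C₀ hC₀ Λ hΛ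
  have hΛC : (4 * CD) ^ 4 ≤ Λ := (le_max_left _ _).trans hΛ
  have hΛA : 8192 * A ^ 4 ≤ Λ := ((le_max_left _ _).trans (le_max_right _ _)).trans hΛ
  have hΛ2 : 2 ≤ Λ := ((le_max_right _ _).trans (le_max_right _ _)).trans hΛ
  have hΛ1 : 1 ≤ Λ := by linarith
  have hΛ0 : 0 < Λ := by linarith
  have hΛCD : CD ≤ Λ := by
    refine le_trans ?_ hΛC
    have h1 : 4 * CD ≤ (4 * CD) ^ 4 := le_self_pow₀ (by linarith) (by norm_num)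
    linarith
  have hC₀0 : 0 ≤ C₀ := by linarith
  obtain ⟨B₁, hB₁, hsrc⟩ := src_voc e 1 C₀ (Λ ^ 4) hC₀0 (one_le_pow₀ hΛ1)
  obtain ⟨Be, hBe, he1⟩ := e1_voc e 1 C₀ (Λ ^ 4) hC₀0 (one_le_pow₀ hΛ1)
  obtain ⟨CL, hCL, Q₁, hQ₁, hDL⟩ := hDL Λ hΛCD
  obtain ⟨Q₂, hQ₂, hNd⟩ := hNd 1 le_rfl
  obtain ⟨Q₃, hQ₃, hSt⟩ := H696.blk_StR M m n K o A p e
  refine ⟨max Q₁ (max Q₂ (max Q₃ 2)), le_max_of_le_left hQ₁, fun Q hQ => ?_⟩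
  have hQ1 : Q₁ ≤ Q := (le_max_left _ _).trans hQ
  have hQ2 : Q₂ ≤ Q := ((le_max_left _ _).trans (le_max_right _ _)).trans hQ
  have hQ3 : Q₃ ≤ Q :=
    ((le_max_left _ _).trans ((le_max_right _ _).trans (le_max_right _ _))).trans hQ
  have hQ4 : 2 ≤ Q :=
    ((le_max_right _ _).trans ((le_max_right _ _).trans (le_max_right _ _))).trans hQ
  obtain ⟨R₁, hR₁, hDL⟩ := hDL Q hQ1
  obtain ⟨R₂, hR₂, hNd⟩ := hNd Q hQ2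
  obtain ⟨R₃, hR₃, hSt⟩ := hSt Q hQ3
  refine ⟨max R₁ (max R₂ R₃), le_max_of_le_left hR₁, fun R hR => ?_⟩
  have hR1 : R₁ ≤ R := (le_max_left _ _).trans hR
  have hR2 : R₂ ≤ R := ((le_max_left _ _).trans (le_max_right _ _)).trans hR
  have hR3 : R₃ ≤ R := ((le_max_right _ _).trans (le_max_right _ _)).trans hR
  obtain ⟨ε₂, hε₂, hDL⟩ := hDL R hR1 (CD / Λ) (by positivity)
  obtain ⟨ε₃, hε₃, hNd⟩ := hNd R hR2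
  have hSt := hSt R hR3
  set C₁ : ℝ := Bt * (C₀ * (√2 + C₀)) with hC₁
  have s2 : 1 ≤ √2 := Real.one_le_sqrt.2 (by norm_num)
  have hC₁1 : 1 ≤ C₁ := by
    have h1 : 1 ≤ C₀ * (√2 + C₀) :=
      one_le_mul_of_one_le_of_one_le hC₀ (by linarith)
    exact one_le_mul_of_one_le_of_one_le hBt h1
  set θ : ℝ := (Λ ^ 2) ^ (1 / 8 : ℝ) with hθ
  have hθ0 : 0 ≤ θ := Real.rpow_nonneg (by positivity) _
  have hCL0 : 0 ≤ CL := by linarith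
  have hY := cY_nonneg (C₁ := C₁) hΛ0.le hθ0 hCL0 (by linarith : 0 ≤ B₁)
  have hn := env_n e
  refine ⟨cRR n K A Λ θ CL B₁ C₁ Be, min ε₂ (min ε₃ (1 / 16)), ?_, by positivity, ?_⟩
  · have h3 := cR3_nonneg (n := n) (K := K) (C₁ := C₁) hA hΛ1 hθ0 hCL0 (by linarith : 0 ≤ B₁)
      (by linarith : 0 ≤ Be)
    have h4 : 0 ≤ √(cY Λ θ CL B₁ C₁) * Λ := by positivity
    have h5 : 0 ≤ Λ ^ 2 * B₁ := by positivity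
    unfold cRR
    linarith
  intro A₀ hA₀
  obtain ⟨M₁, hM₁, hSt⟩ := hSt C₀ (A₀ / C₁) hC₀ (by positivity)
  set Mc : ℝ := max M₁ (max (Λ ^ 2) (max B₁ (max Be (8 * A ^ 2)))) with hMc
  have hMc1 : M₁ ≤ Mc := le_max_left _ _
  have hMc2 : Λ ^ 2 ≤ Mc := (le_max_left _ _).trans (le_max_right _ _)
  have hMc3 : B₁ ≤ Mc := ((le_max_left _ _).trans (le_max_right _ _)).trans (le_max_right _ _)
  have hMc4 : Be ≤ Mc := (((le_max_left _ _).trans (le_max_right _ _)).trans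
    (le_max_right _ _)).trans (le_max_right _ _)
  have hMc5 : 8 * A ^ 2 ≤ Mc := (((le_max_right _ _).trans (le_max_right _ _)).trans
    (le_max_right _ _)).trans (le_max_right _ _)
  have hMc0 : 1 ≤ Mc := hM₁.trans hMc1
  clear_value Mc
  obtain ⟨η₂, hη₂, hSt⟩ := hSt Mc hMc1
  have hexp := Real.exp_pos 2
  obtain ⟨η₁, hη₁, hη₁a, hη₁b⟩ := choose_eta (a := min (min η₂ 1) (min (min ε₂ ε₃) A₀))
    (b₁ := 2 * (1 + 24 * n)) (b₂ := √n * (√2 * (2 * C₁ / κn)) / A₀)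
    (b₃ := 4 * Real.exp 2 * n * cY Λ θ CL B₁ C₁ / κn ^ 2)
    (b₄ := 4 * Real.exp 2 * n * C₁ ^ 2 / (κn ^ 2 * A₀)) (b₅ := 0) (b₆ := 0) (by positivity)
    (by positivity) (by positivity) (by positivity) (by positivity) le_rfl le_rfl
  refine ⟨Mc * Λ ^ 2, one_le_mul_of_one_le_of_one_le hMc0 (one_le_pow₀ hΛ1), η₁, hη₁, ?_⟩
  intro ε' η δ ρ hε0 hε hη0 hη hδ hρ1 u uu hu hDr x hx t ht htM hT q hxq
  have hρ := hu.ρ_pos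
  obtain ⟨t1, t2, t3, t4, -, -⟩ := hη₁b η hη0.le hη
  have hη₁2 : η₁ ≤ η₂ := (hη₁a.trans (min_le_left _ _)).trans (min_le_left _ _)
  have hη₁1 : η₁ ≤ 1 := (hη₁a.trans (min_le_left _ _)).trans (min_le_right _ _)
  have hη₁ε : η₁ ≤ ε₂ :=
    ((hη₁a.trans (min_le_right _ _)).trans (min_le_left _ _)).trans (min_le_left _ _)
  have hη₁ε' : η₁ ≤ ε₃ :=
    ((hη₁a.trans (min_le_right _ _)).trans (min_le_left _ _)).trans (min_le_right _ _)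
  have hη₁A : η₁ ≤ A₀ := (hη₁a.trans (min_le_right _ _)).trans (min_le_right _ _)
  have hρA : ρ ^ 2 ≤ A₀ := by
    have h1 : ρ ≤ 1 := hρ1.trans hη₁1
    have h2 : ρ ≤ A₀ := hρ1.trans hη₁A
    calc ρ ^ 2 = ρ * ρ := sq ρ
      _ ≤ 1 * ρ := mul_le_mul_of_nonneg_right h1 hρ.le
      _ = ρ := one_mul ρ
      _ ≤ A₀ := h2
  have hη1 : η ≤ 1 := hη.trans hη₁1
  have hηη : η ^ 2 ≤ η := by
    calc η ^ 2 = η * η := sq η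
      _ ≤ 1 * η := mul_le_mul_of_nonneg_right hη1 hη0.le
      _ = η := one_mul η
  have hR0 : 0 < R := by linarith
  have hxR : x ∈ ball o (R * ρ) := by
    refine ball_subset_ball ?_ hx
    exact mul_le_mul_of_nonneg_right (by linarith) hρ.le
  refine rr_at (σ := a₀) (CD := CD) (Mc := Mc) (e₀ := A₀ / C₁) (κn := κn) (ε' := ε') e hu hη0 hη1
    hxR hA₀ hρA hQ4 hC₀ hΛ2 hCD hΛC hΛA ht hMc0 hMc3 hMc5 hMc4 hMc2 htM hT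
    ((hε.trans (min_le_right _ _)).trans (min_le_right _ _)) hxq hCL0 hB₁ hBt hBe hκn ha₁
    (fun s hs hsρ hTs => hDL ε' η ρ hε0 (hε.trans (min_le_left _ _)) hη0 (hη.trans hη₁ε)
      (hρ1.trans hη₁ε) u uu hu x hx s hs hsρ hTs)
    (fun s hs hsρ hTs c b => hNd ε' η ρ hε0
      ((hε.trans (min_le_right _ _)).trans (min_le_left _ _)) hη0 (hη.trans hη₁ε')
      (hρ1.trans hη₁ε') u uu hu x hx s hs hsρ hTs s le_rfl (by linarith) c b)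
    hsrc he1 (fun x q s h1 h2 h3 => (htr x q s h1 h2 h3).1)
    (fun s hs1 hs2 hd => hSt η δ ρ hη0 (hη.trans hη₁2) (hδ.trans hη₁2) (hρ1.trans hη₁2) u uu hu
      hDr x hx s hs1 hs2 q hd) (by positivity) ?_ (by linarith) ?_ ?_ ?_
  · rw [← hC₁]
    exact le_of_eq (by field_simp)
  · rw [← hC₁]
    have h1 : √n * (√2 * (2 * C₁ / κn)) * η = √n * (√2 * (2 * C₁ / κn)) / A₀ * η * A₀ := by
      field_simp
    rw [h1]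
    calc _ ≤ 1 * A₀ := mul_le_mul_of_nonneg_right t2 hA₀.le
      _ = A₀ := one_mul _
  · rw [← hC₁, ← hθ]
    have hκ2 : 0 < κn ^ 2 := by positivity
    calc 4 * Real.exp 2 * n * η ^ 2 * cY Λ θ CL B₁ C₁
        = 4 * Real.exp 2 * n * cY Λ θ CL B₁ C₁ / κn ^ 2 * η ^ 2 * κn ^ 2 := by field_simp
      _ ≤ 4 * Real.exp 2 * n * cY Λ θ CL B₁ C₁ / κn ^ 2 * η * κn ^ 2 := by gcongr
      _ ≤ 1 * κn ^ 2 := mul_le_mul_of_nonneg_right t3 hκ2.le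
      _ = _ := one_mul _
  · rw [← hC₁]
    have hκ2 : 0 < κn ^ 2 := by positivity
    calc 4 * Real.exp 2 * n * η ^ 2 * C₁ ^ 2
        = 4 * Real.exp 2 * n * C₁ ^ 2 / (κn ^ 2 * A₀) * η ^ 2 * (κn ^ 2 * A₀) := by field_simp
      _ ≤ 4 * Real.exp 2 * n * C₁ ^ 2 / (κn ^ 2 * A₀) * η * (κn ^ 2 * A₀) := by gcongr
      _ ≤ 1 * (κn ^ 2 * A₀) := mul_le_mul_of_nonneg_right t4 (by positivity)
      _ = _ := one_mul _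

end Vale.Agent.P242.H196
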