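import Vale.Agent.P242.H196.RR
import Vale.Agent.P242.H655.Resc
import Vale.Agent.P242.H771.Sub

/-!
P242, package A-T7 (helper196): the sub-block `H771.SB_RR`, from `RRX` and helper655's rescaling.
-/

set_option linter.all false

open MeasureTheory Filter Topology Set Metric
open scoped ENNReal NNReal MeasureTheory InnerProductSpace

universe u

namespace Vale.Agent.P242.H196

open Vale.Agent.P233 Vale.Agent.P233.RA Vale.Agent.P242.H990 Vale.Agent.P242.H155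
  Vale.Agent.P242.H71

variable {M : Type u} [MetricSpace M] [CompleteSpace M] [SecondCountableTopology M]
  [MeasurableSpace M] [BorelSpace M] {m : Measure M} {n : ℕ} {K A : ℝ} {o : M}
  {p : ℝ → M → M → ℝ}
variable {R Q R' Q' η ρ ρ' δ A₀ A₀' B D₁ D₂ Λ t : ℝ} {u : Fin n → M →ₘ[m] ℝ} {uu : M → E n} {x q y : M}

omit [CompleteSpace M] [SecondCountableTopology M] in
/-- configurations are monotone in `Q` -/
theorem cfg_mono (hu : Cfg m n K o p R Q η ρ u uu) (hQ' : Q' ≤ Q) (hQ0 : 0 < Q') :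
    Cfg m n K o p R Q' η ρ u uu := by
  have hρ := hu.ρ_pos
  have h1 : Q' * ρ ^ 2 ≤ Q * ρ ^ 2 := mul_le_mul_of_nonneg_right hQ' (sq_nonneg _)
  have h2 : ρ ^ 2 / Q ≤ ρ ^ 2 / Q' := div_le_div_of_nonneg_left (sq_nonneg _) hQ0 hQ'
  exact
    { ρ_pos := hu.ρ_pos
      Rρ := hu.Rρ
      Qρ := h1.trans hu.Qρ
      Kρ := hu.Kρ
      test := hu.test
      cont := hu.cont
      rep := hu.rep
      grad := hu.grad
      lap1 := fun x hx s hs hsQ i => hu.lap1 x hx s hs (hsQ.trans h1) i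
      lap2 := fun x hx s hs hsQ i => hu.lap2 x hx s hs (hsQ.trans h1) i
      gram := fun x hx s hs hsQ c c' => hu.gram x hx s (h2.trans hs) (hsQ.trans h1) c c'
      gram1 := fun x hx s hs hsQ c c' => hu.gram1 x hx s (h2.trans hs) (hsQ.trans h1) c c'
      gam := fun x hx s hs hsQ c => hu.gam x hx s (h2.trans hs) (hsQ.trans h1) c
      iso := hu.iso
      dens := hu.dens }

theorem dropS_mono (e : Env m n K o A p) (h : DropS m n K o p R Q δ ρ) (hR : R' * ρ' ≤ R * ρ)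
    (hQ : Q' * ρ' ^ 2 ≤ Q * ρ ^ 2) : DropS m n K o p R' Q' δ ρ' := by
  intro x hx a ha haQ
  have hf : ContinuousOn (fun s => nu m n K p x s x / s) (Ioi 0) :=
    (H744.nu_cont e x x).div continuousOn_id fun s hs => ne_of_gt hs
  have hf0 : ∀ s, 0 < s → 0 ≤ nu m n K p x s x / s := fun s hs =>
    div_nonneg (H744.nu_nonneg e x x hs) hs.le
  refine le_trans ?_ (h x (ball_subset_ball hR hx) a ha (haQ.trans hQ))
  refine intervalIntegral.integral_mono_interval le_rfl haQ hQ ?_ ?_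
  · refine (ae_restrict_mem measurableSet_Ioc).mono fun s hs => ?_
    exact hf0 s (ha.trans hs.1)
  · refine (hf.mono fun s hs => ?_).intervalIntegrable
    rw [uIcc_of_le (haQ.trans hQ)] at hs
    exact ha.trans_le hs.1

/-- comparison of the drop functions -/
theorem Dt_comp (e : Env m n K o A p) (ht : 0 < t) (htQ : t ≤ Q' * ρ' ^ 2)
    (hQ : Q' * ρ' ^ 2 ≤ Q * ρ ^ 2)
    (hfl : A₀' * (t / ρ' ^ 2) ^ (1 / 8 : ℝ) ≤ A₀ * (t / ρ ^ 2) ^ (1 / 8 : ℝ)) :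
    Dt m n K p Q' A₀' ρ' t y ≤ Dt m n K p Q A₀ ρ t y := by
  have hf : ContinuousOn (fun s => nu m n K p y s y / s) (Ioi 0) :=
    (H744.nu_cont e y y).div continuousOn_id fun s hs => ne_of_gt hs
  have hf0 : ∀ s, 0 < s → 0 ≤ nu m n K p y s y / s := fun s hs =>
    div_nonneg (H744.nu_nonneg e y y hs) hs.le
  have h1 : ∫ s in t..Q' * ρ' ^ 2, (t / s) ^ (1 / 8 : ℝ) * (nu m n K p y s y / s)
      ≤ ∫ s in t..Q * ρ ^ 2, (t / s) ^ (1 / 8 : ℝ) * (nu m n K p y s y / s) := by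
    refine intervalIntegral.integral_mono_interval le_rfl htQ hQ ?_
      (H744.ee_int hf t ht ht (htQ.trans hQ))
    refine (ae_restrict_mem measurableSet_Ioc).mono fun s hs => ?_
    have hs0 : 0 < s := ht.trans hs.1
    exact mul_nonneg (Real.rpow_nonneg (by positivity) _) (hf0 s hs0)
  unfold Dt
  linarith

omit [CompleteSpace M] [SecondCountableTopology M] in
theorem RR3.mono {c : E n} {b : ℝ} (h : RR3 m K p u Λ B D₁ t x q c b) (hB : 0 ≤ B) (ht : 0 ≤ t)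
    (hD : D₁ ≤ D₂) : RR3 m K p u Λ B D₂ t x q c b := by
  refine ⟨h.r1.trans ?_, h.r1'.trans ?_, fun s h1 h2 => (h.r2 s h1 h2).trans ?_⟩
  · have := Real.sqrt_le_sqrt hD
    gcongr
  · gcongr
  · gcongr

omit [CompleteSpace M] [SecondCountableTopology M] in
theorem rrAt_of {c : E n} {b : ℝ} (h : RR3 m K p u Λ B
    (Dt m n K p Q A₀ ρ t x + Dt m n K p Q A₀ ρ t q) t x q c b) :
    H771.RRAt m K p u Λ Q A₀ ρ B t x q c b := by
  refine ⟨?_, ?_, h.r2⟩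
  · refine le_trans (le_of_eq ?_) (h.r1.trans (le_of_eq (by ring)))
    congr 2
    abel
  · exact h.r1'.trans (le_of_eq (by ring))

/-- **`SB_RR`** -/
theorem sb_RR (e : Env m n K o A p) : H771.SB_RR m n K o p := by
  obtain ⟨C, hC, hrr⟩ := rrx' e
  have hA := e.kb.one_le
  intro C₀ hC₀
  refine ⟨4 * A ^ 2, by nlinarith, fun Q hQ => ⟨4, by norm_num, fun R hR =>
    ⟨max 16 C, le_max_left _ _, fun Λ hΛ => ?_⟩⟩⟩
  have hQ1 : 1 ≤ Q := by nlinarith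
  have hQ2 : 2 * A ≤ Q := by nlinarith
  obtain ⟨Q₁, hQ₁, hrr⟩ := hrr C₀ hC₀ Λ ((le_max_right _ _).trans hΛ)
  obtain ⟨R₁, hR₁, hrr⟩ := hrr Q₁ le_rfl
  -- the rescaling
  set M₁ : ℝ := max Q₁ (R₁ ^ 2) with hM₁
  have hM1 : 1 ≤ M₁ := hQ₁.trans (le_max_left _ _)
  have hM10 : 0 < M₁ := by linarith
  have hsM : 0 < √M₁ := Real.sqrt_pos.2 hM10
  have hsM1 : 1 ≤ √M₁ := Real.one_le_sqrt.2 hM1
  have hsM2 : √M₁ ^ 2 = M₁ := Real.sq_sqrt hM10.le
  have hRR : R₁ ≤ √M₁ * R / 2 := by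
    have h1 : R₁ ≤ √M₁ := by
      apply Real.le_sqrt_of_sq_le
      exact le_max_right _ _
    have h2 : √M₁ * 4 ≤ √M₁ * R := mul_le_mul_of_nonneg_left hR hsM.le
    linarith
  have hQM : Q₁ ≤ M₁ * Q := by
    calc Q₁ ≤ M₁ := le_max_left _ _
      _ = M₁ * 1 := (mul_one _).symm
      _ ≤ M₁ * Q := mul_le_mul_of_nonneg_left hQ1 hM10.le
  obtain ⟨B, ε₁, hB, hε₁, hrr⟩ := hrr (√M₁ * R / 2) hRR
  obtain ⟨Cr, hCr, hresc⟩ := H655.cfg_resc e (M₁ := M₁) (Q := Q) (R := R) hQ1 hQ hQ2 hR hM1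
  clear_value M₁
  refine ⟨B, hB, ε₁, hε₁, fun A₀ hA₀ _ => ?_⟩
  have hMe : 0 < M₁ ^ (1 / 8 : ℝ) := Real.rpow_pos_of_pos hM10 _
  obtain ⟨M₀, hM₀, η₁, hη₁, hrr⟩ := hrr (A₀ / M₁ ^ (1 / 8 : ℝ)) (by positivity)
  refine ⟨M₁ * M₀, one_le_mul_of_one_le_of_one_le hM1 hM₀, fun M' hM' => ?_⟩
  have hCr0 : 0 < Cr := by linarith
  refine ⟨min (η₁ / Cr) (1 / Cr), by positivity, ?_⟩
  intro ε η δ ρ h1 h2 h3 h4 h5 h6 u uu hu hD hT x hx q hq t ht htM hxq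
  have hρ := hu.ρ_pos
  have hρ2 : 0 < ρ ^ 2 := by positivity
  have hM'0 : 0 < M' := by
    have : 1 ≤ M₁ * M₀ := one_le_mul_of_one_le_of_one_le hM1 hM₀
    linarith
  have hCη : Cr * η ≤ 1 := by
    have := h4.trans (min_le_right _ _)
    rw [le_div_iff₀ hCr0] at this
    linarith
  have hCη1 : Cr * η ≤ η₁ := by
    have := h4.trans (min_le_left _ _)
    rw [le_div_iff₀ hCr0] at this
    linarith
  have hmin : min (η₁ / Cr) (1 / Cr) ≤ η₁ := (min_le_left _ _).trans (div_le_self hη₁.le hCr)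
  have hu' := cfg_mono (hresc η ρ u uu h3 hCη hu) hQM (by linarith)
  have hρ' : 0 < ρ / √M₁ := by positivity
  have hρ'2 : (ρ / √M₁) ^ 2 = ρ ^ 2 / M₁ := by rw [div_pow, hsM2]
  have e1 : √M₁ * R / 2 * (ρ / √M₁) = R / 2 * ρ := by field_simp
  have e1' : √M₁ * R / 2 / 2 * (ρ / √M₁) = R / 4 * ρ := by field_simp; ring
  have e2 : Q₁ * (ρ / √M₁) ^ 2 ≤ Q * ρ ^ 2 := by
    rw [hρ'2]
    calc Q₁ * (ρ ^ 2 / M₁) ≤ (M₁ * Q) * (ρ ^ 2 / M₁) :=
          mul_le_mul_of_nonneg_right hQM (by positivity)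
      _ = Q * ρ ^ 2 := by field_simp
  have hD' : DropS m n K o p (√M₁ * R / 2) Q₁ δ (ρ / √M₁) := by
    refine dropS_mono e hD ?_ e2
    rw [e1]
    have : 0 < R := by linarith
    nlinarith
  have htM' : M₀ * t ≤ (ρ / √M₁) ^ 2 := by
    rw [hρ'2, le_div_iff₀ hM10]
    rw [le_div_iff₀ hM'0] at htM
    calc M₀ * t * M₁ = (M₁ * M₀) * t := by ring
      _ ≤ M' * t := mul_le_mul_of_nonneg_right hM' ht.le
      _ = t * M' := by ring
      _ ≤ ρ ^ 2 := htM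
  have hxb : x ∈ ball o (√M₁ * R / 2 / 2 * (ρ / √M₁)) := by rw [e1']; exact hx
  have hxb2 : x ∈ ball o (R / 2 * ρ) := by
    refine ball_subset_ball ?_ hx
    have : 0 < R := by linarith
    nlinarith
  have hTx : TTx m K p Q₁ ε (ρ / √M₁) u x t := by
    intro s hs hsQ c
    exact TTx_of_TT hT hxb2 ht s hs (hsQ.trans e2) c
  obtain ⟨c, b, hr⟩ := hrr ε (Cr * η) δ (ρ / √M₁) h1 h2 (by positivity) hCη1 (h5.trans hmin)
    ((div_le_self hρ.le hsM1).trans (h6.trans hmin)) u uu hu' hD' x hxb t ht htM' hTx q hxq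
  refine ⟨c, b, rrAt_of (hr.mono (by linarith) ht.le ?_)⟩
  have htρ' : t ≤ (ρ / √M₁) ^ 2 := by
    have : 1 * t ≤ M₀ * t := mul_le_mul_of_nonneg_right hM₀ ht.le
    linarith
  have htQ' : t ≤ Q₁ * (ρ / √M₁) ^ 2 := by
    have : 1 * (ρ / √M₁) ^ 2 ≤ Q₁ * (ρ / √M₁) ^ 2 :=
      mul_le_mul_of_nonneg_right hQ₁ (by positivity)
    linarith
  have hfl : A₀ / M₁ ^ (1 / 8 : ℝ) * (t / (ρ / √M₁) ^ 2) ^ (1 / 8 : ℝ)
      ≤ A₀ * (t / ρ ^ 2) ^ (1 / 8 : ℝ) := by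
    have h7 : t / (ρ / √M₁) ^ 2 = M₁ * (t / ρ ^ 2) := by rw [hρ'2]; field_simp
    rw [h7, Real.mul_rpow hM10.le (by positivity)]
    refine le_of_eq ?_
    field_simp
  exact add_le_add (Dt_comp e ht htQ' e2 hfl) (Dt_comp e ht htQ' e2 hfl)

end Vale.Agent.P242.H196
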